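import Vale.Agent.Lib.P335.G.GDefs

/-! Module GBasic: basic lemmas on `skey`, `star`, `cross`, `sw`, and general block lemmas. -/

namespace Vale.Agent.Lib.P335

open Finset

variable {V : Type*} [Fintype V] [DecidableEq V] {d : V → ℕ}

theorem skey_eq_iff {S : Finset (Sym2 V)} {A B : Gr d} :
    skey S A = skey S B ↔ ∀ e, e ∉ S → (e ∈ A.1 ↔ e ∈ B.1) := by
  unfold skey
  constructor
  · intro h e he
    have := Finset.ext_iff.mp h e
    simp only [mem_sdiff, he, not_false_eq_true, and_true] at this
    exact this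
  · intro h
    ext e
    simp only [mem_sdiff]
    by_cases he : e ∈ S
    · simp [he]
    · simp [he, h e he]

theorem skey_mono {S S' : Finset (Sym2 V)} (h : S ⊆ S') {A B : Gr d} (hk : skey S A = skey S B) :
    skey S' A = skey S' B := by
  rw [skey_eq_iff] at hk ⊢
  exact fun e he => hk e (fun h' => he (h h'))

theorem sw_of_isGr {C : Finset (Sym2 V)} {A : Gr d} (h : IsGr d (symmDiff A.1 C)) :
    sw C A = ⟨_, h⟩ := by
  unfold sw; rw [dif_pos h]

theorem sw_of_not_isGr {C : Finset (Sym2 V)} {A : Gr d} (h : ¬ IsGr d (symmDiff A.1 C)) :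
    sw C A = A := by
  unfold sw; rw [dif_neg h]

theorem sw_invol (C : Finset (Sym2 V)) (A : Gr d) : sw C (sw C A) = A := by
  by_cases h : IsGr d (symmDiff A.1 C)
  · rw [sw_of_isGr h]
    have h2 : symmDiff (symmDiff A.1 C) C = A.1 := symmDiff_symmDiff_cancel_right _ _
    have h3 : IsGr d (symmDiff (⟨_, h⟩ : Gr d).1 C) := by
      show IsGr d (symmDiff (symmDiff A.1 C) C)
      rw [h2]; exact A.2
    rw [sw_of_isGr h3]
    exact Subtype.ext h2
  · rw [sw_of_not_isGr h, sw_of_not_isGr h]

theorem skey_sw {C S : Finset (Sym2 V)} (h : C ⊆ S) (A : Gr d) : skey S (sw C A) = skey S A := by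
  by_cases h1 : IsGr d (symmDiff A.1 C)
  · rw [sw_of_isGr h1, skey_eq_iff]
    intro e he
    have : e ∉ C := fun h' => he (h h')
    simp [Finset.mem_symmDiff, this]
  · rw [sw_of_not_isGr h1]

theorem cross_subset_star (u v x y : V) : cross u v x y ⊆ star {u, v} := by
  intro e he
  simp only [cross, mem_insert, mem_singleton] at he
  simp only [star, mem_filter, mem_univ, true_and, mem_insert, mem_singleton]
  rcases he with rfl | rfl | rfl | rfl
  · exact ⟨u, Or.inl rfl, by simp⟩
  · exact ⟨u, Or.inl rfl, by simp⟩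
  · exact ⟨v, Or.inr rfl, by simp⟩
  · exact ⟨v, Or.inr rfl, by simp⟩

theorem cross_swap_pairs (u v x y : V) : cross x y u v = cross u v x y := by
  ext e
  simp only [cross, mem_insert, mem_singleton]
  rw [Sym2.eq_swap (a := x) (b := u), Sym2.eq_swap (a := x) (b := v),
    Sym2.eq_swap (a := y) (b := u), Sym2.eq_swap (a := y) (b := v)]
  tauto

/-- degree count of a symmetric difference -/
theorem card_filter_symmDiff (A C : Finset (Sym2 V)) (p : Sym2 V → Prop) [DecidablePred p] :
    ((symmDiff A C).filter p).card + 2 * ((A ∩ C).filter p).card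
      = (A.filter p).card + (C.filter p).card := by
  have h1 : (A.filter p).card = ((A \ C).filter p).card + ((A ∩ C).filter p).card := by
    rw [← Finset.card_union_of_disjoint, ← Finset.filter_union, Finset.sdiff_union_inter]
    exact Finset.disjoint_filter_filter (Finset.disjoint_sdiff_inter A C)
  have h2 : (C.filter p).card = ((C \ A).filter p).card + ((A ∩ C).filter p).card := by
    rw [Finset.inter_comm A C, ← Finset.card_union_of_disjoint, ← Finset.filter_union,
      Finset.sdiff_union_inter]
    exact Finset.disjoint_filter_filter (Finset.disjoint_sdiff_inter C A)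
  have h3 : ((symmDiff A C).filter p).card = ((A \ C).filter p).card + ((C \ A).filter p).card := by
    rw [← Finset.card_union_of_disjoint, ← Finset.filter_union]
    · rfl
    · refine Finset.disjoint_filter_filter ?_
      rw [Finset.disjoint_left]
      intro e he he'
      exact (Finset.mem_sdiff.mp he).2 (Finset.mem_sdiff.mp he').1
  omega

/-- graphs agreeing outside `S` have the same degrees inside `S` -/
theorem deg_inter_eq {S : Finset (Sym2 V)} {A B : Gr d} (h : skey S A = skey S B) (w : V) :
    ((A.1 ∩ S).filter (fun e => w ∈ e)).card = ((B.1 ∩ S).filter (fun e => w ∈ e)).card := by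
  have key : ∀ X : Gr d, (X.1.filter (fun e => w ∈ e)).card
      = ((X.1 \ S).filter (fun e => w ∈ e)).card + ((X.1 ∩ S).filter (fun e => w ∈ e)).card := by
    intro X
    rw [← Finset.card_union_of_disjoint, ← Finset.filter_union, Finset.sdiff_union_inter]
    exact Finset.disjoint_filter_filter (Finset.disjoint_sdiff_inter X.1 S)
  have hA := key A
  have hB := key B
  rw [A.2.2 w] at hA
  rw [B.2.2 w] at hB
  unfold skey at h
  rw [h] at hA
  omega

/-- indicator of a site -/
def ind (A : Finset (Sym2 V)) (e : Sym2 V) : ℕ := if e ∈ A then 1 else 0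

theorem ind_le_one (A : Finset (Sym2 V)) (e : Sym2 V) : ind A e ≤ 1 := by
  unfold ind; split_ifs <;> omega

theorem ind_eq_one {A : Finset (Sym2 V)} {e : Sym2 V} : ind A e = 1 ↔ e ∈ A := by
  unfold ind; split_ifs with h <;> simp [h]

theorem ind_eq_zero {A : Finset (Sym2 V)} {e : Sym2 V} : ind A e = 0 ↔ e ∉ A := by
  unfold ind; split_ifs with h <;> simp [h]

theorem ind_eq_iff {A B : Finset (Sym2 V)} {e : Sym2 V} : ind A e = ind B e ↔ (e ∈ A ↔ e ∈ B) := by
  unfold ind; split_ifs with h h' h' <;> simp [h, h']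

theorem card_inter_single (A : Finset (Sym2 V)) (e : Sym2 V) : (A ∩ {e}).card = ind A e := by
  unfold ind
  split_ifs with h
  · rw [Finset.inter_singleton_of_mem h]; simp
  · rw [Finset.inter_singleton_of_notMem h]; simp

theorem card_inter_pair (A : Finset (Sym2 V)) {e1 e2 : Sym2 V} (h : e1 ≠ e2) :
    (A ∩ {e1, e2}).card = ind A e1 + ind A e2 := by
  have : A ∩ {e1, e2} = (A ∩ {e1}) ∪ (A ∩ {e2}) := by
    rw [← Finset.inter_union_distrib_left]; rfl
  rw [this, Finset.card_union_of_disjoint, card_inter_single, card_inter_single]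
  rw [Finset.disjoint_left]
  intro e he he'
  simp only [mem_inter, mem_singleton] at he he'
  exact h (he.2.symm.trans he'.2)

theorem cross_filter_u {u v x y : V} (huv : u ≠ v) (hux : u ≠ x) (huy : u ≠ y) :
    (cross u v x y).filter (fun e => u ∈ e) = {s(u, x), s(u, y)} := by
  ext e
  simp only [cross, mem_filter, mem_insert, mem_singleton]
  constructor
  · rintro ⟨rfl | rfl | rfl | rfl, h⟩
    · simp
    · simp
    · simp at h; tauto
    · simp at h; tauto
  · rintro (rfl | rfl) <;> simp

theorem star_filter_pair {u x y : V} (hux : u ≠ x) (huy : u ≠ y) :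
    (star {x, y}).filter (fun e => u ∈ e) = {s(u, x), s(u, y)} := by
  ext e
  induction e with | _ a b => ?_
  simp only [star, mem_filter, mem_univ, true_and, mem_insert, mem_singleton, Sym2.mem_iff,
    Sym2.eq_iff]
  constructor
  · rintro ⟨⟨w, rfl | rfl, h1⟩, h2⟩ <;> rcases h1 with rfl | rfl <;> rcases h2 with rfl | rfl <;>
      simp_all
  · rintro ((⟨rfl, rfl⟩ | ⟨rfl, rfl⟩) | (⟨rfl, rfl⟩ | ⟨rfl, rfl⟩))
    · exact ⟨⟨b, by simp⟩, by simp⟩
    · exact ⟨⟨a, by simp⟩, by simp⟩
    · exact ⟨⟨b, by simp⟩, by simp⟩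
    · exact ⟨⟨a, by simp⟩, by simp⟩

theorem star_filter_single {u w : V} (huw : w ≠ u) :
    (star {u}).filter (fun e => w ∈ e) = {s(u, w)} := by
  ext e
  induction e with | _ a b => ?_
  simp only [star, mem_filter, mem_univ, true_and, mem_singleton, Sym2.mem_iff,
    Sym2.eq_iff]
  constructor
  · rintro ⟨⟨w, rfl, h1⟩, h2⟩
    rcases h1 with rfl | rfl <;> rcases h2 with rfl | rfl <;> simp_all
  · rintro (⟨rfl, rfl⟩ | ⟨rfl, rfl⟩) <;> simp

theorem cross_filter_v {u v x y : V} (huv : u ≠ v) (hvx : v ≠ x) (hvy : v ≠ y) :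
    (cross u v x y).filter (fun e => v ∈ e) = {s(v, x), s(v, y)} := by
  ext e
  simp only [cross, mem_filter, mem_insert, mem_singleton]
  constructor
  · rintro ⟨rfl | rfl | rfl | rfl, h⟩
    · simp at h; tauto
    · simp at h; tauto
    · simp
    · simp
  · rintro (rfl | rfl) <;> simp

theorem cross_filter_x {u v x y : V} (hxy : x ≠ y) (hux : u ≠ x) (hvx : v ≠ x) :
    (cross u v x y).filter (fun e => x ∈ e) = {s(u, x), s(v, x)} := by
  ext e
  simp only [cross, mem_filter, mem_insert, mem_singleton]
  constructor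
  · rintro ⟨rfl | rfl | rfl | rfl, h⟩
    · simp
    · simp at h; tauto
    · simp
    · simp at h; tauto
  · rintro (rfl | rfl) <;> simp

theorem cross_filter_y {u v x y : V} (hxy : x ≠ y) (huy : u ≠ y) (hvy : v ≠ y) :
    (cross u v x y).filter (fun e => y ∈ e) = {s(u, y), s(v, y)} := by
  ext e
  simp only [cross, mem_filter, mem_insert, mem_singleton]
  constructor
  · rintro ⟨rfl | rfl | rfl | rfl, h⟩
    · simp at h; tauto
    · simp
    · simp at h; tauto
    · simp
  · rintro (rfl | rfl) <;> simp

theorem cross_filter_other {u v x y w : V} (hu : w ≠ u) (hv : w ≠ v) (hx : w ≠ x) (hy : w ≠ y) :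
    (cross u v x y).filter (fun e => w ∈ e) = ∅ := by
  ext e
  simp only [cross, mem_filter, mem_insert, mem_singleton, notMem_empty, iff_false, not_and]
  rintro (rfl | rfl | rfl | rfl) <;> simp [hu, hv, hx, hy]

/-- the four degrees of `A ∩ cross u v x y` -/
theorem cross_deg (A : Finset (Sym2 V)) {u v x y : V} (huv : u ≠ v) (hxy : x ≠ y) (hux : u ≠ x)
    (huy : u ≠ y) (hvx : v ≠ x) (hvy : v ≠ y) :
    ((A ∩ cross u v x y).filter (fun e => u ∈ e)).card = ind A s(u, x) + ind A s(u, y) ∧
    ((A ∩ cross u v x y).filter (fun e => v ∈ e)).card = ind A s(v, x) + ind A s(v, y) ∧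
    ((A ∩ cross u v x y).filter (fun e => x ∈ e)).card = ind A s(u, x) + ind A s(v, x) ∧
    ((A ∩ cross u v x y).filter (fun e => y ∈ e)).card = ind A s(u, y) + ind A s(v, y) := by
  refine ⟨?_, ?_, ?_, ?_⟩
  · rw [← Finset.inter_filter, cross_filter_u huv hux huy, card_inter_pair]
    simp [hxy, huy]
  · rw [← Finset.inter_filter, cross_filter_v huv hvx hvy, card_inter_pair]
    simp [hxy, hvy]
  · rw [← Finset.inter_filter, cross_filter_x hxy hux hvx, card_inter_pair]
    simp [huv, hux]
  · rw [← Finset.inter_filter, cross_filter_y hxy huy hvy, card_inter_pair]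
    simp [huv, huy]

theorem isGr_symmDiff_iff (A : Gr d) (C : Finset (Sym2 V)) :
    IsGr d (symmDiff A.1 C) ↔ (∀ e ∈ C, ¬ e.IsDiag) ∧
      ∀ w, (C.filter (fun e => w ∈ e)).card = 2 * ((A.1 ∩ C).filter (fun e => w ∈ e)).card := by
  constructor
  · intro h
    refine ⟨fun e he hd => ?_, fun w => ?_⟩
    · have : e ∉ A.1 := fun h' => A.2.1 e h' hd
      exact h.1 e (by simp [Finset.mem_symmDiff, he, this]) hd
    · have h1 := card_filter_symmDiff A.1 C (fun e => w ∈ e)
      rw [h.2 w, A.2.2 w] at h1
      omega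
  · rintro ⟨h1, h2⟩
    refine ⟨fun e he => ?_, fun w => ?_⟩
    · rw [Finset.mem_symmDiff] at he
      rcases he with he | he
      · exact A.2.1 e he.1
      · exact h1 e he.1
    · have h3 := card_filter_symmDiff A.1 C (fun e => w ∈ e)
      rw [A.2.2 w, h2 w] at h3
      omega

theorem sw_ne_iff_isGr {C : Finset (Sym2 V)} (hC : C.Nonempty) (A : Gr d) :
    sw C A ≠ A ↔ IsGr d (symmDiff A.1 C) := by
  constructor
  · intro h
    by_contra h'
    exact h (sw_of_not_isGr h')
  · intro h h'
    rw [sw_of_isGr h] at h'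
    have h2 : symmDiff A.1 C = A.1 := congrArg Subtype.val h'
    obtain ⟨e, he⟩ := hC
    have := Finset.ext_iff.mp h2 e
    simp only [Finset.mem_symmDiff, he, not_true_eq_false, and_false, true_and, false_or] at this
    tauto

theorem cross_nonempty (u v x y : V) : (cross u v x y).Nonempty := ⟨s(u, x), by simp [cross]⟩

/-- the set `D`: the switch on `cross u v x y` moves `A` iff `A` contains exactly one of the two
diagonals of the 4-cycle -/
theorem sw_cross_ne_iff {u v x y : V} (huv : u ≠ v) (hxy : x ≠ y) (hux : u ≠ x)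
    (huy : u ≠ y) (hvx : v ≠ x) (hvy : v ≠ y) (A : Gr d) :
    sw (cross u v x y) A ≠ A ↔
      (ind A.1 s(u, x) = 1 ∧ ind A.1 s(v, y) = 1 ∧ ind A.1 s(u, y) = 0 ∧ ind A.1 s(v, x) = 0) ∨
      (ind A.1 s(u, x) = 0 ∧ ind A.1 s(v, y) = 0 ∧ ind A.1 s(u, y) = 1 ∧ ind A.1 s(v, x) = 1) := by
  rw [sw_ne_iff_isGr (cross_nonempty u v x y), isGr_symmDiff_iff]
  obtain ⟨h1, h2, h3, h4⟩ := cross_deg A.1 huv hxy hux huy hvx hvy
  have b1 := ind_le_one A.1 s(u, x)
  have b2 := ind_le_one A.1 s(u, y)
  have b3 := ind_le_one A.1 s(v, x)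
  have b4 := ind_le_one A.1 s(v, y)
  have c1 : ((cross u v x y).filter (fun e => u ∈ e)).card = 2 := by
    rw [cross_filter_u huv hux huy, Finset.card_pair]; simp [hxy, huy]
  have c2 : ((cross u v x y).filter (fun e => v ∈ e)).card = 2 := by
    rw [cross_filter_v huv hvx hvy, Finset.card_pair]; simp [hxy, hvy]
  have c3 : ((cross u v x y).filter (fun e => x ∈ e)).card = 2 := by
    rw [cross_filter_x hxy hux hvx, Finset.card_pair]; simp [huv, hux]
  have c4 : ((cross u v x y).filter (fun e => y ∈ e)).card = 2 := by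
    rw [cross_filter_y hxy huy hvy, Finset.card_pair]; simp [huv, huy]
  constructor
  · rintro ⟨-, h⟩
    have e1 := h u
    have e2 := h v
    have e3 := h x
    have e4 := h y
    rw [c1, h1] at e1
    rw [c2, h2] at e2
    rw [c3, h3] at e3
    rw [c4, h4] at e4
    omega
  · intro h
    refine ⟨?_, fun w => ?_⟩
    · intro e he
      simp only [cross, mem_insert, mem_singleton] at he
      rcases he with rfl | rfl | rfl | rfl <;> simp [hux, huy, hvx, hvy]
    · by_cases hu : w = u
      · subst hu; rw [c1, h1]; omega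
      by_cases hv : w = v
      · subst hv; rw [c2, h2]; omega
      by_cases hx : w = x
      · subst hx; rw [c3, h3]; omega
      by_cases hy : w = y
      · subst hy; rw [c4, h4]; omega
      rw [← Finset.inter_filter, cross_filter_other hu hv hx hy]
      simp

/-- the switch is trivial unless the four vertices are distinct -/
theorem sw_cross_of_not_distinct {u v x y : V}
    (h : ¬ (u ≠ v ∧ x ≠ y ∧ u ≠ x ∧ u ≠ y ∧ v ≠ x ∧ v ≠ y)) (A : Gr d) :
    sw (cross u v x y) A = A := by
  by_contra hne
  rw [← ne_eq, sw_ne_iff_isGr (cross_nonempty u v x y), isGr_symmDiff_iff] at hne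
  obtain ⟨h1, h2⟩ := hne
  have hux : u ≠ x := fun h' => h1 s(u, x) (by simp [cross]) (by simp [h'])
  have huy : u ≠ y := fun h' => h1 s(u, y) (by simp [cross]) (by simp [h'])
  have hvx : v ≠ x := fun h' => h1 s(v, x) (by simp [cross]) (by simp [h'])
  have hvy : v ≠ y := fun h' => h1 s(v, y) (by simp [cross]) (by simp [h'])
  by_cases huv : u = v
  · subst huv
    have : (cross u u x y).filter (fun e => x ∈ e) = {s(u, x)} := by
      ext e
      simp only [cross, mem_filter, mem_insert, mem_singleton]
      constructor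
      · rintro ⟨rfl | rfl | rfl | rfl, h⟩
        · rfl
        · simp at h; rcases h with h | h
          · exact absurd h.symm hux
          · rw [h]
        · rfl
        · simp at h; rcases h with h | h
          · exact absurd h.symm hux
          · rw [h]
      · rintro rfl; simp
    have h3 := h2 x
    rw [this] at h3
    simp at h3
    omega
  · have hxy : x = y := by
      by_contra hxy
      exact h ⟨huv, hxy, hux, huy, hvx, hvy⟩
    subst hxy
    have : (cross u v x x).filter (fun e => u ∈ e) = {s(u, x)} := by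
      ext e
      simp only [cross, mem_filter, mem_insert, mem_singleton]
      constructor
      · rintro ⟨rfl | rfl | rfl | rfl, h⟩
        · rfl
        · rfl
        · simp at h; tauto
        · simp at h; tauto
      · rintro rfl; simp
    have h3 := h2 u
    rw [this] at h3
    simp at h3
    omega

/-- graphs agreeing on all sites not incident to `u` are equal -/
theorem eq_of_skey_star_singleton {u : V} {A B : Gr d} (h : skey (star {u}) A = skey (star {u}) B) :
    A = B := by
  apply Subtype.ext
  ext e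
  by_cases he : e ∈ star {u}
  · induction e with | _ a b => ?_
    have key : ∀ w, w ≠ u → (s(u, w) ∈ A.1 ↔ s(u, w) ∈ B.1) := by
      intro w hw
      have h1 := deg_inter_eq h w
      rw [← Finset.inter_filter, ← Finset.inter_filter, star_filter_single hw, card_inter_single,
        card_inter_single, ind_eq_iff] at h1
      exact h1
    simp only [star, mem_filter, mem_univ, true_and, mem_singleton, exists_eq_left,
      Sym2.mem_iff] at he
    by_cases hab : a = b
    · subst hab
      constructor
      · intro h'; exact absurd (by simp) (A.2.1 _ h')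
      · intro h'; exact absurd (by simp) (B.2.1 _ h')
    · rcases he with rfl | rfl
      · exact key b (fun h' => hab h'.symm)
      · rw [Sym2.eq_swap]; exact key a hab
  · exact (skey_eq_iff.mp h) e he

/-- two functions with the same pairings are equal -/
theorem eq_of_forall_pairing {Ω : Type*} [Fintype Ω] (a b : Ω → ℝ)
    (h : ∀ g : Ω → ℝ, ∑ x, g x * a x = ∑ x, g x * b x) : a = b := by
  have h0 := h (fun x => a x - b x)
  have h1 : ∑ x, (a x - b x) * (a x - b x) = 0 := by
    have : ∑ x, (a x - b x) * (a x - b x)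
        = ∑ x, (a x - b x) * a x - ∑ x, (a x - b x) * b x := by
      rw [← Finset.sum_sub_distrib]
      exact Finset.sum_congr rfl (fun x _ => by ring)
    rw [this, h0]; simp
  funext x
  have h2 := (Finset.sum_eq_zero_iff_of_nonneg
    (fun x _ => mul_self_nonneg (a x - b x))).mp h1 x (Finset.mem_univ _)
  have := mul_self_eq_zero.mp h2
  linarith

/-- tower property for a coarser key -/
theorem avgK_tower {Ω K K' : Type*} [Fintype Ω] [DecidableEq K] [DecidableEq K'] (p : Ω → K)
    (p' : Ω → K') (h : ∀ x y, p x = p y → p' x = p' y) (f : Ω → ℝ) :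
    avgK p' (avgK p f) = avgK p' f ∧ avgK p (avgK p' f) = avgK p' f := by
  have h2 : ∀ g : Ω → ℝ, avgK p (avgK p' g) = avgK p' g := fun g =>
    avgK_of_inv p _ (fun x y hxy => avgK_congr p' g (h x y hxy))
  refine ⟨?_, h2 f⟩
  apply eq_of_forall_pairing
  intro g
  rw [avgK_symm p' g (avgK p f), avgK_symm p (avgK p' g) f, h2 g, avgK_symm p' g f]

/-- nested blocks -/
theorem blk_nested {S S' : Finset (Sym2 V)} (h : S ⊆ S') (f : Gr d → ℝ) :
    avgK (skey S') (avgK (skey S) f) = avgK (skey S') f ∧
    avgK (skey S) (avgK (skey S') f) = avgK (skey S') f :=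
  avgK_tower (skey S) (skey S') (fun _ _ hk => skey_mono h hk) f

/-- equality of two averages through a bijection of the classes -/
theorem avgK_eq_of_bij {Ω K : Type*} [Fintype Ω] [DecidableEq K] (p : Ω → K) (g : Ω → ℝ)
    (x1 x2 : Ω) (θ θ' : Ω → Ω) (h1 : ∀ y, p y = p x1 → p (θ y) = p x2)
    (h2 : ∀ y, p y = p x2 → p (θ' y) = p x1) (h3 : ∀ y, p y = p x1 → θ' (θ y) = y)
    (h4 : ∀ y, p y = p x2 → θ (θ' y) = y) (h5 : ∀ y, p y = p x1 → g (θ y) = g y) :
    avgK p g x1 = avgK p g x2 := by
  unfold avgK
  have e1 : ∑ y ∈ univ.filter (fun y => p y = p x1), g y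
      = ∑ y ∈ univ.filter (fun y => p y = p x2), g y := by
    refine Finset.sum_nbij' θ θ' ?_ ?_ ?_ ?_ ?_
    · intro y hy; simp only [mem_filter, mem_univ, true_and] at hy ⊢; exact h1 y hy
    · intro y hy; simp only [mem_filter, mem_univ, true_and] at hy ⊢; exact h2 y hy
    · intro y hy; simp only [mem_filter, mem_univ, true_and] at hy; exact h3 y hy
    · intro y hy; simp only [mem_filter, mem_univ, true_and] at hy; exact h4 y hy
    · intro y hy; simp only [mem_filter, mem_univ, true_and] at hy; exact (h5 y hy).symm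
  have e2 : (univ.filter (fun y => p y = p x1)).card = (univ.filter (fun y => p y = p x2)).card := by
    refine Finset.card_nbij' θ θ' ?_ ?_ ?_ ?_
    · intro y hy; simp only [coe_filter, mem_univ, true_and, Set.mem_ofPred_eq] at hy ⊢; exact h1 y hy
    · intro y hy; simp only [coe_filter, mem_univ, true_and, Set.mem_ofPred_eq] at hy ⊢; exact h2 y hy
    · intro y hy; simp only [coe_filter, mem_univ, true_and, Set.mem_ofPred_eq] at hy; exact h3 y hy
    · intro y hy; simp only [coe_filter, mem_univ, true_and, Set.mem_ofPred_eq] at hy; exact h4 y hy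
  rw [e1, e2]

/-- replace the part of `B` inside `S` by that of `A` (if this is a graph) -/
def graft (S : Finset (Sym2 V)) (A B : Gr d) : Gr d :=
  if h : IsGr d ((B.1 \ S) ∪ (A.1 ∩ S)) then ⟨_, h⟩ else B

theorem graft_val {S : Finset (Sym2 V)} {A B : Gr d}
    (h : ∀ w, ((A.1 ∩ S).filter (fun e => w ∈ e)).card = ((B.1 ∩ S).filter (fun e => w ∈ e)).card) :
    (graft S A B).1 = (B.1 \ S) ∪ (A.1 ∩ S) := by
  have hG : IsGr d ((B.1 \ S) ∪ (A.1 ∩ S)) := by
    refine ⟨fun e he => ?_, fun w => ?_⟩
    · rw [Finset.mem_union] at he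
      rcases he with he | he
      · exact B.2.1 e (Finset.mem_sdiff.mp he).1
      · exact A.2.1 e (Finset.mem_inter.mp he).1
    · rw [Finset.filter_union, Finset.card_union_of_disjoint, h w,
        ← Finset.card_union_of_disjoint, ← Finset.filter_union, Finset.sdiff_union_inter, B.2.2 w]
      · exact Finset.disjoint_filter_filter (Finset.disjoint_sdiff_inter B.1 S)
      · refine Finset.disjoint_filter_filter ?_
        rw [Finset.disjoint_left]
        intro e he he'
        exact (Finset.mem_sdiff.mp he).2 (Finset.mem_inter.mp he').2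
  unfold graft
  rw [dif_pos hG]

theorem mem_graft {S : Finset (Sym2 V)} {A B : Gr d}
    (h : ∀ w, ((A.1 ∩ S).filter (fun e => w ∈ e)).card = ((B.1 ∩ S).filter (fun e => w ∈ e)).card)
    (e : Sym2 V) : e ∈ (graft S A B).1 ↔ if e ∈ S then e ∈ A.1 else e ∈ B.1 := by
  rw [graft_val h]
  by_cases he : e ∈ S <;> simp [he]

/-- disjoint blocks commute -/
theorem blk_comm {S S' : Finset (Sym2 V)} (h : Disjoint S S') (f : Gr d → ℝ) :
    avgK (skey S) (avgK (skey S') f) = avgK (skey S') (avgK (skey S) f) := by
  refine comm_of_range_invariant (avgL (skey S)) (avgL (skey S')) (avgL_isSymm _) (avgL_isSymm _)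
    ?_ f
  intro f
  simp only [avgL_apply]
  apply avgK_of_inv
  intro A1 A2 h12
  have hdeg : ∀ {X Y Z : Gr d}, skey S X = skey S Y → skey S' Z = skey S' X → ∀ w,
      ((Y.1 ∩ S).filter (fun e => w ∈ e)).card = ((Z.1 ∩ S).filter (fun e => w ∈ e)).card := by
    intro X Y Z hXY hZX w
    rw [← deg_inter_eq hXY w]
    have : Z.1 ∩ S = X.1 ∩ S := by
      ext e
      simp only [mem_inter]
      constructor
      · rintro ⟨h1, h2⟩
        exact ⟨((skey_eq_iff.mp hZX) e (Finset.disjoint_left.mp h h2)).mp h1, h2⟩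
      · rintro ⟨h1, h2⟩
        exact ⟨((skey_eq_iff.mp hZX) e (Finset.disjoint_left.mp h h2)).mpr h1, h2⟩
    rw [this]
  have hcls : ∀ {X Y Z : Gr d}, skey S X = skey S Y → skey S' Z = skey S' X →
      skey S' (graft S Y Z) = skey S' Y := by
    intro X Y Z hXY hZX
    rw [skey_eq_iff]
    intro e he
    rw [mem_graft (hdeg hXY hZX)]
    by_cases heS : e ∈ S
    · simp [heS]
    · simp only [heS, if_false]
      rw [(skey_eq_iff.mp hZX) e he, (skey_eq_iff.mp hXY) e heS]
  have hinv : ∀ {X Y Z : Gr d}, skey S X = skey S Y → skey S' Z = skey S' X →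
      graft S X (graft S Y Z) = Z := by
    intro X Y Z hXY hZX
    apply Subtype.ext
    ext e
    rw [mem_graft (hdeg hXY.symm (hcls hXY hZX)), mem_graft (hdeg hXY hZX)]
    by_cases heS : e ∈ S
    · simp only [heS, if_true]
      exact ((skey_eq_iff.mp hZX) e (Finset.disjoint_left.mp h heS)).symm
    · simp [heS]
  refine avgK_eq_of_bij (skey S') _ A1 A2 (graft S A2) (graft S A1) ?_ ?_ ?_ ?_ ?_
  · intro B hB; exact hcls h12 hB
  · intro B hB; exact hcls h12.symm hB
  · intro B hB; exact hinv h12 hB
  · intro B hB; exact hinv h12.symm hB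
  · intro B hB
    apply avgK_congr
    rw [skey_eq_iff]
    intro e he
    rw [mem_graft (hdeg h12 hB)]
    simp [he]

/-- class functions can be pulled out of an average -/
theorem avgK_mul_of_inv {Ω K : Type*} [Fintype Ω] [DecidableEq K] (p : Ω → K) (h f : Ω → ℝ)
    (hh : ∀ x y, p x = p y → h x = h y) :
    avgK p (fun x => h x * f x) = fun x => h x * avgK p f x := by
  funext x
  unfold avgK
  rw [mul_div_assoc', Finset.mul_sum]
  congr 1
  refine Finset.sum_congr rfl (fun y hy => ?_)
  show h y * f y = h x * f y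
  rw [hh y x (by simpa using hy)]

/-- averages are contractions -/
theorem avgK_contraction {Ω K : Type*} [Fintype Ω] [DecidableEq K] (p : Ω → K) (f : Ω → ℝ) :
    ∑ x, avgK p f x ^ 2 ≤ ∑ x, f x ^ 2 := by
  have h1 := sum_mul_sub_avgK p f
  have h2 : ∑ x, avgK p f x * avgK p f x = ∑ x, avgK p (avgK p f) x * f x :=
    avgK_symm p (avgK p f) f
  rw [avgK_idem] at h2
  have h3 : 0 ≤ ∑ x, (f x - avgK p f x) * (f x - avgK p f x) :=
    Finset.sum_nonneg (fun x _ => mul_self_nonneg _)
  have h4 : ∑ x, (f x - avgK p f x) * (f x - avgK p f x)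
      = ∑ x, f x ^ 2 - 2 * ∑ x, avgK p f x * f x + ∑ x, avgK p f x * avgK p f x := by
    rw [Finset.mul_sum, ← Finset.sum_sub_distrib, ← Finset.sum_add_distrib]
    exact Finset.sum_congr rfl (fun x _ => by ring)
  have h5 : ∑ x, avgK p f x ^ 2 = ∑ x, avgK p f x * avgK p f x :=
    Finset.sum_congr rfl (fun x _ => by ring)
  rw [h5]
  linarith

/-- an inequality between sums follows from the inequalities on all classes -/
theorem sum_le_sum_of_fibrewise {Ω K : Type*} [Fintype Ω] [DecidableEq K] (p : Ω → K)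
    (F G : Ω → ℝ)
    (h : ∀ x0, ∑ x ∈ univ.filter (fun x => p x = p x0), F x
      ≤ ∑ x ∈ univ.filter (fun x => p x = p x0), G x) :
    ∑ x, F x ≤ ∑ x, G x := by
  rw [← Finset.sum_fiberwise_of_maps_to (s := univ) (t := univ.image p) (g := p)
      (fun x _ => Finset.mem_image_of_mem p (Finset.mem_univ x)) F,
    ← Finset.sum_fiberwise_of_maps_to (s := univ) (t := univ.image p) (g := p)
      (fun x _ => Finset.mem_image_of_mem p (Finset.mem_univ x)) G]
  refine Finset.sum_le_sum (fun k hk => ?_)
  obtain ⟨x0, -, rfl⟩ := Finset.mem_image.mp hk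
  exact h x0

/-- the class of `A` for the block `cross u v x y` is `{A, sw A}` -/
theorem cross_class {u v x y : V} (huv : u ≠ v) (hxy : x ≠ y) (hux : u ≠ x) (huy : u ≠ y)
    (hvx : v ≠ x) (hvy : v ≠ y) {A B : Gr d}
    (h : skey (cross u v x y) B = skey (cross u v x y) A) :
    B = A ∨ B = sw (cross u v x y) A := by
  obtain ⟨a1, a2, a3, a4⟩ := cross_deg A.1 huv hxy hux huy hvx hvy
  obtain ⟨b1, b2, b3, b4⟩ := cross_deg B.1 huv hxy hux huy hvx hvy
  have e1 := deg_inter_eq h u
  have e2 := deg_inter_eq h v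
  have e3 := deg_inter_eq h x
  have e4 := deg_inter_eq h y
  rw [a1, b1] at e1
  rw [a2, b2] at e2
  rw [a3, b3] at e3
  rw [a4, b4] at e4
  have l1 := ind_le_one A.1 s(u, x)
  have l2 := ind_le_one A.1 s(u, y)
  have l3 := ind_le_one A.1 s(v, x)
  have l4 := ind_le_one A.1 s(v, y)
  have m1 := ind_le_one B.1 s(u, x)
  have m2 := ind_le_one B.1 s(u, y)
  have m3 := ind_le_one B.1 s(v, x)
  have m4 := ind_le_one B.1 s(v, y)
  have hcase : (ind B.1 s(u, x) = ind A.1 s(u, x) ∧ ind B.1 s(u, y) = ind A.1 s(u, y) ∧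
      ind B.1 s(v, x) = ind A.1 s(v, x) ∧ ind B.1 s(v, y) = ind A.1 s(v, y)) ∨
      (ind B.1 s(u, x) + ind A.1 s(u, x) = 1 ∧ ind B.1 s(u, y) + ind A.1 s(u, y) = 1 ∧
      ind B.1 s(v, x) + ind A.1 s(v, x) = 1 ∧ ind B.1 s(v, y) + ind A.1 s(v, y) = 1) := by
    omega
  rcases hcase with ⟨c1, c2, c3, c4⟩ | ⟨c1, c2, c3, c4⟩
  · left
    apply Subtype.ext
    ext e
    by_cases he : e ∈ cross u v x y
    · simp only [cross, mem_insert, mem_singleton] at he
      rcases he with rfl | rfl | rfl | rfl
      · exact ind_eq_iff.mp c1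
      · exact ind_eq_iff.mp c2
      · exact ind_eq_iff.mp c3
      · exact ind_eq_iff.mp c4
    · exact (skey_eq_iff.mp h) e he
  · right
    have hcomp : ∀ e, ind B.1 e + ind A.1 e = 1 → (e ∈ B.1 ↔ e ∉ A.1) := by
      intro e he
      unfold ind at he
      split_ifs at he with h1 h2 h2 <;> simp_all
    have hB : B.1 = symmDiff A.1 (cross u v x y) := by
      ext e
      rw [Finset.mem_symmDiff]
      by_cases he : e ∈ cross u v x y
      · simp only [he, not_true_eq_false, and_false, true_and, false_or]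
        simp only [cross, mem_insert, mem_singleton] at he
        rcases he with rfl | rfl | rfl | rfl
        · exact hcomp _ c1
        · exact hcomp _ c2
        · exact hcomp _ c3
        · exact hcomp _ c4
      · simp only [he, not_false_eq_true, and_true, false_and, or_false]
        exact (skey_eq_iff.mp h) e he
    have hG : IsGr d (symmDiff A.1 (cross u v x y)) := hB ▸ B.2
    rw [sw_of_isGr hG]
    exact Subtype.ext hB

/-- the block `cross u v x y`: its average is the symmetrisation under the switch -/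
theorem avgK_cross (u v x y : V) (huv : u ≠ v) (hxy : x ≠ y) (hux : u ≠ x) (huy : u ≠ y)
    (hvx : v ≠ x) (hvy : v ≠ y) (f : Gr d → ℝ) (A : Gr d) :
    avgK (skey (cross u v x y)) f A = (f A + f (sw (cross u v x y) A)) / 2 := by
  by_cases hsw : sw (cross u v x y) A = A
  · have : univ.filter (fun B : Gr d => skey (cross u v x y) B = skey (cross u v x y) A) = {A} := by
      ext B
      simp only [mem_filter, mem_univ, true_and, mem_singleton]
      constructor
      · intro h
        rcases cross_class huv hxy hux huy hvx hvy h with h | h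
        · exact h
        · rw [h, hsw]
      · rintro rfl; rfl
    unfold avgK
    rw [this, hsw]
    simp
  · have : univ.filter (fun B : Gr d => skey (cross u v x y) B = skey (cross u v x y) A)
        = {A, sw (cross u v x y) A} := by
      ext B
      simp only [mem_filter, mem_univ, true_and, mem_insert, mem_singleton]
      constructor
      · exact cross_class huv hxy hux huy hvx hvy
      · rintro (rfl | rfl)
        · rfl
        · exact skey_sw (Finset.Subset.refl _) A
    unfold avgK
    rw [this, Finset.sum_pair (Ne.symm hsw), Finset.card_pair (Ne.symm hsw)]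
    norm_num

end Vale.Agent.Lib.P335
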