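import Vale.Agent.Lib.P335.G.GBasic

/-! Module GConnect: any two simple graphs with the same degrees are joined by switches. -/

namespace Vale.Agent.Lib.P335

open Finset

set_option linter.unusedSectionVars false

variable {V : Type*} [Fintype V] [DecidableEq V] {d : V → ℕ}

/-- neighbours of `z` -/
def gcNb (A : Finset (Sym2 V)) (z : V) : Finset V := univ.filter (fun y => s(z, y) ∈ A)

theorem gc_mem_nb {A : Finset (Sym2 V)} {z y : V} : y ∈ gcNb A z ↔ s(z, y) ∈ A := by
  simp [gcNb]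

theorem gc_card_nb (A : Gr d) (z : V) : (gcNb A.1 z).card = d z := by
  rw [← A.2.2 z]
  apply Finset.card_bij (fun y _ => s(z, y))
  · intro y hy
    rw [gc_mem_nb] at hy
    simp [hy]
  · intro y _ y' _ h
    exact Sym2.congr_right.1 h
  · intro e he
    rw [mem_filter] at he
    obtain ⟨heA, hz⟩ := he
    obtain ⟨y, rfl⟩ := Sym2.mem_iff_exists.1 hz
    exact ⟨y, gc_mem_nb.2 heA, rfl⟩

/-- `A` and `B` agree on all sites having an end point outside `J` -/
def gcAgree (J : Finset V) (A B : Finset (Sym2 V)) : Prop :=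
  ∀ e, (∃ z ∈ e, z ∉ J) → (e ∈ A ↔ e ∈ B)

theorem gcAgree.symm {J : Finset V} {A B : Finset (Sym2 V)} (h : gcAgree J A B) : gcAgree J B A :=
  fun e he => (h e he).symm

theorem gc_ne_of_mem (A : Gr d) {a b : V} (h : s(a, b) ∈ A.1) : a ≠ b := by
  intro hab
  exact A.2.1 _ h (by simp [hab])

theorem gc_card_inside {J : Finset V} {A B : Gr d} (h : gcAgree J A.1 B.1) (z : V) :
    (gcNb A.1 z ∩ J).card = (gcNb B.1 z ∩ J).card := by
  have hA := Finset.card_inter_add_card_sdiff (gcNb A.1 z) J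
  have hB := Finset.card_inter_add_card_sdiff (gcNb B.1 z) J
  rw [gc_card_nb] at hA hB
  have : gcNb A.1 z \ J = gcNb B.1 z \ J := by
    ext y
    simp only [mem_sdiff, gc_mem_nb]
    constructor
    · rintro ⟨h1, h2⟩; exact ⟨(h _ ⟨y, by simp, h2⟩).1 h1, h2⟩
    · rintro ⟨h1, h2⟩; exact ⟨(h _ ⟨y, by simp, h2⟩).2 h1, h2⟩
  rw [this] at hA
  omega

theorem gc_count (A : Gr d) (J : Finset V) {v w x : V} (hvw : s(v, w) ∈ A.1)
    (hvx : s(v, x) ∉ A.1) (hvJ : v ∈ J) (hxJ : x ∈ J) (hxv : x ≠ v)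
    (H : ∀ y ∈ J, s(x, y) ∈ A.1 → y ≠ w → s(w, y) ∈ A.1) :
    (gcNb A.1 x ∩ J).card + 1 ≤ (gcNb A.1 w ∩ J).card := by
  have hv : v ∈ gcNb A.1 w ∩ J := by
    rw [mem_inter, gc_mem_nb, Sym2.eq_swap]; exact ⟨hvw, hvJ⟩
  rw [← Finset.card_erase_add_one hv]
  apply Nat.add_le_add_right
  apply Finset.card_le_card_of_injOn (Equiv.swap x w)
  · intro y hy
    rw [mem_coe, mem_inter, gc_mem_nb] at hy
    obtain ⟨hy1, hy2⟩ := hy
    rw [mem_coe, mem_erase, mem_inter, gc_mem_nb]
    by_cases hyw : y = w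
    · subst hyw
      rw [Equiv.swap_apply_right]
      exact ⟨hxv, by rw [Sym2.eq_swap]; exact hy1, hxJ⟩
    · have hyx : y ≠ x := (gc_ne_of_mem A hy1).symm
      rw [Equiv.swap_apply_of_ne_of_ne hyx hyw]
      refine ⟨?_, H y hy2 hy1 hyw, hy2⟩
      rintro rfl
      exact hvx (by rw [Sym2.eq_swap]; exact hy1)
  · exact (Equiv.swap x w).injective.injOn

theorem gc_exists_other (A B : Gr d) {v : V} {e : Sym2 V} (heA : e ∈ A.1) (heB : e ∉ B.1)
    (hv : v ∈ e) : ∃ e', e' ∈ B.1 ∧ e' ∉ A.1 ∧ v ∈ e' := by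
  by_contra hcon
  have hsub : B.1.filter (fun e => v ∈ e) ⊆ A.1.filter (fun e => v ∈ e) := by
    intro e' he'
    rw [mem_filter] at he' ⊢
    refine ⟨?_, he'.2⟩
    by_contra h
    exact hcon ⟨e', he'.1, h, he'.2⟩
  have heq := Finset.eq_of_subset_of_card_le hsub (by rw [A.2.2, B.2.2])
  have : e ∈ B.1.filter (fun e => v ∈ e) := by
    rw [heq, mem_filter]; exact ⟨heA, hv⟩
  exact heB (mem_filter.1 this).1

/-- one switch in `A` -/
theorem gc_switch (f : Gr d → ℝ)
    (hf : ∀ (u v x y : V) (A : Gr d), f (sw (cross u v x y) A) = f A)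
    (J : Finset V) (A B : Gr d) (hag : gcAgree J A.1 B.1) {v w x y : V}
    (hvJ : v ∈ J) (hwJ : w ∈ J) (hxJ : x ∈ J) (hyJ : y ∈ J)
    (hvwA : s(v, w) ∈ A.1) (hvwB : s(v, w) ∉ B.1) (hvxA : s(v, x) ∉ A.1) (hvxB : s(v, x) ∈ B.1)
    (hxy : s(x, y) ∈ A.1) (hwy : s(w, y) ∉ A.1) (hyw : y ≠ w) :
    ∃ A' : Gr d, f A' = f A ∧ gcAgree J A'.1 B.1 ∧
      ((symmDiff A'.1 B.1).filter (fun e => v ∈ e)).card
        < ((symmDiff A.1 B.1).filter (fun e => v ∈ e)).card := by
  have hvw : v ≠ w := gc_ne_of_mem A hvwA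
  have hvx : v ≠ x := gc_ne_of_mem B hvxB
  have hwx : w ≠ x := by
    rintro rfl; exact hvxA hvwA
  have hyx : y ≠ x := (gc_ne_of_mem A hxy).symm
  have hvy : v ≠ y := by
    rintro rfl; exact hvxA (by rw [Sym2.eq_swap]; exact hxy)
  have hne : sw (cross v y w x) A ≠ A := by
    rw [sw_cross_ne_iff hvy hwx hvw hvx hyw hyx]
    left
    refine ⟨ind_eq_one.2 hvwA, ind_eq_one.2 (by rw [Sym2.eq_swap]; exact hxy),
      ind_eq_zero.2 hvxA, ind_eq_zero.2 (by rw [Sym2.eq_swap]; exact hwy)⟩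
  have hgr := (sw_ne_iff_isGr (cross_nonempty v y w x) A).1 hne
  refine ⟨sw (cross v y w x) A, hf _ _ _ _ _, ?_, ?_⟩
  · rw [sw_of_isGr hgr]
    intro e he
    have heC : e ∉ cross v y w x := by
      intro h
      obtain ⟨z, hz, hzJ⟩ := he
      simp only [cross, mem_insert, mem_singleton] at h
      rcases h with rfl | rfl | rfl | rfl <;>
        · simp only [Sym2.mem_iff] at hz
          rcases hz with rfl | rfl <;> exact hzJ (by assumption)
    rw [← hag e he]
    simp [Finset.mem_symmDiff, heC]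
  · rw [sw_of_isGr hgr]
    apply Finset.card_lt_card
    rw [Finset.ssubset_iff_of_subset]
    · refine ⟨s(v, w), ?_, ?_⟩
      · simp [Finset.mem_symmDiff, hvwA, hvwB]
      · simp [Finset.mem_symmDiff, hvwA, hvwB, cross]
    · intro e he
      rw [mem_filter] at he ⊢
      refine ⟨?_, he.2⟩
      by_cases heC : e ∈ cross v y w x
      · simp only [cross, mem_insert, mem_singleton] at heC
        rcases heC with rfl | rfl | rfl | rfl
        · simp [Finset.mem_symmDiff, hvwA, hvwB]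
        · simp [Finset.mem_symmDiff, hvxA, hvxB]
        · exfalso
          have := he.2
          simp only [Sym2.mem_iff] at this
          rcases this with h | h
          · exact hvy h
          · exact hvw h
        · exfalso
          have := he.2
          simp only [Sym2.mem_iff] at this
          rcases this with h | h
          · exact hvy h
          · exact hvx h
      · have h1 := he.1
        simp only [Finset.mem_symmDiff, heC, not_false_eq_true, and_true, false_and,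
          or_false] at h1 ⊢
        tauto

theorem gc_inner (f : Gr d → ℝ)
    (hf : ∀ (u v x y : V) (A : Gr d), f (sw (cross u v x y) A) = f A)
    (J : Finset V) (v : V)
    (ih : ∀ A B : Gr d, gcAgree J A.1 B.1 → f A = f B) :
    ∀ n : ℕ, ∀ A B : Gr d, gcAgree (insert v J) A.1 B.1 →
      ((symmDiff A.1 B.1).filter (fun e => v ∈ e)).card = n → f A = f B := by
  intro n
  induction n using Nat.strong_induction_on with
  | _ n ihn =>
    intro A B hag hn
    by_cases h0 : (symmDiff A.1 B.1).filter (fun e => v ∈ e) = ∅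
    · apply ih
      intro e he
      by_cases hve : v ∈ e
      · have : e ∉ (symmDiff A.1 B.1).filter (fun e => v ∈ e) := by rw [h0]; simp
        simp only [mem_filter, Finset.mem_symmDiff, hve, and_true] at this
        tauto
      · apply hag
        obtain ⟨z, hz, hzJ⟩ := he
        refine ⟨z, hz, ?_⟩
        rw [mem_insert, not_or]
        refine ⟨?_, hzJ⟩
        rintro rfl
        exact hve hz
    · obtain ⟨e, he⟩ := Finset.nonempty_iff_ne_empty.2 h0
      rw [mem_filter, Finset.mem_symmDiff] at he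
      obtain ⟨he1, hve⟩ := he
      -- sites `e1 ∈ A \ B`, `e2 ∈ B \ A` at `v`
      have hboth : ∃ e1 e2, e1 ∈ A.1 ∧ e1 ∉ B.1 ∧ v ∈ e1 ∧ e2 ∈ B.1 ∧ e2 ∉ A.1 ∧ v ∈ e2 := by
        rcases he1 with ⟨h1, h2⟩ | ⟨h1, h2⟩
        · obtain ⟨e', a, b, c⟩ := gc_exists_other A B h1 h2 hve
          exact ⟨e, e', h1, h2, hve, a, b, c⟩
        · obtain ⟨e', a, b, c⟩ := gc_exists_other B A h1 h2 hve
          exact ⟨e', e, a, b, c, h1, h2, hve⟩
      obtain ⟨e1, e2, h1A, h1B, hv1, h2B, h2A, hv2⟩ := hboth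
      obtain ⟨w, rfl⟩ := Sym2.mem_iff_exists.1 hv1
      obtain ⟨x, rfl⟩ := Sym2.mem_iff_exists.1 hv2
      have hvJ : v ∈ insert v J := mem_insert_self v J
      have hwJ : w ∈ insert v J := by
        by_contra h
        exact h1B ((hag _ ⟨w, by simp, h⟩).1 h1A)
      have hxJ : x ∈ insert v J := by
        by_contra h
        exact h2A ((hag _ ⟨x, by simp, h⟩).2 h2B)
      have hvw : v ≠ w := gc_ne_of_mem A h1A
      have hvx : v ≠ x := gc_ne_of_mem B h2B
      by_cases hA : ∃ y ∈ insert v J, s(x, y) ∈ A.1 ∧ y ≠ w ∧ s(w, y) ∉ A.1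
      · obtain ⟨y, hyJ, hxy, hyw, hwy⟩ := hA
        obtain ⟨A', hfA, hag', hlt⟩ := gc_switch f hf _ A B hag hvJ hwJ hxJ hyJ h1A h1B h2A h2B
          hxy hwy hyw
        rw [← hfA]
        exact ihn _ (hn ▸ hlt) A' B hag' rfl
      by_cases hB : ∃ y ∈ insert v J, s(w, y) ∈ B.1 ∧ y ≠ x ∧ s(x, y) ∉ B.1
      · obtain ⟨y, hyJ, hwy, hyx, hxy⟩ := hB
        obtain ⟨B', hfB, hag', hlt⟩ := gc_switch f hf _ B A hag.symm hvJ hxJ hwJ hyJ h2B h2A h1B h1A
          hwy hxy hyx
        rw [← hfB]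
        rw [symmDiff_comm B.1 A.1, hn] at hlt
        exact (ihn _ hlt B' A hag' rfl).symm
      · exfalso
        have c1 := gc_count A (insert v J) h1A h2A hvJ hxJ hvx.symm (fun y hy h1 h2 => by
          by_contra h3; exact hA ⟨y, hy, h1, h2, h3⟩)
        have c2 := gc_count B (insert v J) h2B h1B hvJ hwJ hvw.symm (fun y hy h1 h2 => by
          by_contra h3; exact hB ⟨y, hy, h1, h2, h3⟩)
        have e1 := gc_card_inside hag x
        have e2 := gc_card_inside hag w
        omega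

theorem gconnected (f : Gr d → ℝ)
    (hf : ∀ (u v x y : V) (A : Gr d), f (sw (cross u v x y) A) = f A) :
    ∀ A B : Gr d, f A = f B := by
  have Q : ∀ J : Finset V, ∀ A B : Gr d, gcAgree J A.1 B.1 → f A = f B := by
    intro J
    induction J using Finset.induction_on with
    | empty =>
      intro A B h
      congr 1
      apply Subtype.ext
      ext e
      apply h
      induction e using Sym2.ind with
      | _ a b => exact ⟨a, by simp, by simp⟩
    | insert v J _ ih =>
      intro A B h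
      exact gc_inner f hf J v ih _ A B h rfl
  exact fun A B => Q univ A B (fun e he => by
    obtain ⟨z, _, hz⟩ := he
    exact absurd (mem_univ z) hz)

end Vale.Agent.Lib.P335
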