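import Vale.Agent.Lib.P335.G.GOdd

/-! Module GDP: the inequality for two disjoint vertex pairs. -/

namespace Vale.Agent.Lib.P335

open Finset

section abstract_part

variable {Ω : Type*} [Fintype Ω]

/-- pairing -/
def ip (f g : Ω → ℝ) : ℝ := ∑ x, f x * g x

theorem ip_comm (f g : Ω → ℝ) : ip f g = ip g f := by
  unfold ip; exact Finset.sum_congr rfl (fun x _ => mul_comm _ _)

theorem ip_add_left (f g h : Ω → ℝ) : ip (f + g) h = ip f h + ip g h := by
  unfold ip; rw [← Finset.sum_add_distrib]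
  exact Finset.sum_congr rfl (fun x _ => by simp only [Pi.add_apply]; ring)

theorem ip_sub_left (f g h : Ω → ℝ) : ip (f - g) h = ip f h - ip g h := by
  unfold ip; rw [← Finset.sum_sub_distrib]
  exact Finset.sum_congr rfl (fun x _ => by simp only [Pi.sub_apply]; ring)

theorem ip_add_right (f g h : Ω → ℝ) : ip f (g + h) = ip f g + ip f h := by
  rw [ip_comm, ip_add_left, ip_comm g, ip_comm h]

theorem ip_sub_right (f g h : Ω → ℝ) : ip f (g - h) = ip f g - ip f h := by
  rw [ip_comm, ip_sub_left, ip_comm g, ip_comm h]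

theorem ip_self_nonneg (f : Ω → ℝ) : 0 ≤ ip f f :=
  Finset.sum_nonneg (fun x _ => mul_self_nonneg _)

variable {K : Type*} [DecidableEq K]

theorem ip_avgK (p : Ω → K) (f g : Ω → ℝ) : ip f (avgK p g) = ip (avgK p f) g := avgK_symm p f g

theorem avgK_sub (p : Ω → K) (f g : Ω → ℝ) : avgK p (f - g) = avgK p f - avgK p g :=
  map_sub (avgL p) f g

/-- commuting symmetric idempotents (commuting on the vector `f` is enough) -/
theorem ip_proj_nonneg (P P' : (Ω → ℝ) → (Ω → ℝ)) (hP : ∀ f g, ip f (P g) = ip (P f) g)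
    (hP' : ∀ f g, ip f (P' g) = ip (P' f) g) (hPP : ∀ f, P (P f) = P f)
    (hPP' : ∀ f, P' (P' f) = P' f) (f : Ω → ℝ) (hc : P (P' f) = P' (P f)) :
    0 ≤ ip (P f) (P' f) := by
  have : ip (P f) (P' f) = ip (P (P' f)) (P (P' f)) := by
    rw [← hP (P' f) (P (P' f)), hPP, hc, hP' (P' f) (P f), hPP', ip_comm]
  rw [this]
  exact ip_self_nonneg _

/-- `(1 - E)` and `(1 - E')` -/
theorem ip_one_sub_one_sub (p p' : Ω → K) (g : Ω → ℝ)
    (hc : avgK p (avgK p' g) = avgK p' (avgK p g)) :
    0 ≤ ip (g - avgK p g) (g - avgK p' g) := by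
  refine ip_proj_nonneg (fun f => f - avgK p f) (fun f => f - avgK p' f) ?_ ?_ ?_ ?_ g ?_
  · intro f g; simp only [ip_sub_left, ip_sub_right, ip_avgK]
  · intro f g; simp only [ip_sub_left, ip_sub_right, ip_avgK]
  · intro f; simp only [avgK_sub, avgK_idem]; abel
  · intro f; simp only [avgK_sub, avgK_idem]; abel
  · simp only [avgK_sub, hc]; abel

/-- `(1 - E)` and `(E' - E'')`, `E''` coarser than `E'` -/
theorem ip_one_sub_sub (p p' p'' : Ω → K) (hn : ∀ x y, p' x = p' y → p'' x = p'' y) (g : Ω → ℝ)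
    (hc : avgK p (avgK p' g) = avgK p' (avgK p g))
    (hc' : avgK p (avgK p'' g) = avgK p'' (avgK p g)) :
    0 ≤ ip (g - avgK p g) (avgK p' g - avgK p'' g) := by
  refine ip_proj_nonneg (fun f => f - avgK p f) (fun f => avgK p' f - avgK p'' f) ?_ ?_ ?_ ?_ g ?_
  · intro f g; simp only [ip_sub_left, ip_sub_right, ip_avgK]
  · intro f g; simp only [ip_sub_left, ip_sub_right, ip_avgK]
  · intro f; simp only [avgK_sub, avgK_idem]; abel
  · intro f
    simp only [avgK_sub, avgK_idem, (avgK_tower p' p'' hn _).1, (avgK_tower p' p'' hn _).2]; abel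
  · simp only [avgK_sub, hc, hc']; abel

theorem dp_abstract (kb kb' k1 k2 kC : Ω → K)
    (n1 : ∀ x y, k1 x = k1 y → kb x = kb y) (nC : ∀ x y, kC x = kC y → kb x = kb y)
    (n2 : ∀ x y, k2 x = k2 y → kb' x = kb' y) (nC' : ∀ x y, kC x = kC y → kb' x = kb' y)
    (c1C : ∀ f, avgK k1 (avgK kC f) = avgK kC (avgK k1 f))
    (c2C : ∀ f, avgK k2 (avgK kC f) = avgK kC (avgK k2 f))
    (c12 : ∀ f, avgK k1 (avgK k2 f) = avgK k2 (avgK k1 f))
    (c1b' : ∀ f, avgK k1 (avgK kb' f) = avgK kb' (avgK k1 f))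
    (c2b : ∀ f, avgK k2 (avgK kb f) = avgK kb (avgK k2 f))
    (f : Ω → ℝ) :
    ip (f - avgK kC f) (f - avgK kC f)
      + ip (avgK k2 (avgK k1 (avgK kC f) - avgK kb f)) (avgK k1 (avgK k2 (avgK kC f) - avgK kb' f))
      ≤ ip (f - avgK kb f) (f - avgK kb' f) := by
  have hbg : avgK kb f = avgK kb (avgK kC f) := ((avgK_tower kC kb nC f).1).symm
  have hbg' : avgK kb' f = avgK kb' (avgK kC f) := ((avgK_tower kC kb' nC' f).1).symm
  have hgg : avgK kC (avgK kC f) = avgK kC f := avgK_idem kC f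
  have horth : ∀ w, avgK kC w = w → ip (f - avgK kC f) w = 0 := by
    intro w hw
    rw [ip_sub_left, ← ip_avgK, hw]; simp
  rw [hbg, hbg']
  generalize avgK kC f = g at hgg horth ⊢
  have d1 : f - avgK kb g = (f - g) + (g - avgK k1 g) + (avgK k1 g - avgK kb g) := by abel
  have d2 : f - avgK kb' g = (f - g) + (g - avgK k2 g) + (avgK k2 g - avgK kb' g) := by abel
  have i1 : avgK kC (g - avgK k1 g) = g - avgK k1 g := by
    rw [avgK_sub, ← c1C, hgg]
  have i2 : avgK kC (g - avgK k2 g) = g - avgK k2 g := by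
    rw [avgK_sub, ← c2C, hgg]
  have i3 : avgK kC (avgK k1 g - avgK kb g) = avgK k1 g - avgK kb g := by
    rw [avgK_sub, ← c1C, hgg, (avgK_tower kC kb nC g).2]
  have i4 : avgK kC (avgK k2 g - avgK kb' g) = avgK k2 g - avgK kb' g := by
    rw [avgK_sub, ← c2C, hgg, (avgK_tower kC kb' nC' g).2]
  have t1 : 0 ≤ ip (g - avgK k1 g) (g - avgK k2 g) := ip_one_sub_one_sub k1 k2 g (c12 g)
  have t2 : 0 ≤ ip (g - avgK k1 g) (avgK k2 g - avgK kb' g) :=
    ip_one_sub_sub k1 k2 kb' n2 g (c12 g) (c1b' g)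
  have t3 : 0 ≤ ip (avgK k1 g - avgK kb g) (g - avgK k2 g) := by
    rw [ip_comm]; exact ip_one_sub_sub k2 k1 kb n1 g (c12 g).symm (c2b g)
  have j1 : avgK k1 (avgK k1 g - avgK kb g) = avgK k1 g - avgK kb g := by
    rw [avgK_sub, avgK_idem, (avgK_tower k1 kb n1 g).2]
  have j2 : avgK k2 (avgK k2 g - avgK kb' g) = avgK k2 g - avgK kb' g := by
    rw [avgK_sub, avgK_idem, (avgK_tower k2 kb' n2 g).2]
  have t4 : ip (avgK k2 (avgK k1 g - avgK kb g)) (avgK k1 (avgK k2 g - avgK kb' g))
      = ip (avgK k1 g - avgK kb g) (avgK k2 g - avgK kb' g) := by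
    rw [← ip_avgK, ← c12, j2, ip_avgK, j1]
  rw [t4, d1, d2]
  simp only [ip_add_left, ip_add_right]
  rw [horth _ i2, horth _ i4, ip_comm (g - avgK k1 g) (f - g), horth _ i1,
    ip_comm (avgK k1 g - avgK kb g) (f - g), horth _ i3]
  linarith

theorem dp_alpha (kb k1 k2 kC : Ω → K)
    (n1 : ∀ x y, k1 x = k1 y → kb x = kb y) (nC : ∀ x y, kC x = kC y → kb x = kb y)
    (c12 : ∀ f, avgK k1 (avgK k2 f) = avgK k2 (avgK k1 f))
    (c2b : ∀ f, avgK k2 (avgK kb f) = avgK kb (avgK k2 f)) (f : Ω → ℝ) :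
    avgK k2 (avgK k1 (avgK kC f) - avgK kb f)
      = avgK k1 (avgK k2 (avgK kC f)) - avgK kb (avgK k1 (avgK k2 (avgK kC f))) := by
  rw [avgK_sub, ← c12, (avgK_tower k1 kb n1 _).1, ← c2b, (avgK_tower kC kb nC f).1]

theorem dp_beta (kb' k1 k2 kC : Ω → K)
    (n2 : ∀ x y, k2 x = k2 y → kb' x = kb' y) (nC' : ∀ x y, kC x = kC y → kb' x = kb' y)
    (c1b' : ∀ f, avgK k1 (avgK kb' f) = avgK kb' (avgK k1 f)) (f : Ω → ℝ) :
    avgK k1 (avgK k2 (avgK kC f) - avgK kb' f)
      = avgK k1 (avgK k2 (avgK kC f)) - avgK kb' (avgK k1 (avgK k2 (avgK kC f))) := by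
  rw [avgK_sub, ← c1b', (avgK_tower k2 kb' n2 _).1, (avgK_tower kC kb' nC' f).1]

theorem dp_pointwise (kb kb' k1 k2 : Ω → K) (O D : Ω → Prop) [DecidablePred O] [DecidablePred D]
    (hOb : ∀ x y, kb x = kb y → (O x ↔ O y)) (hOb' : ∀ x y, kb' x = kb' y → (O x ↔ O y))
    (hD1 : ∀ x y, k1 x = k1 y → (D x ↔ D y)) (hD2 : ∀ x y, k2 x = k2 y → (D x ↔ D y))
    (hDO : ∀ x, D x → ¬ O x) (a a' h : Ω → ℝ)
    (hα : avgK k2 a = h - avgK kb h) (hβ : avgK k1 a' = h - avgK kb' h)
    (hN : ∀ x, ¬ O x → ¬ D x → avgK kb h x = h x ∨ avgK kb' h x = h x)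
    (hcomm : ∀ g : Ω → ℝ, (∀ x, ¬ O x → g x = 0) →
      avgK kb (avgK kb' g) = avgK kb' (avgK kb g)) :
    -(∑ x, (if D x then a x else 0) ^ 2 + ∑ x, (if D x then a' x else 0) ^ 2) / 2
      ≤ ip (avgK k2 a) (avgK k1 a') := by
  have hiO : ∀ (k : Ω → K), (∀ x y, k x = k y → (O x ↔ O y)) → ∀ x y, k x = k y →
      (if O x then (1 : ℝ) else 0) = if O y then 1 else 0 := by
    intro k hk x y hxy
    simp only [hk x y hxy]
  have hiD : ∀ (k : Ω → K), (∀ x y, k x = k y → (D x ↔ D y)) → ∀ x y, k x = k y →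
      (if D x then (1 : ℝ) else 0) = if D y then 1 else 0 := by
    intro k hk x y hxy
    simp only [hk x y hxy]
  have s1 := ip_one_sub_one_sub kb kb' (fun x => (if O x then (1 : ℝ) else 0) * h x)
    (hcomm _ (fun x hx => by simp [hx]))
  rw [avgK_mul_of_inv kb _ h (hiO kb hOb), avgK_mul_of_inv kb' _ h (hiO kb' hOb')] at s1
  have s2 := avgK_contraction k2 (fun x => (if D x then (1 : ℝ) else 0) * a x)
  rw [avgK_mul_of_inv k2 _ a (hiD k2 hD2), hα] at s2
  have s3 := avgK_contraction k1 (fun x => (if D x then (1 : ℝ) else 0) * a' x)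
  rw [avgK_mul_of_inv k1 _ a' (hiD k1 hD1), hβ] at s3
  rw [hα, hβ]
  have e2 : ∑ x, (if D x then a x else 0) ^ 2 = ∑ x, ((if D x then (1 : ℝ) else 0) * a x) ^ 2 :=
    Finset.sum_congr rfl (fun x _ => by split_ifs <;> simp)
  have e3 : ∑ x, (if D x then a' x else 0) ^ 2 = ∑ x, ((if D x then (1 : ℝ) else 0) * a' x) ^ 2 :=
    Finset.sum_congr rfl (fun x _ => by split_ifs <;> simp)
  rw [e2, e3]
  have key : ip ((fun x => (if O x then (1 : ℝ) else 0) * h x)
        - fun x => (if O x then (1 : ℝ) else 0) * avgK kb h x)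
      ((fun x => (if O x then (1 : ℝ) else 0) * h x)
        - fun x => (if O x then (1 : ℝ) else 0) * avgK kb' h x)
      - (∑ x, ((if D x then (1 : ℝ) else 0) * (h - avgK kb h) x) ^ 2
        + ∑ x, ((if D x then (1 : ℝ) else 0) * (h - avgK kb' h) x) ^ 2) / 2
      ≤ ip (h - avgK kb h) (h - avgK kb' h) := by
    unfold ip
    rw [← Finset.sum_add_distrib, Finset.sum_div, ← Finset.sum_sub_distrib]
    refine Finset.sum_le_sum (fun x _ => ?_)
    simp only [Pi.sub_apply]
    by_cases hO : O x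
    · have hD : ¬ D x := fun hD => hDO x hD hO
      simp [hO, hD]
    · by_cases hD : D x
      · simp only [hO, hD, if_true, if_false]
        nlinarith [sq_nonneg ((h x - avgK kb h x) + (h x - avgK kb' h x))]
      · simp only [hO, hD, if_false]
        rcases hN x hO hD with h1 | h1 <;> rw [h1] <;> simp
  linarith

end abstract_part

section graph_part

variable {V : Type*} [Fintype V] [DecidableEq V] {d : V → ℕ}

theorem avgK_eq_of_const {Ω K : Type*} [Fintype Ω] [DecidableEq K] (p : Ω → K) (h : Ω → ℝ) (x : Ω)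
    (hc : ∀ y, p y = p x → h y = h x) : avgK p h x = h x := by
  unfold avgK
  rw [Finset.sum_congr rfl (fun y hy => hc y (by simpa using hy))]
  simp only [sum_const, nsmul_eq_mul]
  field_simp [(avgK_card_pos p x).ne']

/-- if the two rows of `A ∩ C` are constant, the class of `A` for `star {x, y}` is rigid on `C` -/
theorem dp_rigid {u v x y : V} (huv : u ≠ v) (hxy : x ≠ y) (hux : u ≠ x) (huy : u ≠ y)
    (hvx : v ≠ x) (hvy : v ≠ y) {A B : Gr d} (hAB : skey (star {x, y}) B = skey (star {x, y}) A)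
    (h1 : ind A.1 s(u, x) = ind A.1 s(u, y)) (h2 : ind A.1 s(v, x) = ind A.1 s(v, y)) :
    skey (star {x, y} \ cross u v x y) B = skey (star {x, y} \ cross u v x y) A := by
  have e1 := deg_inter_eq hAB u
  have e2 := deg_inter_eq hAB v
  rw [star_deg _ hxy hux huy, star_deg _ hxy hux huy] at e1
  rw [star_deg _ hxy hvx hvy, star_deg _ hxy hvx hvy] at e2
  have l1 := ind_le_one A.1 s(u, x)
  have l3 := ind_le_one A.1 s(v, x)
  have m1 := ind_le_one B.1 s(u, x)
  have m2 := ind_le_one B.1 s(u, y)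
  have m3 := ind_le_one B.1 s(v, x)
  have m4 := ind_le_one B.1 s(v, y)
  rw [skey_eq_iff]
  intro e he
  by_cases heC : e ∈ cross u v x y
  · simp only [cross, mem_insert, mem_singleton] at heC
    rcases heC with rfl | rfl | rfl | rfl <;> rw [← ind_eq_iff] <;> omega
  · refine (skey_eq_iff.mp hAB) e (fun h' => he ?_)
    exact Finset.mem_sdiff.mpr ⟨h', heC⟩

theorem sw_ne_congr {u v x y : V} (huv : u ≠ v) (hxy : x ≠ y) (hux : u ≠ x) (huy : u ≠ y)
    (hvx : v ≠ x) (hvy : v ≠ y) {T : Finset (Sym2 V)} (hT : ∀ e ∈ cross u v x y, e ∉ T)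
    {A B : Gr d} (hAB : skey T A = skey T B) :
    sw (cross u v x y) A ≠ A ↔ sw (cross u v x y) B ≠ B := by
  rw [sw_cross_ne_iff huv hxy hux huy hvx hvy, sw_cross_ne_iff huv hxy hux huy hvx hvy]
  have key : ∀ e ∈ cross u v x y, ind A.1 e = ind B.1 e := fun e he =>
    ind_eq_iff.mpr ((skey_eq_iff.mp hAB) e (hT e he))
  rw [key s(u, x) (by simp [cross]), key s(u, y) (by simp [cross]), key s(v, x) (by simp [cross]),
    key s(v, y) (by simp [cross])]

theorem dp_T3 (u v x y : V) (huv : u ≠ v) (hxy : x ≠ y) (hux : u ≠ x) (huy : u ≠ y) (hvx : v ≠ x)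
    (hvy : v ≠ y) (f : Gr d → ℝ) :
    -(PiSq u v x y f + PiSq x y u v f) / 2
      ≤ ip (avgK (skey (star {x, y} \ cross u v x y))
            (avgK (skey (star {u, v} \ cross u v x y)) (avgK (skey (cross u v x y)) f)
              - avgK (skey (star {u, v})) f))
          (avgK (skey (star {u, v} \ cross u v x y))
            (avgK (skey (star {x, y} \ cross u v x y)) (avgK (skey (cross u v x y)) f)
              - avgK (skey (star {x, y})) f)) := by
  have hCS : cross u v x y ⊆ star {u, v} := cross_subset_star u v x y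
  have hCS' : cross u v x y ⊆ star {x, y} := by
    rw [← cross_swap_pairs]; exact cross_subset_star x y u v
  have dis1 : Disjoint (star {u, v} \ cross u v x y) (star {x, y}) := by
    rw [Finset.disjoint_left]; intro e he he'
    exact (mem_sdiff.mp he).2 (star_inter_star hux huy hvx hvy (mem_sdiff.mp he).1 he')
  have dis2 : Disjoint (star {x, y} \ cross u v x y) (star {u, v}) := by
    rw [Finset.disjoint_left]; intro e he he'
    exact (mem_sdiff.mp he).2 (star_inter_star hux huy hvx hvy he' (mem_sdiff.mp he).1)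
  have c12 : ∀ g : Gr d → ℝ, avgK (skey (star {u, v} \ cross u v x y))
      (avgK (skey (star {x, y} \ cross u v x y)) g)
      = avgK (skey (star {x, y} \ cross u v x y)) (avgK (skey (star {u, v} \ cross u v x y)) g) :=
    blk_comm (dis1.mono_right sdiff_subset)
  have hα := dp_alpha (skey (d := d) (star {u, v})) (skey (star {u, v} \ cross u v x y))
    (skey (star {x, y} \ cross u v x y)) (skey (cross u v x y))
    (fun _ _ h => skey_mono sdiff_subset h) (fun _ _ h => skey_mono hCS h) c12 (blk_comm dis2) f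
  have hβ := dp_beta (skey (d := d) (star {x, y})) (skey (star {u, v} \ cross u v x y))
    (skey (star {x, y} \ cross u v x y)) (skey (cross u v x y))
    (fun _ _ h => skey_mono sdiff_subset h) (fun _ _ h => skey_mono hCS' h) (blk_comm dis1) f
  have main := dp_pointwise (skey (d := d) (star {u, v})) (skey (star {x, y}))
    (skey (star {u, v} \ cross u v x y)) (skey (star {x, y} \ cross u v x y))
    (fun A => Odd ((A.1 ∩ cross u v x y).card)) (fun A => sw (cross u v x y) A ≠ A)
    ?_ ?_ ?_ ?_ ?_ _ _ _ hα hβ ?_ ?_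
  · have e1 : PiSq x y u v f = ∑ A, (if sw (cross u v x y) A ≠ A then
        (avgK (skey (star {x, y} \ cross u v x y)) (avgK (skey (cross u v x y)) f)
          - avgK (skey (star {x, y})) f) A else 0) ^ 2 := by
      unfold PiSq; rw [cross_swap_pairs]; rfl
    have e2 : PiSq u v x y f = ∑ A, (if sw (cross u v x y) A ≠ A then
        (avgK (skey (star {u, v} \ cross u v x y)) (avgK (skey (cross u v x y)) f)
          - avgK (skey (star {u, v})) f) A else 0) ^ 2 := rfl
    rw [e1, e2]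
    exact main
  · intro A B hAB
    have := card_cross_eq_of_skey hxy huv hux.symm hvx.symm huy.symm hvy.symm hAB
    rw [cross_swap_pairs] at this
    rw [this]
  · intro A B hAB
    rw [card_cross_eq_of_skey huv hxy hux huy hvx hvy hAB]
  · intro A B hAB
    exact sw_ne_congr huv hxy hux huy hvx hvy (fun e he h' => (mem_sdiff.mp h').2 he) hAB
  · intro A B hAB
    exact sw_ne_congr huv hxy hux huy hvx hvy (fun e he h' => (mem_sdiff.mp h').2 he) hAB
  · intro A hD hO
    rw [sw_cross_ne_iff huv hxy hux huy hvx hvy] at hD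
    rw [card_inter_cross _ huv hxy hux huy hvy] at hO
    rcases hD with ⟨h1, h2, h3, h4⟩ | ⟨h1, h2, h3, h4⟩ <;> rw [h1, h2, h3, h4] at hO <;>
      exact absurd hO (by decide)
  · intro A hO hD
    rw [sw_cross_ne_iff huv hxy hux huy hvx hvy] at hD
    rw [card_inter_cross _ huv hxy hux huy hvy, Nat.not_odd_iff_even, Nat.even_iff] at hO
    have l1 := ind_le_one A.1 s(u, x)
    have l2 := ind_le_one A.1 s(u, y)
    have l3 := ind_le_one A.1 s(v, x)
    have l4 := ind_le_one A.1 s(v, y)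
    have hcase : (ind A.1 s(u, x) = ind A.1 s(u, y) ∧ ind A.1 s(v, x) = ind A.1 s(v, y)) ∨
        (ind A.1 s(u, x) = ind A.1 s(v, x) ∧ ind A.1 s(u, y) = ind A.1 s(v, y)) := by
      omega
    rcases hcase with ⟨h1, h2⟩ | ⟨h1, h2⟩
    · right
      apply avgK_eq_of_const
      intro B hB
      rw [c12]
      exact avgK_congr _ _ (dp_rigid huv hxy hux huy hvx hvy hB h1 h2)
    · left
      apply avgK_eq_of_const
      intro B hB
      have := dp_rigid (A := A) (B := B) hxy huv hux.symm hvx.symm huy.symm hvy.symm hB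
        (by rw [Sym2.eq_swap (a := x), Sym2.eq_swap (a := x) (b := v)]; exact h1)
        (by rw [Sym2.eq_swap (a := y), Sym2.eq_swap (a := y) (b := v)]; exact h2)
      rw [cross_swap_pairs] at this
      exact avgK_congr _ _ this
  · intro g hg
    exact godd_comm u v x y huv hxy hux huy hvx hvy g hg

theorem gdp (u v x y : V) (huv : u ≠ v) (hxy : x ≠ y) (hux : u ≠ x) (huy : u ≠ y) (hvx : v ≠ x)
    (hvy : v ≠ y) (f : Gr d → ℝ) :
    SwSq u v x y f - (PiSq u v x y f + PiSq x y u v f) / 2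
      ≤ ∑ A, GQ d u v f A * GQ d x y f A := by
  have hCS : cross u v x y ⊆ star {u, v} := cross_subset_star u v x y
  have hCS' : cross u v x y ⊆ star {x, y} := by
    rw [← cross_swap_pairs]; exact cross_subset_star x y u v
  have dis1 : Disjoint (star {u, v} \ cross u v x y) (star {x, y}) := by
    rw [Finset.disjoint_left]; intro e he he'
    exact (mem_sdiff.mp he).2 (star_inter_star hux huy hvx hvy (mem_sdiff.mp he).1 he')
  have dis2 : Disjoint (star {x, y} \ cross u v x y) (star {u, v}) := by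
    rw [Finset.disjoint_left]; intro e he he'
    exact (mem_sdiff.mp he).2 (star_inter_star hux huy hvx hvy he' (mem_sdiff.mp he).1)
  have main := dp_abstract (skey (d := d) (star {u, v})) (skey (star {x, y}))
    (skey (star {u, v} \ cross u v x y)) (skey (star {x, y} \ cross u v x y))
    (skey (cross u v x y))
    (fun _ _ h => skey_mono sdiff_subset h) (fun _ _ h => skey_mono hCS h)
    (fun _ _ h => skey_mono sdiff_subset h) (fun _ _ h => skey_mono hCS' h)
    (blk_comm sdiff_disjoint) (blk_comm sdiff_disjoint) (blk_comm (dis1.mono_right sdiff_subset))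
    (blk_comm dis1) (blk_comm dis2) f
  have t3 := dp_T3 u v x y huv hxy hux huy hvx hvy f
  have e1 : ip (f - avgK (skey (cross u v x y)) f) (f - avgK (skey (cross u v x y)) f)
      = SwSq u v x y f := by
    unfold ip SwSq
    refine Finset.sum_congr rfl (fun A _ => ?_)
    simp only [Pi.sub_apply]
    rw [avgK_cross u v x y huv hxy hux huy hvx hvy f A]
    ring
  have e2 : ip (f - avgK (skey (star {u, v})) f) (f - avgK (skey (star {x, y})) f)
      = ∑ A, GQ d u v f A * GQ d x y f A := by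
    unfold ip GQ
    rfl
  rw [e1, e2] at main
  linarith

end graph_part

end Vale.Agent.Lib.P335
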