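import Vale.Agent.Lib.P335.G.GTRd

namespace Vale.Agent.Lib.P335

open Finset

variable {V : Type*} [Fintype V] [DecidableEq V] {d : V → ℕ}

theorem gtr_sum_restrict (T : Finset V) (F : V → V → ℝ)
    (h : ∀ x y, ¬ (x ∈ T ∧ y ∈ T) → F x y = 0) :
    ∑ x, ∑ y, F x y = ∑ x : T, ∑ y : T, F x.1 y.1 := by
  calc ∑ x, ∑ y, F x y = ∑ x ∈ T, ∑ y, F x y :=
        (Finset.sum_subset (Finset.subset_univ T) (fun x _ hx =>
          Finset.sum_eq_zero (fun y _ => h x y (fun hh => hx hh.1)))).symm
    _ = ∑ x ∈ T, ∑ y ∈ T, F x y :=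
        Finset.sum_congr rfl (fun x _ =>
          (Finset.sum_subset (Finset.subset_univ T) (fun y _ hy => h x y (fun hh => hy hh.2))).symm)
    _ = ∑ x : T, ∑ y : T, F x.1 y.1 := by
        rw [← Finset.sum_coe_sort T]
        exact Finset.sum_congr rfl (fun x _ => (Finset.sum_coe_sort T (F x.1)).symm)

theorem gtr_sum_ite_sq {Ω : Type*} [Fintype Ω] (p : Ω → Prop) [DecidablePred p] (c : ℝ) :
    ∑ s, (if p s then c else 0) ^ 2 = ((univ.filter p).card : ℝ) * c ^ 2 := by
  have : ∀ s, (if p s then c else 0) ^ 2 = if p s then c ^ 2 else 0 := by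
    intro s; split_ifs <;> simp
  simp only [this]
  rw [← Finset.sum_filter, Finset.sum_const, nsmul_eq_mul]

section

variable {u v : V} (huv : u ≠ v) (A0 : Gr d)

/-- the transported function -/
noncomputable def gtrG (f : Gr d → ℝ) : Joh (gtrPhi u v A0) (gtrSet u v A0 A0).card → ℝ :=
  fun s => f ((gtrEq huv A0).symm s).1

theorem gtr_transport (p : Gr d → Prop) [DecidablePred p]
    (hp : ∀ B, p B → skey (star {u, v}) B = skey (star {u, v}) A0) (h : Gr d → ℝ) :
    ∑ B ∈ univ.filter p, h B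
      = ∑ s ∈ univ.filter (fun s => p ((gtrEq huv A0).symm s).1),
          h ((gtrEq huv A0).symm s).1 := by
  rw [Finset.sum_filter, Finset.sum_filter,
    Equiv.sum_comp (gtrEq huv A0).symm (fun A => if p A.1 then h A.1 else 0),
    ← Finset.sum_subtype (univ.filter
      (fun A : Gr d => skey (star {u, v}) A = skey (star {u, v}) A0)) (by simp)
      (fun A => if p A then h A else 0), Finset.sum_filter]
  refine Finset.sum_congr rfl (fun B _ => ?_)
  by_cases hB : p B
  · rw [if_pos hB, if_pos (hp B hB)]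
  · simp [hB]

theorem gtr_transport_card (p : Gr d → Prop) [DecidablePred p]
    (hp : ∀ B, p B → skey (star {u, v}) B = skey (star {u, v}) A0) :
    ((univ.filter p).card : ℝ)
      = ((univ.filter (fun s => p ((gtrEq huv A0).symm s).1)).card : ℝ) := by
  have := gtr_transport huv A0 p hp (fun _ => 1)
  simpa [Finset.sum_const, nsmul_eq_mul] using this

theorem gtr_symm_sw (x y : gtrPhi u v A0) (s : Joh (gtrPhi u v A0) (gtrSet u v A0 A0).card) :
    ((gtrEq huv A0).symm (jsw x y s)).1 = sw (cross u v x.1 y.1) ((gtrEq huv A0).symm s).1 := by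
  have h1 : (gtrEq huv A0).symm (jsw x y s) = gtrSw A0 x.1 y.1 ((gtrEq huv A0).symm s) := by
    rw [Equiv.symm_apply_eq]
    have h2 : gtrEq huv A0 (gtrSw A0 x.1 y.1 ((gtrEq huv A0).symm s))
        = jsw x y (gtrEq huv A0 ((gtrEq huv A0).symm s)) :=
      gtr_E_sw huv A0 x y _
    rw [h2, Equiv.apply_symm_apply]
  rw [h1]
  rfl

theorem gtr_mem_symm (w : gtrPhi u v A0) (t : Joh (gtrPhi u v A0) (gtrSet u v A0 A0).card) :
    w ∈ t.1 ↔ s(u, w.1) ∈ ((gtrEq huv A0).symm t).1.1 := by
  have h := gtr_mem_E huv A0 ((gtrEq huv A0).symm t) w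
  have h2 : gtrE huv A0 ((gtrEq huv A0).symm t) = t := (gtrEq huv A0).apply_symm_apply t
  rw [h2] at h
  exact h

theorem gtr_sw_eq_iff (x y : gtrPhi u v A0) (s : Joh (gtrPhi u v A0) (gtrSet u v A0 A0).card) :
    sw (cross u v x.1 y.1) ((gtrEq huv A0).symm s).1 = ((gtrEq huv A0).symm s).1
      ↔ jsw x y s = s := by
  rw [← gtr_symm_sw]
  constructor
  · intro h
    exact (gtrEq huv A0).symm.injective (Subtype.ext h)
  · intro h
    rw [h]

/-- S1 -/
theorem gtr_avg_star (f : Gr d → ℝ) (A : gtrCls u v A0) :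
    avgK (skey (star {u, v})) f A.1
      = (∑ t, gtrG huv A0 f t)
        / (Fintype.card (Joh (gtrPhi u v A0) (gtrSet u v A0 A0).card) : ℝ) := by
  unfold avgK
  rw [A.2, gtr_transport huv A0 (fun B => skey (star {u, v}) B = skey (star {u, v}) A0)
    (fun _ h => h) f, gtr_transport_card huv A0
    (fun B => skey (star {u, v}) B = skey (star {u, v}) A0) (fun _ h => h)]
  have : univ.filter (fun s => skey (star {u, v}) ((gtrEq huv A0).symm s).1
      = skey (star {u, v}) A0) = univ := by
    ext s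
    simp only [mem_filter, mem_univ, true_and, iff_true]
    exact ((gtrEq huv A0).symm s).2
  rw [this, Finset.card_univ]
  rfl

/-- T4 -/
theorem gtr_avg_cross (f : Gr d → ℝ) (x y : gtrPhi u v A0)
    (s : Joh (gtrPhi u v A0) (gtrSet u v A0 A0).card) (hs : jsw x y s ≠ s) :
    avgK (skey (star {u, v} \ cross u v x.1 y.1)) (avgK (skey (cross u v x.1 y.1)) f)
        ((gtrEq huv A0).symm s).1
      = (∑ t ∈ univ.filter (fun t => jsw x y t ≠ t), gtrG huv A0 f t)
        / ((univ.filter (fun t : Joh (gtrPhi u v A0) (gtrSet u v A0 A0).card =>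
            jsw x y t ≠ t)).card : ℝ) := by
  obtain ⟨hxu, hxv, -⟩ := gtr_mem_phi.mp x.2
  obtain ⟨hyu, hyv, -⟩ := gtr_mem_phi.mp y.2
  have hxy : x.1 ≠ y.1 := by
    intro h
    have : x = y := Subtype.ext h
    subst this
    exact hs ((gtr_jsw_eq_iff x x s).mpr Iff.rfl)
  have hC : avgK (skey (cross u v x.1 y.1)) f
      = fun B => (f B + f (sw (cross u v x.1 y.1) B)) / 2 :=
    funext (avgK_cross u v x.1 y.1 huv hxy hxu.symm hyu.symm hxv.symm hyv.symm f)
  rw [hC]
  unfold avgK
  have hp : ∀ B : Gr d, skey (star {u, v} \ cross u v x.1 y.1) B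
      = skey (star {u, v} \ cross u v x.1 y.1) ((gtrEq huv A0).symm s).1 →
      skey (star {u, v}) B = skey (star {u, v}) A0 :=
    fun B hB => (skey_mono Finset.sdiff_subset hB).trans ((gtrEq huv A0).symm s).2
  rw [gtr_transport huv A0 _ hp, gtr_transport_card huv A0 _ hp]
  have hfilter : univ.filter (fun t => skey (star {u, v} \ cross u v x.1 y.1)
        ((gtrEq huv A0).symm t).1
      = skey (star {u, v} \ cross u v x.1 y.1) ((gtrEq huv A0).symm s).1)
      = univ.filter (fun t : Joh (gtrPhi u v A0) (gtrSet u v A0 A0).card =>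
          (x ∈ t.1 ↔ x ∈ s.1) ∧ (y ∈ t.1 ↔ y ∈ s.1)) := by
    ext t
    simp only [mem_filter, mem_univ, true_and]
    rw [gtr_mem_symm huv A0 x t, gtr_mem_symm huv A0 x s, gtr_mem_symm huv A0 y t,
      gtr_mem_symm huv A0 y s, skey_eq_iff]
    constructor
    · intro h
      constructor
      · apply h
        simp [gtr_mem_cross]
      · apply h
        simp [gtr_mem_cross]
    · rintro ⟨h1, h2⟩ e he
      by_cases hS : e ∈ star ({u, v} : Finset V)
      · have hc : e ∈ cross u v x.1 y.1 := by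
          by_contra hc
          exact he (mem_sdiff.mpr ⟨hS, hc⟩)
        have px := gtr_P1 huv ((gtrEq huv A0).symm t).2 x.2
        have py := gtr_P1 huv ((gtrEq huv A0).symm t).2 y.2
        have qx := gtr_P1 huv ((gtrEq huv A0).symm s).2 x.2
        have qy := gtr_P1 huv ((gtrEq huv A0).symm s).2 y.2
        rw [gtr_mem_cross] at hc
        rcases hc with rfl | rfl | rfl | rfl
        · exact h1
        · exact h2
        · rw [← not_iff_not, ← px, ← qx]; exact h1
        · rw [← not_iff_not, ← py, ← qy]; exact h2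
      · exact (skey_eq_iff.mp
          (((gtrEq huv A0).symm t).2.trans ((gtrEq huv A0).symm s).2.symm)) e hS
  rw [hfilter, gtr_joh_split x y s hs (gtrG huv A0 f), gtr_joh_split_card x y s hs]
  have hterm : ∀ t, (f ((gtrEq huv A0).symm t).1
      + f (sw (cross u v x.1 y.1) ((gtrEq huv A0).symm t).1)) / 2
      = (gtrG huv A0 f t + gtrG huv A0 f (jsw x y t)) / 2 := by
    intro t
    unfold gtrG
    rw [gtr_symm_sw]
  simp only [hterm]
  rw [← Finset.sum_div, div_div]

end

end Vale.Agent.Lib.P335
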