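import Vale.Agent.Lib.P335.Spectral

/-! Module Johnson: two inequalities on the Johnson scheme (k-subsets of a finite set). -/

namespace Vale.Agent.Lib.P335

open Finset

set_option linter.unusedSectionVars false

variable {Φ : Type*} [Fintype Φ] [DecidableEq Φ]

/-- `k`-subsets of `Φ` -/
abbrev Joh (Φ : Type*) [Fintype Φ] [DecidableEq Φ] (k : ℕ) := {s : Finset Φ // s.card = k}

/-- exchange the points `x`, `y` -/
def jsw {k : ℕ} (x y : Φ) (s : Joh Φ k) : Joh Φ k :=
  ⟨s.1.map (Equiv.swap x y).toEmbedding, by rw [Finset.card_map]; exact s.2⟩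

/-! ### basic facts on `jsw` -/

theorem joh_mem_jsw {k : ℕ} (x y z : Φ) (s : Joh Φ k) :
    z ∈ (jsw x y s).1 ↔ Equiv.swap x y z ∈ s.1 := by
  simp [jsw, Finset.mem_map_equiv]

theorem joh_jsw_invol {k : ℕ} (x y : Φ) (s : Joh Φ k) : jsw x y (jsw x y s) = s := by
  apply Subtype.ext
  ext z
  rw [joh_mem_jsw, joh_mem_jsw, Equiv.swap_apply_self]

theorem joh_jsw_comm {k : ℕ} (x y : Φ) (s : Joh Φ k) : jsw x y s = jsw y x s := by
  apply Subtype.ext
  ext z
  rw [joh_mem_jsw, joh_mem_jsw, Equiv.swap_comm]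

theorem joh_jsw_self {k : ℕ} (x : Φ) (s : Joh Φ k) : jsw x x s = s := by
  apply Subtype.ext
  ext z
  rw [joh_mem_jsw, Equiv.swap_self]
  rfl

/-- `jsw` as a permutation -/
def johEquiv {k : ℕ} (x y : Φ) : Joh Φ k ≃ Joh Φ k :=
  ⟨jsw x y, jsw x y, joh_jsw_invol x y, joh_jsw_invol x y⟩

theorem joh_sum_jsw {k : ℕ} (x y : Φ) (F : Joh Φ k → ℝ) : ∑ s, F (jsw x y s) = ∑ s, F s :=
  Equiv.sum_comp (johEquiv x y) F

theorem joh_jsw_ne_iff {k : ℕ} (x y : Φ) (s : Joh Φ k) :
    jsw x y s ≠ s ↔ ¬ (x ∈ s.1 ↔ y ∈ s.1) := by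
  constructor
  · intro h hxy
    apply h
    apply Subtype.ext
    ext z
    rw [joh_mem_jsw]
    by_cases hzx : z = x
    · subst hzx; rw [Equiv.swap_apply_left]; exact hxy.symm
    · by_cases hzy : z = y
      · subst hzy; rw [Equiv.swap_apply_right]; exact hxy
      · rw [Equiv.swap_apply_of_ne_of_ne hzx hzy]
  · intro h e
    apply h
    have h1 := joh_mem_jsw x y x s
    rw [e, Equiv.swap_apply_left] at h1
    exact h1

/-- conjugation -/
theorem joh_jsw_conj {k : ℕ} (a b j j' : Φ) (s : Joh Φ k) :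
    jsw (Equiv.swap a b j) (Equiv.swap a b j') (jsw a b s) = jsw a b (jsw j j' s) := by
  apply Subtype.ext
  ext z
  rw [joh_mem_jsw, joh_mem_jsw, joh_mem_jsw, joh_mem_jsw]
  have : Equiv.swap a b (Equiv.swap (Equiv.swap a b j) (Equiv.swap a b j') z)
      = Equiv.swap j j' (Equiv.swap a b z) := by
    rw [Equiv.swap_apply_apply]
    simp [Equiv.Perm.mul_apply]
  rw [this]

/-! ### the indicator of `jsw x y s ≠ s` -/

/-- indicator of `jsw x y s ≠ s` -/
noncomputable def jd {k : ℕ} (x y : Φ) (s : Joh Φ k) : ℝ := if jsw x y s ≠ s then 1 else 0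

theorem jd_eq {k : ℕ} (x y : Φ) (s : Joh Φ k) :
    jd x y s = if (x ∈ s.1 ↔ y ∈ s.1) then 0 else 1 := by
  unfold jd
  by_cases h : (x ∈ s.1 ↔ y ∈ s.1)
  · rw [if_pos h, if_neg]; rw [joh_jsw_ne_iff]; exact not_not.mpr h
  · rw [if_neg h, if_pos]; rw [joh_jsw_ne_iff]; exact h

theorem jd_nonneg {k : ℕ} (x y : Φ) (s : Joh Φ k) : 0 ≤ jd x y s := by
  unfold jd; split_ifs <;> norm_num

theorem jd_sq {k : ℕ} (x y : Φ) (s : Joh Φ k) : jd x y s * jd x y s = jd x y s := by
  unfold jd; split_ifs <;> norm_num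

theorem jd_self {k : ℕ} (x : Φ) (s : Joh Φ k) : jd x x s = 0 := by
  rw [jd_eq]; simp

theorem jd_symm {k : ℕ} (x y : Φ) (s : Joh Φ k) : jd x y s = jd y x s := by
  unfold jd; rw [joh_jsw_comm]

theorem jd_conj {k : ℕ} (a b x y : Φ) (s : Joh Φ k) :
    jd (Equiv.swap a b x) (Equiv.swap a b y) (jsw a b s) = jd x y s := by
  rw [jd_eq, jd_eq]
  simp only [joh_mem_jsw, Equiv.swap_apply_self]

theorem jd_tri {k : ℕ} (x y z : Φ) (s : Joh Φ k) :
    jd x y s * jd y z s + jd x y s * jd x z s = jd x y s := by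
  rw [jd_eq, jd_eq, jd_eq]
  by_cases hx : x ∈ s.1 <;> by_cases hy : y ∈ s.1 <;> by_cases hz : z ∈ s.1 <;> simp [hx, hy, hz]

theorem jd_diff {k : ℕ} (y z : Φ) (g : Joh Φ k → ℝ) (s : Joh Φ k) :
    g s - g (jsw y z s) = jd y z s * (g s - g (jsw y z s)) := by
  unfold jd
  by_cases h : jsw y z s = s
  · rw [h]; simp
  · rw [if_pos h]; ring

theorem joh_var_id (E : Finset Φ) (β : Φ → ℝ) :
    ∑ y ∈ E, ∑ z ∈ E, (β y - β z) ^ 2
      = 2 * (E.card : ℝ) * ∑ y ∈ E, (β y) ^ 2 - 2 * (∑ y ∈ E, β y) ^ 2 := by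
  have h : ∀ y z, (β y - β z) ^ 2 = (β y) ^ 2 + (β z) ^ 2 - 2 * (β y * β z) := by
    intros; ring
  simp only [h, Finset.sum_sub_distrib, Finset.sum_add_distrib, Finset.sum_const, nsmul_eq_mul,
    ← Finset.mul_sum, ← Finset.sum_mul]
  ring

theorem jd_count {k : ℕ} (s : Joh Φ k) :
    ∑ x, ∑ y, jd x y s = 2 * (Fintype.card Φ : ℝ) * k - 2 * (k : ℝ) ^ 2 := by
  set η : Φ → ℝ := fun x => if x ∈ s.1 then 1 else 0 with hη
  have h1 : ∀ x y, jd x y s = (η x - η y) ^ 2 := by
    intro x y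
    rw [jd_eq]
    by_cases hx : x ∈ s.1 <;> by_cases hy : y ∈ s.1 <;> simp [hη, hx, hy]
  have h2 : ∑ x, η x = k := by
    simp [hη, s.2]
  have h3 : ∑ x, (η x) ^ 2 = k := by
    rw [← h2]
    refine Finset.sum_congr rfl fun x _ => ?_
    by_cases hx : x ∈ s.1 <;> simp [hη, hx]
  simp only [h1]
  rw [joh_var_id, h2, h3, Finset.card_univ]

/-! ### Poincare inequality for symmetric functions of two points (sharp constant) -/

theorem joh_pairs (B : Φ → Φ → ℝ) (hsymm : ∀ x y, B x y = B y x) (hdiag : ∀ x, B x x = 0)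
    (hsum : ∑ x, ∑ y, B x y = 0) (hM : 3 ≤ Fintype.card Φ) :
    (Fintype.card Φ : ℝ) * ∑ x, ∑ y, (B x y) ^ 2
      ≤ ∑ x, ∑ y ∈ univ.erase x, ∑ z ∈ univ.erase x, (B x y - B x z) ^ 2 := by
  set M : ℝ := (Fintype.card Φ : ℝ) with hMdef
  set r : Φ → ℝ := fun x => ∑ y, B x y with hr
  set SB : ℝ := ∑ x, ∑ y, (B x y) ^ 2 with hSB
  set Sr : ℝ := ∑ x, (r x) ^ 2 with hSr
  have hM3 : (3 : ℝ) ≤ M := by rw [hMdef]; exact_mod_cast hM
  have h1 : ∀ x, ∑ y ∈ univ.erase x, ∑ z ∈ univ.erase x, (B x y - B x z) ^ 2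
      = 2 * (M - 1) * ∑ y, (B x y) ^ 2 - 2 * (r x) ^ 2 := by
    intro x
    rw [joh_var_id, Finset.card_erase_of_mem (mem_univ x), Finset.card_univ,
      Finset.sum_erase _ (by simp [hdiag]), Finset.sum_erase _ (hdiag x)]
    have : ((Fintype.card Φ - 1 : ℕ) : ℝ) = M - 1 := by
      rw [Nat.cast_sub (by omega)]; simp [hMdef]
    rw [this]
  have hS3 : ∑ x, ∑ y ∈ univ.erase x, ∑ z ∈ univ.erase x, (B x y - B x z) ^ 2
      = 2 * (M - 1) * SB - 2 * Sr := by
    simp only [h1, Finset.sum_sub_distrib, ← Finset.mul_sum]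
    rfl
  have hsos : 0 ≤ ∑ x, ∑ y ∈ univ.erase x, ((M - 2) * B x y - r x - r y) ^ 2 :=
    Finset.sum_nonneg fun x _ => Finset.sum_nonneg fun y _ => sq_nonneg _
  have hr0 : ∑ x, r x = 0 := hsum
  have t1 : ∑ x, ∑ y, (M - 2) ^ 2 * (B x y) ^ 2 = (M - 2) ^ 2 * SB := by
    simp only [← Finset.mul_sum]
    rfl
  have t2 : ∑ x, ∑ _y : Φ, (r x) ^ 2 = M * Sr := by
    simp only [Finset.sum_const, Finset.card_univ, nsmul_eq_mul, ← Finset.mul_sum]
    rfl
  have t3 : ∑ _x : Φ, ∑ y, (r y) ^ 2 = M * Sr := by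
    simp only [Finset.sum_const, Finset.card_univ, nsmul_eq_mul]
    rfl
  have t4 : ∑ x, ∑ y, 2 * (r x * r y) = 0 := by
    simp only [← Finset.mul_sum, hr0, mul_zero, Finset.sum_const_zero]
  have t5 : ∑ x, ∑ y, 2 * (M - 2) * (B x y * r x) = 2 * (M - 2) * Sr := by
    simp only [← Finset.mul_sum, ← Finset.sum_mul]
    congr 1
    exact Finset.sum_congr rfl fun x _ => by simp only [hr]; ring
  have t6 : ∑ x, ∑ y, 2 * (M - 2) * (B x y * r y) = 2 * (M - 2) * Sr := by
    rw [Finset.sum_comm]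
    simp only [← Finset.mul_sum, ← Finset.sum_mul]
    congr 1
    refine Finset.sum_congr rfl fun y _ => ?_
    have : ∑ x, B x y = r y := by
      simp only [hr]; exact Finset.sum_congr rfl fun x _ => hsymm x y
    rw [this]; ring
  have hexp : ∑ x, ∑ y ∈ univ.erase x, ((M - 2) * B x y - r x - r y) ^ 2
      = (M - 2) ^ 2 * SB - 2 * (M - 2) * Sr := by
    have e : ∀ x y, ((M - 2) * B x y - r x - r y) ^ 2
        = (M - 2) ^ 2 * (B x y) ^ 2 + (r x) ^ 2 + (r y) ^ 2 + 2 * (r x * r y)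
          - 2 * (M - 2) * (B x y * r x) - 2 * (M - 2) * (B x y * r y) := by
      intros; ring
    have full : ∑ x, ∑ y, ((M - 2) * B x y - r x - r y) ^ 2
        = (M - 2) ^ 2 * SB + M * Sr + M * Sr + 0 - 2 * (M - 2) * Sr - 2 * (M - 2) * Sr := by
      simp only [e, Finset.sum_add_distrib, Finset.sum_sub_distrib]
      rw [t1, t2, t3, t4, t5, t6]
    have dg : ∑ x, ((M - 2) * B x x - r x - r x) ^ 2 = 4 * Sr := by
      rw [hSr, Finset.mul_sum]
      exact Finset.sum_congr rfl fun x _ => by rw [hdiag]; ring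
    have : ∑ x, ∑ y ∈ univ.erase x, ((M - 2) * B x y - r x - r y) ^ 2
        = ∑ x, ∑ y, ((M - 2) * B x y - r x - r y) ^ 2
          - ∑ x, ((M - 2) * B x x - r x - r x) ^ 2 := by
      rw [← Finset.sum_sub_distrib]
      exact Finset.sum_congr rfl fun x _ => Finset.sum_erase_eq_sub (mem_univ x)
    rw [this, full, dg]; ring
  rw [hexp] at hsos
  have hpos : 0 < M - 2 := by linarith
  have h2 : 0 ≤ (M - 2) * SB - 2 * Sr := by
    have : 0 ≤ (M - 2) * ((M - 2) * SB - 2 * Sr) := by nlinarith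
    exact nonneg_of_mul_nonneg_right this hpos
  rw [hS3]
  linarith

/-! ### counting -/

/-- number of `k`-sets separating `x` and `y` -/
noncomputable def jN (k : ℕ) (x y : Φ) : ℝ := ∑ s : Joh Φ k, jd x y s

theorem jN_nonneg (k : ℕ) (x y : Φ) : 0 ≤ jN k x y :=
  Finset.sum_nonneg fun s _ => jd_nonneg x y s

theorem jN_self (k : ℕ) (x : Φ) : jN k x x = 0 := by
  unfold jN; simp [jd_self]

theorem jN_conj (k : ℕ) (a b x y : Φ) :
    jN k (Equiv.swap a b x) (Equiv.swap a b y) = jN k x y := by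
  unfold jN
  rw [← joh_sum_jsw a b]
  exact Finset.sum_congr rfl fun s _ => jd_conj a b x y s

theorem jN_const (k : ℕ) {x y x' y' : Φ} (h : x ≠ y) (h' : x' ≠ y') :
    jN k x y = jN k x' y' := by
  have e1 := jN_conj k x x' x y
  rw [Equiv.swap_apply_left] at e1
  have hy'' : x' ≠ Equiv.swap x x' y := by
    intro e
    apply h
    have := congrArg (Equiv.swap x x') e
    rw [Equiv.swap_apply_right, Equiv.swap_apply_self] at this
    exact this
  have e2 := jN_conj k (Equiv.swap x x' y) y' x' (Equiv.swap x x' y)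
  rw [Equiv.swap_apply_left, Equiv.swap_apply_of_ne_of_ne hy'' h'] at e2
  rw [← e1, ← e2]

theorem jN_half (k : ℕ) {x y z : Φ} (hxz : x ≠ z) (hyz : y ≠ z) :
    2 * ∑ s : Joh Φ k, jd x y s * jd y z s = jN k x y := by
  have e1 : ∑ s : Joh Φ k, jd x y s * jd x z s = ∑ s : Joh Φ k, jd x y s * jd y z s := by
    rw [← joh_sum_jsw x y]
    refine Finset.sum_congr rfl fun s _ => ?_
    have a1 := jd_conj x y y x s
    rw [Equiv.swap_apply_left, Equiv.swap_apply_right] at a1
    have a2 := jd_conj x y y z s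
    rw [Equiv.swap_apply_right, Equiv.swap_apply_of_ne_of_ne hxz.symm hyz.symm] at a2
    rw [a1, a2, jd_symm y x]
  have e2 : ∑ s : Joh Φ k, jd x y s * jd y z s + ∑ s : Joh Φ k, jd x y s * jd x z s
      = jN k x y := by
    rw [← Finset.sum_add_distrib]
    exact Finset.sum_congr rfl fun s _ => jd_tri x y z s
  rw [e1] at e2
  linarith

/-- difference of the sums over two neighbouring pairs -/
theorem joh_diff_bound (k : ℕ) (g : Joh Φ k → ℝ) {x y z : Φ} (hxy : x ≠ y) (hxz : x ≠ z) :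
    ((∑ s, jd x y s * g s) - ∑ s, jd x z s * g s) ^ 2
      ≤ (jN k x y / 2) * ∑ s, jd x y s * jd y z s * (g s - g (jsw y z s)) ^ 2 := by
  by_cases hyz : y = z
  · subst hyz
    simp [jd_self]
  · have e1 : ∑ s, jd x z s * g s = ∑ s, jd x y s * g (jsw y z s) := by
      rw [← joh_sum_jsw y z]
      refine Finset.sum_congr rfl fun s _ => ?_
      have a1 := jd_conj y z x y s
      rw [Equiv.swap_apply_left, Equiv.swap_apply_of_ne_of_ne hxy hxz] at a1
      rw [a1]
    have e2 : (∑ s, jd x y s * g s) - ∑ s, jd x z s * g s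
        = ∑ s, (jd x y s * jd y z s) * ((jd x y s * jd y z s) * (g s - g (jsw y z s))) := by
      rw [e1, ← Finset.sum_sub_distrib]
      refine Finset.sum_congr rfl fun s _ => ?_
      have a1 := jd_diff y z g s
      have a2 := jd_sq x y s
      have a3 := jd_sq y z s
      calc jd x y s * g s - jd x y s * g (jsw y z s)
          = jd x y s * (g s - g (jsw y z s)) := by ring
        _ = jd x y s * (jd y z s * (g s - g (jsw y z s))) := by rw [← a1]
        _ = (jd x y s * jd x y s) * ((jd y z s * jd y z s) * (g s - g (jsw y z s))) := by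
            rw [a2, a3]
        _ = _ := by ring
    rw [e2]
    refine (Finset.sum_mul_sq_le_sq_mul_sq _ _ _).trans (le_of_eq ?_)
    have e3 : ∑ s : Joh Φ k, (jd x y s * jd y z s) ^ 2 = jN k x y / 2 := by
      rw [← jN_half k hxz hyz]
      have : ∀ s : Joh Φ k, (jd x y s * jd y z s) ^ 2 = jd x y s * jd y z s := by
        intro s
        calc (jd x y s * jd y z s) ^ 2 = (jd x y s * jd x y s) * (jd y z s * jd y z s) := by ring
          _ = _ := by rw [jd_sq, jd_sq]
      simp only [this]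
      ring
    rw [e3]
    congr 1
    refine Finset.sum_congr rfl fun s _ => ?_
    calc (jd x y s * jd y z s * (g s - g (jsw y z s))) ^ 2
        = (jd x y s * jd x y s) * (jd y z s * jd y z s) * (g s - g (jsw y z s)) ^ 2 := by ring
      _ = _ := by rw [jd_sq, jd_sq]

theorem joh_count (k : ℕ) (g : Joh Φ k → ℝ) :
    2 * ∑ x, ∑ y, ∑ z, ∑ s, jd x y s * jd y z s * (g s - g (jsw y z s)) ^ 2
      = (Fintype.card Φ : ℝ) * ∑ y, ∑ z, ∑ s, (g s - g (jsw y z s)) ^ 2 := by
  have e1 : ∑ x, ∑ y, ∑ z, ∑ s, jd x y s * jd y z s * (g s - g (jsw y z s)) ^ 2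
      = ∑ x, ∑ y, ∑ z, ∑ s, jd x z s * jd y z s * (g s - g (jsw y z s)) ^ 2 := by
    refine Finset.sum_congr rfl fun x _ => ?_
    rw [Finset.sum_comm]
    refine Finset.sum_congr rfl fun y _ => Finset.sum_congr rfl fun z _ =>
      Finset.sum_congr rfl fun s _ => ?_
    rw [jd_symm z y, joh_jsw_comm z y]
  have e2 : ∑ x, ∑ y, ∑ z, ∑ s, jd x y s * jd y z s * (g s - g (jsw y z s)) ^ 2
      + ∑ x, ∑ y, ∑ z, ∑ s, jd x z s * jd y z s * (g s - g (jsw y z s)) ^ 2
      = ∑ _x : Φ, ∑ y, ∑ z, ∑ s, (g s - g (jsw y z s)) ^ 2 := by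
    simp only [← Finset.sum_add_distrib]
    refine Finset.sum_congr rfl fun x _ => Finset.sum_congr rfl fun y _ =>
      Finset.sum_congr rfl fun z _ => Finset.sum_congr rfl fun s _ => ?_
    have a1 := jd_tri y z x s
    have a2 := jd_diff y z g s
    have a3 := jd_sq y z s
    rw [jd_symm z x, jd_symm y x] at a1
    calc jd x y s * jd y z s * (g s - g (jsw y z s)) ^ 2
          + jd x z s * jd y z s * (g s - g (jsw y z s)) ^ 2
        = (jd y z s * jd x z s + jd y z s * jd x y s) * (g s - g (jsw y z s)) ^ 2 := by ring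
      _ = jd y z s * (g s - g (jsw y z s)) ^ 2 := by rw [a1]
      _ = (jd y z s * jd y z s) * (g s - g (jsw y z s)) ^ 2 := by rw [a3]
      _ = (jd y z s * (g s - g (jsw y z s))) ^ 2 := by ring
      _ = _ := by rw [← a2]
  rw [← e1] at e2
  rw [two_mul, e2]
  simp [Finset.sum_const, Finset.card_univ]

/-! ### the inequality (TR) -/

theorem joh_sum_B (k : ℕ) (g : Joh Φ k → ℝ) (hg : ∑ s, g s = 0) :
    ∑ x, ∑ y, ∑ s, jd x y s * g s = 0 := by
  calc ∑ x, ∑ y, ∑ s, jd x y s * g s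
      = ∑ x, ∑ s, ∑ y, jd x y s * g s := Finset.sum_congr rfl fun x _ => Finset.sum_comm
    _ = ∑ s, ∑ x, ∑ y, jd x y s * g s := Finset.sum_comm
    _ = ∑ s, (∑ x, ∑ y, jd x y s) * g s := by simp only [Finset.sum_mul]
    _ = ∑ s, (2 * (Fintype.card Φ : ℝ) * k - 2 * (k : ℝ) ^ 2) * g s := by simp only [jd_count]
    _ = 0 := by rw [← Finset.mul_sum, hg, mul_zero]

theorem joh_tr_core (k : ℕ) (g : Joh Φ k → ℝ) (hg : ∑ s, g s = 0) (N1 : ℝ)
    (hN1 : ∀ x y : Φ, x ≠ y → jN k x y = N1) :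
    ∑ x, ∑ y, (∑ s, jd x y s * g s) ^ 2
      ≤ N1 / 4 * ∑ x, ∑ y, ∑ s, (g s - g (jsw x y s)) ^ 2 := by
  set B : Φ → Φ → ℝ := fun x y => ∑ s, jd x y s * g s with hB
  have hsymm : ∀ x y, B x y = B y x := by
    intro x y
    simp only [hB]
    exact Finset.sum_congr rfl fun s _ => by rw [jd_symm]
  have hdiag : ∀ x, B x x = 0 := by
    intro x
    simp [hB, jd_self]
  have hsum : ∑ x, ∑ y, B x y = 0 := joh_sum_B k g hg
  have hDD : 0 ≤ ∑ x, ∑ y, ∑ s, (g s - g (jsw x y s)) ^ 2 :=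
    Finset.sum_nonneg fun x _ => Finset.sum_nonneg fun y _ => Finset.sum_nonneg fun s _ =>
      sq_nonneg _
  by_cases hM : 3 ≤ Fintype.card Φ
  · have hMpos : (0 : ℝ) < (Fintype.card Φ : ℝ) := by
      have : 0 < Fintype.card Φ := by omega
      exact_mod_cast this
    obtain ⟨x0, y0, hxy0⟩ : ∃ x0 y0 : Φ, x0 ≠ y0 := by
      have : 1 < Fintype.card Φ := by omega
      exact Fintype.exists_pair_of_one_lt_card this
    have hN1nn : 0 ≤ N1 := by rw [← hN1 x0 y0 hxy0]; exact jN_nonneg _ _ _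
    have h1 := joh_pairs B hsymm hdiag hsum hM
    have h2 : ∑ x, ∑ y ∈ univ.erase x, ∑ z ∈ univ.erase x, (B x y - B x z) ^ 2
        ≤ ∑ x, ∑ y, ∑ z, (N1 / 2) * ∑ s, jd x y s * jd y z s * (g s - g (jsw y z s)) ^ 2 := by
      refine Finset.sum_le_sum fun x _ => ?_
      have hnn : ∀ y z, 0 ≤ (N1 / 2) * ∑ s, jd x y s * jd y z s * (g s - g (jsw y z s)) ^ 2 := by
        intro y z
        refine mul_nonneg (by linarith) (Finset.sum_nonneg fun s _ => ?_)
        exact mul_nonneg (mul_nonneg (jd_nonneg _ _ _) (jd_nonneg _ _ _)) (sq_nonneg _)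
      calc ∑ y ∈ univ.erase x, ∑ z ∈ univ.erase x, (B x y - B x z) ^ 2
          ≤ ∑ y ∈ univ.erase x, ∑ z ∈ univ.erase x,
              (N1 / 2) * ∑ s, jd x y s * jd y z s * (g s - g (jsw y z s)) ^ 2 := by
            refine Finset.sum_le_sum fun y hy => Finset.sum_le_sum fun z hz => ?_
            have hxy : x ≠ y := (Finset.ne_of_mem_erase hy).symm
            have hxz : x ≠ z := (Finset.ne_of_mem_erase hz).symm
            have := joh_diff_bound k g hxy hxz
            rw [hN1 x y hxy] at this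
            exact this
        _ ≤ ∑ y ∈ univ.erase x, ∑ z,
              (N1 / 2) * ∑ s, jd x y s * jd y z s * (g s - g (jsw y z s)) ^ 2 := by
            refine Finset.sum_le_sum fun y _ => ?_
            exact Finset.sum_le_sum_of_subset_of_nonneg (Finset.subset_univ _)
              (fun z _ _ => hnn y z)
        _ ≤ ∑ y, ∑ z,
              (N1 / 2) * ∑ s, jd x y s * jd y z s * (g s - g (jsw y z s)) ^ 2 := by
            exact Finset.sum_le_sum_of_subset_of_nonneg (Finset.subset_univ _)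
              (fun y _ _ => Finset.sum_nonneg fun z _ => hnn y z)
    have h3 : ∑ x, ∑ y, ∑ z, (N1 / 2) * ∑ s, jd x y s * jd y z s * (g s - g (jsw y z s)) ^ 2
        = (N1 / 4) * ((Fintype.card Φ : ℝ) * ∑ y, ∑ z, ∑ s, (g s - g (jsw y z s)) ^ 2) := by
      rw [← joh_count k g]
      simp only [← Finset.mul_sum]
      ring
    have h4 : (Fintype.card Φ : ℝ) * ∑ x, ∑ y, (B x y) ^ 2
        ≤ (Fintype.card Φ : ℝ) * (N1 / 4 * ∑ y, ∑ z, ∑ s, (g s - g (jsw y z s)) ^ 2) := by
      calc _ ≤ _ := h1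
        _ ≤ _ := h2
        _ = _ := h3
        _ = _ := by ring
    exact le_of_mul_le_mul_left h4 hMpos
  · have hB0 : ∀ x y, B x y = 0 := by
      intro x y
      by_cases hxy : x = y
      · rw [hxy]; exact hdiag y
      · have hcard : ({x, y} : Finset Φ).card = Fintype.card Φ := by
          have h1 : ({x, y} : Finset Φ).card = 2 := Finset.card_pair hxy
          have h2 := Finset.card_le_univ ({x, y} : Finset Φ)
          omega
        have huniv : (univ : Finset Φ) = {x, y} := (Finset.eq_univ_of_card _ hcard).symm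
        rw [huniv, Finset.sum_pair hxy, Finset.sum_pair hxy, Finset.sum_pair hxy,
          hdiag, hdiag, hsymm y x] at hsum
        linarith
    have hN1nn : 0 ≤ N1 / 4 * ∑ x, ∑ y, ∑ s, (g s - g (jsw x y s)) ^ 2 := by
      by_cases hex : ∃ x0 y0 : Φ, x0 ≠ y0
      · obtain ⟨x0, y0, hxy0⟩ := hex
        have : 0 ≤ N1 := by rw [← hN1 x0 y0 hxy0]; exact jN_nonneg _ _ _
        exact mul_nonneg (by linarith) hDD
      · push Not at hex
        have : ∑ x, ∑ y, ∑ s, (g s - g (jsw x y s)) ^ 2 = 0 := by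
          refine Finset.sum_eq_zero fun x _ => Finset.sum_eq_zero fun y _ =>
            Finset.sum_eq_zero fun s _ => ?_
          rw [hex x y, joh_jsw_self]; simp
        rw [this]; simp
    have hz : ∑ x, ∑ y, (∑ s, jd x y s * g s) ^ 2 = 0 := by
      refine Finset.sum_eq_zero fun x _ => Finset.sum_eq_zero fun y _ => ?_
      have h0 : ∑ s, jd x y s * g s = 0 := hB0 x y
      rw [h0]; simp
    rw [hz]
    exact hN1nn

/-- (TR): with `D x y = {s | exactly one of x, y lies in s}`, the deviations of the averages over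
`D x y` from the global average are controlled by the Dirichlet form, with the sharp constant -/
theorem joh_tr (k : ℕ) (f : Joh Φ k → ℝ) :
    ∑ x, ∑ y, ((univ.filter (fun s : Joh Φ k => jsw x y s ≠ s)).card : ℝ) *
        ((∑ s ∈ univ.filter (fun s : Joh Φ k => jsw x y s ≠ s), f s)
            / ((univ.filter (fun s : Joh Φ k => jsw x y s ≠ s)).card : ℝ)
          - (∑ t, f t) / (Fintype.card (Joh Φ k) : ℝ)) ^ 2
      ≤ ∑ x, ∑ y, ∑ s, ((f s - f (jsw x y s)) / 2) ^ 2 := by
  have hcard : ∀ x y : Φ, ((univ.filter (fun s : Joh Φ k => jsw x y s ≠ s)).card : ℝ)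
      = jN k x y := by
    intro x y
    rw [Finset.natCast_card_filter]
    rfl
  have hsumf : ∀ x y : Φ, ∑ s ∈ univ.filter (fun s : Joh Φ k => jsw x y s ≠ s), f s
      = ∑ s, jd x y s * f s := by
    intro x y
    rw [Finset.sum_filter]
    refine Finset.sum_congr rfl fun s _ => ?_
    unfold jd
    split_ifs <;> simp
  simp only [hcard, hsumf]
  set m : ℝ := (∑ t, f t) / (Fintype.card (Joh Φ k) : ℝ) with hm
  set g : Joh Φ k → ℝ := fun s => f s - m with hgdef
  have hg : ∑ s, g s = 0 := by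
    simp only [hgdef, Finset.sum_sub_distrib, Finset.sum_const, Finset.card_univ, nsmul_eq_mul]
    by_cases hN : (Fintype.card (Joh Φ k) : ℝ) = 0
    · have h0 : Fintype.card (Joh Φ k) = 0 := by exact_mod_cast hN
      have : IsEmpty (Joh Φ k) := Fintype.card_eq_zero_iff.mp h0
      simp
    · rw [hm]; field_simp; ring
  have hBT : ∀ x y : Φ, ∑ s, jd x y s * g s = (∑ s, jd x y s * f s) - jN k x y * m := by
    intro x y
    simp only [hgdef, mul_sub, Finset.sum_sub_distrib, ← Finset.sum_mul]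
    rfl
  have hRHS : ∑ x, ∑ y, ∑ s, ((f s - f (jsw x y s)) / 2) ^ 2
      = 1 / 4 * ∑ x, ∑ y, ∑ s, (g s - g (jsw x y s)) ^ 2 := by
    simp only [Finset.mul_sum]
    refine Finset.sum_congr rfl fun x _ => Finset.sum_congr rfl fun y _ =>
      Finset.sum_congr rfl fun s _ => ?_
    simp only [hgdef]; ring
  have hDD : 0 ≤ ∑ x, ∑ y, ∑ s, (g s - g (jsw x y s)) ^ 2 :=
    Finset.sum_nonneg fun x _ => Finset.sum_nonneg fun y _ => Finset.sum_nonneg fun s _ =>
      sq_nonneg _
  rw [hRHS]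
  by_cases hex : ∃ x0 y0 : Φ, x0 ≠ y0
  · obtain ⟨x0, y0, hxy0⟩ := hex
    set N1 : ℝ := jN k x0 y0 with hN1def
    have hN1 : ∀ x y : Φ, x ≠ y → jN k x y = N1 := fun x y h => jN_const k h hxy0
    by_cases hz : N1 = 0
    · have : ∀ x y : Φ, jN k x y = 0 := by
        intro x y
        by_cases hxy : x = y
        · rw [hxy]; exact jN_self k y
        · rw [hN1 x y hxy, hz]
      simp only [this, zero_mul, Finset.sum_const_zero]
      exact mul_nonneg (by norm_num) hDD
    · have hpos : 0 < N1 := lt_of_le_of_ne (jN_nonneg _ _ _) (Ne.symm hz)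
      have hterm : ∀ x y : Φ, jN k x y * ((∑ s, jd x y s * f s) / jN k x y - m) ^ 2
          = (∑ s, jd x y s * g s) ^ 2 / N1 := by
        intro x y
        by_cases hxy : x = y
        · rw [hxy, jN_self]; simp [jd_self]
        · rw [hBT, hN1 x y hxy]
          field_simp
      simp only [hterm, ← Finset.sum_div]
      rw [div_le_iff₀ hpos]
      have := joh_tr_core k g hg N1 hN1
      linarith
  · push Not at hex
    have : ∀ x y : Φ, jN k x y = 0 := by
      intro x y
      rw [hex x y]; exact jN_self k y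
    simp only [this, zero_mul, Finset.sum_const_zero]
    exact mul_nonneg (by norm_num) hDD

/-! ### Poincare inequality (maximum principle for discrete gradients) -/

theorem joh_connected {k : ℕ} (h : Joh Φ k → ℝ) (hinv : ∀ a b s, h (jsw a b s) = h s) :
    ∀ s t, h s = h t := by
  have key : ∀ (n : ℕ) (s t : Joh Φ k), (s.1 \ t.1).card = n → h s = h t := by
    intro n
    induction n with
    | zero =>
      intro s t hn
      have hsub : s.1 ⊆ t.1 := by
        rw [Finset.card_eq_zero, Finset.sdiff_eq_empty_iff_subset] at hn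
        exact hn
      have : s.1 = t.1 := Finset.eq_of_subset_of_card_le hsub (by rw [s.2, t.2])
      rw [Subtype.ext this]
    | succ n ih =>
      intro s t hn
      have h1 : 0 < (s.1 \ t.1).card := by omega
      have h2 : 0 < (t.1 \ s.1).card := by
        rw [Finset.card_sdiff_comm (by rw [s.2, t.2] : t.1.card = s.1.card)]; exact h1
      obtain ⟨x, hx⟩ := Finset.card_pos.mp h1
      obtain ⟨y, hy⟩ := Finset.card_pos.mp h2
      rw [Finset.mem_sdiff] at hx hy
      have hxy : x ≠ y := by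
        intro e; rw [e] at hx; exact hx.2 hy.1
      have hset : (jsw x y s).1 \ t.1 = (s.1 \ t.1).erase x := by
        ext z
        rw [Finset.mem_sdiff, joh_mem_jsw, Finset.mem_erase, Finset.mem_sdiff]
        by_cases hzx : z = x
        · subst hzx
          rw [Equiv.swap_apply_left]
          simp [hy.2]
        · by_cases hzy : z = y
          · subst hzy
            rw [Equiv.swap_apply_right]
            simp [hy.1]
          · rw [Equiv.swap_apply_of_ne_of_ne hzx hzy]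
            simp [hzx]
      have hc : ((jsw x y s).1 \ t.1).card = n := by
        rw [hset, Finset.card_erase_of_mem (Finset.mem_sdiff.mpr hx), hn]
        rfl
      rw [← hinv x y s]
      exact ih _ _ hc
  intro s t
  exact key _ s t rfl

private theorem joh_sum_comm {k : ℕ} (a b : Φ) (X : Joh Φ k) (g : Joh Φ k → ℝ) :
    ∑ j, ∑ j', g (jsw j j' (jsw a b X)) = ∑ j, ∑ j', g (jsw a b (jsw j j' X)) := by
  rw [← Equiv.sum_comp (Equiv.swap a b)]
  refine Finset.sum_congr rfl fun j _ => ?_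
  rw [← Equiv.sum_comp (Equiv.swap a b)]
  refine Finset.sum_congr rfl fun j' _ => ?_
  rw [joh_jsw_conj a b j j' X]

/-- the generator of the exchange dynamics -/
private noncomputable def johL (Φ : Type*) [Fintype Φ] [DecidableEq Φ] (k : ℕ) :
    (Joh Φ k → ℝ) →ₗ[ℝ] (Joh Φ k → ℝ) where
  toFun g := fun X => ∑ j, ∑ j', (g X - g (jsw j j' X))
  map_add' g h := by
    funext X
    simp only [Pi.add_apply, ← Finset.sum_add_distrib]
    refine Finset.sum_congr rfl fun j _ => Finset.sum_congr rfl fun j' _ => ?_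
    ring
  map_smul' a g := by
    funext X
    simp only [Pi.smul_apply, smul_eq_mul, RingHom.id_apply, Finset.mul_sum]
    refine Finset.sum_congr rfl fun j _ => Finset.sum_congr rfl fun j' _ => ?_
    ring

private theorem johL_apply {k : ℕ} (g : Joh Φ k → ℝ) (X : Joh Φ k) :
    johL Φ k g X = ∑ j, ∑ j', (g X - g (jsw j j' X)) := rfl

private theorem johL_isSymm {k : ℕ} : IsSymm (johL Φ k) := by
  intro f g
  simp only [johL_apply, Finset.mul_sum, Finset.sum_mul]
  rw [Finset.sum_comm]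
  conv_rhs => rw [Finset.sum_comm]
  refine Finset.sum_congr rfl fun j _ => ?_
  rw [Finset.sum_comm]
  conv_rhs => rw [Finset.sum_comm]
  refine Finset.sum_congr rfl fun j' _ => ?_
  have h1 : ∑ X, f X * g (jsw j j' X) = ∑ X, f (jsw j j' X) * g X := by
    rw [← joh_sum_jsw j j' (fun X => f X * g (jsw j j' X))]
    simp only [joh_jsw_invol]
  simp only [mul_sub, sub_mul, Finset.sum_sub_distrib]
  rw [h1]

private theorem joh_dirichlet {k : ℕ} (f : Joh Φ k → ℝ) :
    ∑ j, ∑ j', ∑ X, (f X - f (jsw j j' X)) ^ 2 = 2 * ∑ X, f X * johL Φ k f X := by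
  simp only [johL_apply, Finset.mul_sum]
  conv_rhs => rw [Finset.sum_comm]
  refine Finset.sum_congr rfl fun j _ => ?_
  conv_rhs => rw [Finset.sum_comm]
  refine Finset.sum_congr rfl fun j' _ => ?_
  have h1 : ∑ X, f (jsw j j' X) ^ 2 = ∑ X, f X ^ 2 := joh_sum_jsw j j' (fun X => f X ^ 2)
  have h2 : ∑ X, (f X - f (jsw j j' X)) ^ 2
      = ∑ X, f X ^ 2 + ∑ X, f (jsw j j' X) ^ 2 - 2 * ∑ X, f X * f (jsw j j' X) := by
    rw [Finset.mul_sum, ← Finset.sum_add_distrib, ← Finset.sum_sub_distrib]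
    exact Finset.sum_congr rfl fun X _ => by ring
  have h3 : ∑ X, 2 * (f X * (f X - f (jsw j j' X)))
      = 2 * ∑ X, f X ^ 2 - 2 * ∑ X, f X * f (jsw j j' X) := by
    rw [Finset.mul_sum, Finset.mul_sum, ← Finset.sum_sub_distrib]
    exact Finset.sum_congr rfl fun X _ => by ring
  rw [h2, h3, h1]; ring

private theorem joh_ker {k : ℕ} (h : Joh Φ k → ℝ) (hh : johL Φ k h = 0) :
    ∀ a b X, h (jsw a b X) = h X := by
  intro a b X
  have h0 : ∑ j, ∑ j', ∑ X, (h X - h (jsw j j' X)) ^ 2 = 0 := by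
    rw [joh_dirichlet, hh]; simp
  have h1 := (Finset.sum_eq_zero_iff_of_nonneg (fun j _ => Finset.sum_nonneg (fun j' _ =>
    Finset.sum_nonneg (fun X _ => sq_nonneg (h X - h (jsw j j' X)))))).mp h0 a (mem_univ _)
  have h2 := (Finset.sum_eq_zero_iff_of_nonneg (fun j' _ =>
    Finset.sum_nonneg (fun X _ => sq_nonneg (h X - h (jsw a j' X))))).mp h1 b (mem_univ _)
  have h3 := (Finset.sum_eq_zero_iff_of_nonneg
    (fun X _ => sq_nonneg (h X - h (jsw a b X)))).mp h2 X (mem_univ _)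
  have := pow_eq_zero_iff (two_ne_zero) |>.mp h3
  linarith

private theorem joh_eigen {k : ℕ} (μ : ℝ) (v : Joh Φ k → ℝ) (hv : v ≠ 0)
    (hLv : johL Φ k v = μ • v) : μ = 0 ∨ 4 ≤ μ := by
  by_cases hinv : ∀ a b X, v (jsw a b X) = v X
  · left
    have hL0 : johL Φ k v = 0 := by
      funext X
      rw [johL_apply]
      simp [hinv]
    rw [hL0] at hLv
    rcases smul_eq_zero.mp hLv.symm with h | h
    · exact h
    · exact absurd h hv
  · right
    push Not at hinv
    obtain ⟨a0, b0, X0, h0⟩ := hinv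
    set φ : Joh Φ k × Φ × Φ → ℝ := fun p => v p.1 - v (jsw p.2.1 p.2.2 p.1) with hφ
    obtain ⟨⟨X, a, b⟩, -, hmax⟩ := Finset.exists_max_image (univ : Finset (Joh Φ k × Φ × Φ)) φ
      ⟨(X0, a0, b0), mem_univ _⟩
    set M : ℝ := v X - v (jsw a b X) with hM
    have hmax' : ∀ Y a' b', v Y - v (jsw a' b' Y) ≤ M := fun Y a' b' =>
      hmax (Y, a', b') (mem_univ _)
    have hMpos : 0 < M := by
      rcases lt_or_gt_of_ne h0 with h | h
      · have := hmax' X0 a0 b0
        linarith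
      · have := hmax' (jsw a0 b0 X0) a0 b0
        rw [joh_jsw_invol] at this
        linarith
    have hab : a ≠ b := by
      intro e
      rw [hM, e, joh_jsw_self] at hMpos
      simp at hMpos
    have e1 : μ * M = johL Φ k v X - johL Φ k v (jsw a b X) := by
      rw [hLv]; simp only [Pi.smul_apply, smul_eq_mul, hM]; ring
    set T : Φ → Φ → ℝ := fun j j' =>
      M - (v (jsw j j' X) - v (jsw a b (jsw j j' X))) with hT
    have e2 : johL Φ k v X - johL Φ k v (jsw a b X) = ∑ j, ∑ j', T j j' := by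
      rw [johL_apply, johL_apply]
      simp only [hT, Finset.sum_sub_distrib]
      rw [joh_sum_comm a b X v]
      simp only [hM, Finset.sum_sub_distrib, Finset.sum_const]
      ring
    have hTnn : ∀ j j', 0 ≤ T j j' := by
      intro j j'
      have := hmax' (jsw j j' X) a b
      simp only [hT]; linarith
    have hT1 : T a b = 2 * M := by
      simp only [hT, joh_jsw_invol, hM]; ring
    have hT2 : T b a = 2 * M := by
      simp only [hT]
      rw [joh_jsw_comm b a X, joh_jsw_invol]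
      simp only [hM]; ring
    have hS : T a b + T b a ≤ ∑ j, ∑ j', T j j' := by
      have s1 : T a b ≤ ∑ j', T a j' :=
        Finset.single_le_sum (fun j' _ => hTnn a j') (mem_univ b)
      have s2 : T b a ≤ ∑ j', T b j' :=
        Finset.single_le_sum (fun j' _ => hTnn b j') (mem_univ a)
      have s3 : ∑ j ∈ ({a, b} : Finset Φ), ∑ j', T j j' ≤ ∑ j, ∑ j', T j j' :=
        Finset.sum_le_sum_of_subset_of_nonneg (Finset.subset_univ _)
          (fun j _ _ => Finset.sum_nonneg fun j' _ => hTnn j j')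
      rw [Finset.sum_pair hab] at s3
      linarith
    have : 4 * M ≤ μ * M := by
      rw [e1, e2]; linarith
    exact le_of_mul_le_mul_right this hMpos

/-- Poincare inequality (constant far from optimal, enough here) -/
theorem joh_poincare (k : ℕ) (f : Joh Φ k → ℝ) :
    8 * ∑ s, (f s - (∑ t, f t) / (Fintype.card (Joh Φ k) : ℝ)) ^ 2
      ≤ ∑ x, ∑ y, ∑ s, (f s - f (jsw x y s)) ^ 2 := by
  set m : ℝ := (∑ t, f t) / (Fintype.card (Joh Φ k) : ℝ) with hm
  set g : Joh Φ k → ℝ := fun s => f s - m with hgdef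
  have hg : ∑ s, g s = 0 := by
    simp only [hgdef, Finset.sum_sub_distrib, Finset.sum_const, Finset.card_univ, nsmul_eq_mul]
    by_cases hN : (Fintype.card (Joh Φ k) : ℝ) = 0
    · have h0 : Fintype.card (Joh Φ k) = 0 := by exact_mod_cast hN
      have : IsEmpty (Joh Φ k) := Fintype.card_eq_zero_iff.mp h0
      simp
    · rw [hm]; field_simp; ring
  have hR : ∑ x, ∑ y, ∑ s, (f s - f (jsw x y s)) ^ 2 = 2 * ∑ X, g X * johL Φ k g X := by
    rw [← joh_dirichlet]
    refine Finset.sum_congr rfl fun x _ => Finset.sum_congr rfl fun y _ =>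
      Finset.sum_congr rfl fun s _ => ?_
    simp only [hgdef]; ring
  have hker : ∀ h : Joh Φ k → ℝ, johL Φ k h = 0 → ∑ X, g X * h X = 0 := by
    intro h hh
    have hc := joh_connected h (joh_ker h hh)
    rcases isEmpty_or_nonempty (Joh Φ k) with he | ⟨⟨s0⟩⟩
    · simp
    · have : ∑ X, g X * h X = (∑ X, g X) * h s0 := by
        rw [Finset.sum_mul]
        exact Finset.sum_congr rfl fun X _ => by rw [hc X s0]
      rw [this, hg, zero_mul]
  have h4 := form_ge_of_eigen (johL Φ k) johL_isSymm 4 joh_eigen g hker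
  have hL : ∑ s, (f s - m) ^ 2 = ∑ X, g X * g X :=
    Finset.sum_congr rfl fun s _ => by simp only [hgdef]; ring
  rw [hR, hL]
  linarith

end Vale.Agent.Lib.P335
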