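import Vale.Agent.Lib.P335.G.GBasic
import Vale.Agent.Lib.P335.G.Johnson
import Vale.Agent.Lib.P335.G.GTRe

/-! Module GTR: the two-row inequalities for graphs (transport from the Johnson scheme). -/

namespace Vale.Agent.Lib.P335

open Finset

variable {V : Type*} [Fintype V] [DecidableEq V] {d : V → ℕ}

private theorem gtr_filter_univ {u v : V} (huv : u ≠ v) (A0 : Gr d) :
    univ.filter (fun s => skey (star {u, v}) ((gtrEq huv A0).symm s).1
      = skey (star {u, v}) A0) = univ := by
  ext s
  simp only [mem_filter, mem_univ, true_and, iff_true]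
  exact ((gtrEq huv A0).symm s).2

private theorem gtr_sum_rotate {α β γ : Type*} [Fintype α] [Fintype β] [Fintype γ]
    (F : α → β → γ → ℝ) : ∑ x, ∑ y, ∑ s, F x y s = ∑ s, ∑ x, ∑ y, F x y s := by
  calc ∑ x, ∑ y, ∑ s, F x y s = ∑ x, ∑ s, ∑ y, F x y s :=
        Finset.sum_congr rfl (fun x _ => Finset.sum_comm)
    _ = ∑ s, ∑ x, ∑ y, F x y s := Finset.sum_comm

theorem gtwo (u v : V) (f : Gr d → ℝ) :
    8 * ∑ A, GQ d u v f A * GQ d u v f A
      ≤ ∑ A, ∑ x, ∑ y, (f A - f (sw (cross u v x y) A)) ^ 2 := by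
  by_cases huv : u = v
  · subst huv
    have h0 : ∀ A, GQ d u u f A = 0 := by
      intro A
      have : avgK (skey (star ({u} : Finset V))) f = f := by
        apply avgK_of_inv
        intro x y hxy
        rw [eq_of_skey_star_singleton hxy]
      simp [GQ, this]
    simp only [h0, mul_zero, Finset.sum_const_zero]
    positivity
  · rw [Finset.mul_sum]
    apply sum_le_sum_of_fibrewise (skey (star {u, v}))
    intro A0
    rw [gtr_transport huv A0 (fun A => skey (star {u, v}) A = skey (star {u, v}) A0)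
        (fun _ h => h),
      gtr_transport huv A0 (fun A => skey (star {u, v}) A = skey (star {u, v}) A0)
        (fun _ h => h), gtr_filter_univ huv A0]
    have hL : ∀ s, 8 * (GQ d u v f ((gtrEq huv A0).symm s).1 * GQ d u v f ((gtrEq huv A0).symm s).1)
        = 8 * (gtrG huv A0 f s - (∑ t, gtrG huv A0 f t)
          / (Fintype.card (Joh (gtrPhi u v A0) (gtrSet u v A0 A0).card) : ℝ)) ^ 2 := by
      intro s
      have : GQ d u v f ((gtrEq huv A0).symm s).1
          = gtrG huv A0 f s - (∑ t, gtrG huv A0 f t)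
          / (Fintype.card (Joh (gtrPhi u v A0) (gtrSet u v A0 A0).card) : ℝ) := by
        rw [← gtr_avg_star huv A0 f ((gtrEq huv A0).symm s)]
        simp [GQ, gtrG]
      rw [this]; ring
    have hR : ∀ s, ∑ x, ∑ y, (f ((gtrEq huv A0).symm s).1
          - f (sw (cross u v x y) ((gtrEq huv A0).symm s).1)) ^ 2
        = ∑ x : gtrPhi u v A0, ∑ y : gtrPhi u v A0,
          (gtrG huv A0 f s - gtrG huv A0 f (jsw x y s)) ^ 2 := by
      intro s
      rw [gtr_sum_restrict (gtrPhi u v A0)]
      · refine Finset.sum_congr rfl (fun x _ => Finset.sum_congr rfl (fun y _ => ?_))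
        unfold gtrG
        rw [gtr_symm_sw]
      · intro x y hxy
        have : sw (cross u v x y) ((gtrEq huv A0).symm s).1 = ((gtrEq huv A0).symm s).1 := by
          by_contra hne
          exact hxy (gtr_sw_ne_imp huv A0 _ x y hne)
        rw [this]; simp
    simp only [hL, hR]
    rw [← Finset.mul_sum]
    refine le_trans (joh_poincare _ (gtrG huv A0 f)) (le_of_eq ?_)
    exact gtr_sum_rotate _

theorem gtr (u v : V) (huv : u ≠ v) (f : Gr d → ℝ) :
    ∑ x, ∑ y, PiSq u v x y f ≤ ∑ x, ∑ y, SwSq u v x y f := by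
  unfold PiSq SwSq
  refine le_of_eq_of_le (gtr_sum_rotate _) (le_of_le_of_eq ?_ (gtr_sum_rotate _).symm)
  apply sum_le_sum_of_fibrewise (skey (star {u, v}))
  intro A0
  rw [gtr_transport huv A0 (fun A => skey (star {u, v}) A = skey (star {u, v}) A0)
      (fun _ h => h),
    gtr_transport huv A0 (fun A => skey (star {u, v}) A = skey (star {u, v}) A0)
      (fun _ h => h), gtr_filter_univ huv A0]
  have hsw : ∀ s x y, ¬ (x ∈ gtrPhi u v A0 ∧ y ∈ gtrPhi u v A0) →
      sw (cross u v x y) ((gtrEq huv A0).symm s).1 = ((gtrEq huv A0).symm s).1 := by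
    intro s x y hxy
    by_contra hne
    exact hxy (gtr_sw_ne_imp huv A0 _ x y hne)
  have hL : ∀ s, ∑ x, ∑ y, (if sw (cross u v x y) ((gtrEq huv A0).symm s).1
          ≠ ((gtrEq huv A0).symm s).1 then
        avgK (skey (star {u, v} \ cross u v x y)) (avgK (skey (cross u v x y)) f)
            ((gtrEq huv A0).symm s).1
          - avgK (skey (star {u, v})) f ((gtrEq huv A0).symm s).1
      else 0) ^ 2
      = ∑ x : gtrPhi u v A0, ∑ y : gtrPhi u v A0, (if jsw x y s ≠ s then
        (∑ t ∈ univ.filter (fun t => jsw x y t ≠ t), gtrG huv A0 f t)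
          / ((univ.filter (fun t : Joh (gtrPhi u v A0) (gtrSet u v A0 A0).card =>
            jsw x y t ≠ t)).card : ℝ)
        - (∑ t, gtrG huv A0 f t)
          / (Fintype.card (Joh (gtrPhi u v A0) (gtrSet u v A0 A0).card) : ℝ)
      else 0) ^ 2 := by
    intro s
    rw [gtr_sum_restrict (gtrPhi u v A0)]
    · refine Finset.sum_congr rfl (fun x _ => Finset.sum_congr rfl (fun y _ => ?_))
      by_cases hs : jsw x y s = s
      · rw [if_neg (by rw [not_not]; exact (gtr_sw_eq_iff huv A0 x y s).mpr hs),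
          if_neg (by rw [not_not]; exact hs)]
      · rw [if_pos (fun h => hs ((gtr_sw_eq_iff huv A0 x y s).mp h)), if_pos hs,
          gtr_avg_cross huv A0 f x y s hs, gtr_avg_star huv A0 f]
    · intro x y hxy
      rw [if_neg (by rw [not_not]; exact hsw s x y hxy)]
      simp
  have hR : ∀ s, ∑ x, ∑ y, ((f ((gtrEq huv A0).symm s).1
        - f (sw (cross u v x y) ((gtrEq huv A0).symm s).1)) / 2) ^ 2
      = ∑ x : gtrPhi u v A0, ∑ y : gtrPhi u v A0,
        ((gtrG huv A0 f s - gtrG huv A0 f (jsw x y s)) / 2) ^ 2 := by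
    intro s
    rw [gtr_sum_restrict (gtrPhi u v A0)]
    · refine Finset.sum_congr rfl (fun x _ => Finset.sum_congr rfl (fun y _ => ?_))
      unfold gtrG
      rw [gtr_symm_sw]
    · intro x y hxy
      rw [hsw s x y hxy]; simp
  simp only [hL, hR]
  refine le_of_eq_of_le (gtr_sum_rotate _).symm (le_of_le_of_eq ?_ (gtr_sum_rotate _))
  simp only [gtr_sum_ite_sq]
  exact joh_tr _ (gtrG huv A0 f)

end Vale.Agent.Lib.P335
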