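import Vale.Agent.Lib.P335.G.GBasic
import Vale.Agent.Lib.P335.Core

/-! Module GTriple: the three-vertex inequality for graphs (transport from three-row tables). -/

namespace Vale.Agent.Lib.P335

open Finset

/-- transport of an average through a bijection between a saturated set and another space -/
theorem gt_avgK_transport {Ω Ω' K K' : Type*} [Fintype Ω] [Fintype Ω'] [DecidableEq K]
    [DecidableEq K'] (q : Ω → K) (q' : Ω' → K') (P : Ω → Prop) (θ : Ω → Ω') (θ' : Ω' → Ω)
    (hP : ∀ X, P (θ' X)) (h1 : ∀ A, P A → θ' (θ A) = A) (h2 : ∀ X, θ (θ' X) = X)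
    (hcl : ∀ A B, P A → q B = q A → P B)
    (hiff : ∀ A B, P A → P B → (q B = q A ↔ q' (θ B) = q' (θ A)))
    (f : Ω → ℝ) (A : Ω) (hA : P A) : avgK q f A = avgK q' (fun X => f (θ' X)) (θ A) := by
  unfold avgK
  have e1 : ∑ y ∈ univ.filter (fun y => q y = q A), f y
      = ∑ y ∈ univ.filter (fun y => q' y = q' (θ A)), f (θ' y) := by
    refine Finset.sum_nbij' θ θ' ?_ ?_ ?_ ?_ ?_
    · intro y hy
      simp only [mem_filter, mem_univ, true_and] at hy ⊢
      exact (hiff A y hA (hcl A y hA hy)).mp hy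
    · intro y hy
      simp only [mem_filter, mem_univ, true_and] at hy ⊢
      apply (hiff A (θ' y) hA (hP y)).mpr
      rw [h2]; exact hy
    · intro y hy
      simp only [mem_filter, mem_univ, true_and] at hy
      exact h1 y (hcl A y hA hy)
    · intro y _; exact h2 y
    · intro y hy
      simp only [mem_filter, mem_univ, true_and] at hy
      rw [h1 y (hcl A y hA hy)]
  have e2 : (univ.filter (fun y => q y = q A)).card
      = (univ.filter (fun y => q' y = q' (θ A))).card := by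
    refine Finset.card_nbij' θ θ' ?_ ?_ ?_ ?_
    · intro y hy
      simp only [coe_filter, mem_univ, true_and, Set.mem_ofPred_eq] at hy ⊢
      exact (hiff A y hA (hcl A y hA hy)).mp hy
    · intro y hy
      simp only [coe_filter, mem_univ, true_and, Set.mem_ofPred_eq] at hy ⊢
      apply (hiff A (θ' y) hA (hP y)).mpr
      rw [h2]; exact hy
    · intro y hy
      simp only [coe_filter, mem_univ, true_and, Set.mem_ofPred_eq] at hy
      exact h1 y (hcl A y hA hy)
    · intro y _; exact h2 y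
  rw [e1, e2]

variable {V : Type*} [Fintype V] [DecidableEq V] {d : V → ℕ}

/-- the degree as a sum of indicators -/
theorem gt_deg_sum (A : Finset (Sym2 V)) (v : V) :
    (A.filter (fun e => v ∈ e)).card = ∑ z, ind A s(v, z) := by
  have h1 : A.filter (fun e => v ∈ e) = (univ.filter (fun z => s(v, z) ∈ A)).image (fun z => s(v, z)) := by
    ext e
    simp only [mem_filter, mem_image, mem_univ, true_and]
    constructor
    · rintro ⟨he, hv⟩
      refine ⟨Sym2.Mem.other hv, ?_, Sym2.other_spec hv⟩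
      rw [Sym2.other_spec hv]; exact he
    · rintro ⟨z, hz, rfl⟩
      exact ⟨hz, Sym2.mem_mk_left v z⟩
  rw [h1, Finset.card_image_of_injective _ (fun a b hab => Sym2.congr_right.mp hab), Finset.card_filter]
  rfl


section triple

variable (k l m : V)

/-- the three vertices -/
def gtT : Finset V := {k, l, m}

/-- the site opposite to a vertex of the triple -/
def gtOpp (i : V) : Sym2 V := if i = k then s(l, m) else if i = l then s(k, m) else s(k, l)

/-- the table of a graph: rows `V`, columns `Option V`; `none` is the virtual column -/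
def gtX (A : Finset (Sym2 V)) (i : V) : Finset (Option V) :=
  if i ∈ gtT k l m then
    ((univ.filter (fun z => z ∉ gtT k l m ∧ s(i, z) ∈ A)).map Function.Embedding.some) ∪
      (if gtOpp k l m i ∈ A then ∅ else {none})
  else ∅

theorem gt_mem_some (A : Finset (Sym2 V)) (i z : V) :
    some z ∈ gtX k l m A i ↔ i ∈ gtT k l m ∧ z ∉ gtT k l m ∧ s(i, z) ∈ A := by
  unfold gtX
  by_cases hi : i ∈ gtT k l m
  · by_cases ho : gtOpp k l m i ∈ A <;> simp [hi, ho]
  · simp [hi]

theorem gt_mem_none (A : Finset (Sym2 V)) (i : V) :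
    none ∈ gtX k l m A i ↔ i ∈ gtT k l m ∧ gtOpp k l m i ∉ A := by
  unfold gtX
  by_cases hi : i ∈ gtT k l m
  · by_cases ho : gtOpp k l m i ∈ A <;> simp [hi, ho]
  · simp [hi]

variable {k l m}

theorem gt_split (hkl : k ≠ l) (hkm : k ≠ m) (hlm : l ≠ m) (g : V → ℕ) :
    ∑ z, g z = g k + g l + g m + ∑ z, (if z ∈ gtT k l m then 0 else g z) := by
  have h1 : ∑ z, g z = ∑ z, ((if z ∈ gtT k l m then g z else 0) + (if z ∈ gtT k l m then 0 else g z)) := by
    refine Finset.sum_congr rfl (fun z _ => ?_)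
    split_ifs <;> simp
  rw [h1, Finset.sum_add_distrib, Finset.sum_ite_mem, Finset.univ_inter]
  congr 1
  unfold gtT
  rw [Finset.sum_insert (by simp [hkl, hkm]), Finset.sum_insert (by simp [hlm]), Finset.sum_singleton]
  ring

theorem gt_card_option (Y : Finset (Option V)) :
    Y.card = (if none ∈ Y then 1 else 0) + ∑ z, (if some z ∈ Y then 1 else 0) := by
  have : Y.card = (univ.filter (fun o => o ∈ Y)).card := by simp
  rw [this, Finset.card_filter, Fintype.sum_option]


/-- number of neighbours of `i` outside the triple -/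
def gtO (k l m : V) (A : Finset (Sym2 V)) (i : V) : ℕ :=
  ∑ z, (if z ∈ gtT k l m then 0 else ind A s(i, z))

theorem gt_deg (hkl : k ≠ l) (hkm : k ≠ m) (hlm : l ≠ m) {A : Finset (Sym2 V)} (hA : IsGr d A)
    (v : V) : d v = ind A s(v, k) + ind A s(v, l) + ind A s(v, m) + gtO k l m A v := by
  rw [← hA.2 v, gt_deg_sum, gt_split hkl hkm hlm]
  rfl

theorem gt_ind_diag {A : Finset (Sym2 V)} (hA : IsGr d A) (v : V) : ind A s(v, v) = 0 := by
  rw [ind_eq_zero]
  intro h
  exact hA.1 _ h (by simp)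

theorem gt_memT : k ∈ gtT k l m ∧ l ∈ gtT k l m ∧ m ∈ gtT k l m := by
  simp [gtT]

theorem gt_row_card (A : Finset (Sym2 V)) {i : V} (hi : i ∈ gtT k l m) :
    (gtX k l m A i).card = (1 - ind A (gtOpp k l m i)) + gtO k l m A i := by
  rw [gt_card_option]
  congr 1
  · simp only [gt_mem_none]
    unfold ind
    by_cases h : gtOpp k l m i ∈ A <;> simp [h, hi]
  · unfold gtO
    refine Finset.sum_congr rfl (fun z _ => ?_)
    simp only [gt_mem_some]
    unfold ind
    by_cases hz : z ∈ gtT k l m <;> simp [hz, hi]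

theorem gt_row_empty (A : Finset (Sym2 V)) {i : V} (hi : i ∉ gtT k l m) : gtX k l m A i = ∅ := by
  simp [gtX, hi]

theorem gt_col_card (hkl : k ≠ l) (hkm : k ≠ m) (hlm : l ≠ m) (X : V → Finset (Option V))
    (hX : ∀ i, i ∉ gtT k l m → X i = ∅) (o : Option V) :
    (univ.filter (fun i => o ∈ X i)).card
      = (if o ∈ X k then 1 else 0) + (if o ∈ X l then 1 else 0) + (if o ∈ X m then 1 else 0) := by
  rw [Finset.card_filter, gt_split hkl hkm hlm]
  have : ∑ z, (if z ∈ gtT k l m then 0 else (if o ∈ X z then 1 else 0)) = 0 := by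
    apply Finset.sum_eq_zero
    intro z _
    by_cases hz : z ∈ gtT k l m
    · simp [hz]
    · simp [hz, hX z hz]
  rw [this]; simp

theorem gt_opp (hkl : k ≠ l) (hkm : k ≠ m) (hlm : l ≠ m) :
    gtOpp k l m k = s(l, m) ∧ gtOpp k l m l = s(k, m) ∧ gtOpp k l m m = s(k, l) := by
  refine ⟨by simp [gtOpp], by simp [gtOpp, hkl.symm], by simp [gtOpp, hkm.symm, hlm.symm]⟩

theorem gt_not_star {x y : V} (hx : x ∉ gtT k l m) (hy : y ∉ gtT k l m) :
    s(x, y) ∉ star (gtT k l m) := by
  unfold star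
  simp only [mem_filter, mem_univ, true_and, not_exists, not_and, Sym2.mem_iff]
  rintro v hv (rfl | rfl)
  · exact hx hv
  · exact hy hv

/-- the invariants of a class -/
theorem gt_invariants (hkl : k ≠ l) (hkm : k ≠ m) (hlm : l ≠ m) {A B : Gr d}
    (h : skey (star (gtT k l m)) A = skey (star (gtT k l m)) B) :
    (∀ z, z ∉ gtT k l m → ind A.1 s(k, z) + ind A.1 s(l, z) + ind A.1 s(m, z)
      = ind B.1 s(k, z) + ind B.1 s(l, z) + ind B.1 s(m, z)) ∧
    ind A.1 s(l, m) + ind A.1 s(k, m) + ind A.1 s(k, l)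
      = ind B.1 s(l, m) + ind B.1 s(k, m) + ind B.1 s(k, l) := by
  have h0 := skey_eq_iff.mp h
  have h1 : ∀ z, z ∉ gtT k l m → gtO k l m A.1 z = gtO k l m B.1 z := by
    intro z hz
    unfold gtO
    refine Finset.sum_congr rfl (fun z' _ => ?_)
    by_cases hz' : z' ∈ gtT k l m
    · simp [hz']
    · simp only [hz', if_false]
      exact ind_eq_iff.mpr (h0 _ (gt_not_star hz hz'))
  have h2 : ∀ z, z ∉ gtT k l m → ind A.1 s(k, z) + ind A.1 s(l, z) + ind A.1 s(m, z)
      = ind B.1 s(k, z) + ind B.1 s(l, z) + ind B.1 s(m, z) := by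
    intro z hz
    have a1 := gt_deg hkl hkm hlm A.2 z
    have a2 := gt_deg hkl hkm hlm B.2 z
    rw [h1 z hz] at a1
    rw [Sym2.eq_swap (a := k), Sym2.eq_swap (a := l), Sym2.eq_swap (a := m)]
    omega
  refine ⟨h2, ?_⟩
  have h3 : ∀ C : Finset (Sym2 V), gtO k l m C k + gtO k l m C l + gtO k l m C m
      = ∑ z, (if z ∈ gtT k l m then 0 else ind C s(k, z) + ind C s(l, z) + ind C s(m, z)) := by
    intro C
    unfold gtO
    rw [← Finset.sum_add_distrib, ← Finset.sum_add_distrib]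
    refine Finset.sum_congr rfl (fun z _ => ?_)
    split_ifs <;> simp
  have h4 : gtO k l m A.1 k + gtO k l m A.1 l + gtO k l m A.1 m
      = gtO k l m B.1 k + gtO k l m B.1 l + gtO k l m B.1 m := by
    rw [h3, h3]
    refine Finset.sum_congr rfl (fun z _ => ?_)
    by_cases hz : z ∈ gtT k l m
    · simp [hz]
    · simp only [hz, if_false]; exact h2 z hz
  have ak := gt_deg hkl hkm hlm A.2 k
  have al := gt_deg hkl hkm hlm A.2 l
  have am := gt_deg hkl hkm hlm A.2 m
  have bk := gt_deg hkl hkm hlm B.2 k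
  have bl := gt_deg hkl hkm hlm B.2 l
  have bm := gt_deg hkl hkm hlm B.2 m
  rw [gt_ind_diag A.2] at ak al am
  rw [gt_ind_diag B.2] at bk bl bm
  rw [Sym2.eq_swap (a := l) (b := k)] at al bl
  rw [Sym2.eq_swap (a := m) (b := k), Sym2.eq_swap (a := m) (b := l)] at am bm
  omega


/-- row sums read off from `A0` -/
def gtR (k l m : V) (A0 : Finset (Sym2 V)) (i : V) : ℕ := (gtX k l m A0 i).card

/-- column sums read off from `A0` -/
def gtC (k l m : V) (A0 : Finset (Sym2 V)) (o : Option V) : ℕ :=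
  (univ.filter (fun i => o ∈ gtX k l m A0 i)).card

theorem gt_col_some (hkl : k ≠ l) (hkm : k ≠ m) (hlm : l ≠ m) (A : Finset (Sym2 V)) (z : V) :
    (univ.filter (fun i => some z ∈ gtX k l m A i)).card
      = if z ∈ gtT k l m then 0 else ind A s(k, z) + ind A s(l, z) + ind A s(m, z) := by
  rw [gt_col_card hkl hkm hlm _ (fun i hi => gt_row_empty A hi)]
  simp only [gt_mem_some]
  obtain ⟨h1, h2, h3⟩ := gt_memT (k := k) (l := l) (m := m)
  unfold ind
  by_cases hz : z ∈ gtT k l m <;> simp [hz, h1, h2, h3]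

theorem gt_col_none (hkl : k ≠ l) (hkm : k ≠ m) (hlm : l ≠ m) (A : Finset (Sym2 V)) :
    (univ.filter (fun i => none ∈ gtX k l m A i)).card
      = (1 - ind A s(l, m)) + (1 - ind A s(k, m)) + (1 - ind A s(k, l)) := by
  rw [gt_col_card hkl hkm hlm _ (fun i hi => gt_row_empty A hi)]
  simp only [gt_mem_none]
  obtain ⟨h1, h2, h3⟩ := gt_memT (k := k) (l := l) (m := m)
  obtain ⟨o1, o2, o3⟩ := gt_opp hkl hkm hlm
  rw [o1, o2, o3]
  unfold ind
  by_cases a1 : s(l, m) ∈ A <;> by_cases a2 : s(k, m) ∈ A <;> by_cases a3 : s(k, l) ∈ A <;>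
    simp [a1, a2, a3, h1, h2, h3]

theorem gt_isTab (hkl : k ≠ l) (hkm : k ≠ m) (hlm : l ≠ m) {A0 A : Gr d}
    (h : skey (star (gtT k l m)) A = skey (star (gtT k l m)) A0) :
    IsTab (gtR k l m A0.1) (gtC k l m A0.1) (gtX k l m A.1) := by
  obtain ⟨i1, i2⟩ := gt_invariants hkl hkm hlm h
  obtain ⟨o1, o2, o3⟩ := gt_opp hkl hkm hlm
  have ak := gt_deg hkl hkm hlm A.2 k
  have al := gt_deg hkl hkm hlm A.2 l
  have am := gt_deg hkl hkm hlm A.2 m
  have bk := gt_deg hkl hkm hlm A0.2 k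
  have bl := gt_deg hkl hkm hlm A0.2 l
  have bm := gt_deg hkl hkm hlm A0.2 m
  rw [gt_ind_diag A.2] at ak al am
  rw [gt_ind_diag A0.2] at bk bl bm
  rw [Sym2.eq_swap (a := l) (b := k)] at al bl
  rw [Sym2.eq_swap (a := m) (b := k), Sym2.eq_swap (a := m) (b := l)] at am bm
  have u1 := ind_le_one A.1 s(l, m)
  have u2 := ind_le_one A.1 s(k, m)
  have u3 := ind_le_one A.1 s(k, l)
  have v1 := ind_le_one A0.1 s(l, m)
  have v2 := ind_le_one A0.1 s(k, m)
  have v3 := ind_le_one A0.1 s(k, l)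
  constructor
  · intro i
    unfold gtR
    by_cases hi : i ∈ gtT k l m
    · rw [gt_row_card _ hi, gt_row_card _ hi]
      have : i = k ∨ i = l ∨ i = m := by simpa [gtT] using hi
      rcases this with rfl | rfl | rfl
      · rw [o1]; omega
      · rw [o2]; omega
      · rw [o3]; omega
    · rw [gt_row_empty _ hi, gt_row_empty _ hi]
  · intro o
    unfold gtC
    cases o with
    | none => rw [gt_col_none hkl hkm hlm, gt_col_none hkl hkm hlm]; omega
    | some z =>
      rw [gt_col_some hkl hkm hlm, gt_col_some hkl hkm hlm]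
      by_cases hz : z ∈ gtT k l m
      · simp [hz]
      · simp only [hz, if_false]; exact i1 z hz


/-- adjacency relation of the graph of a table -/
def gtRel (k l m : V) (A0 : Finset (Sym2 V)) (X : V → Finset (Option V)) (x y : V) : Prop :=
  if x ∈ gtT k l m then
    (if y ∈ gtT k l m then (∃ i ∈ gtT k l m, gtOpp k l m i = s(x, y) ∧ none ∉ X i) else some y ∈ X x)
  else (if y ∈ gtT k l m then some x ∈ X y else s(x, y) ∈ A0)

theorem gtRel_symm (k l m : V) (A0 : Finset (Sym2 V)) (X : V → Finset (Option V)) :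
    Std.Symm (gtRel k l m A0 X) := by
  constructor
  intro x y h
  unfold gtRel at h ⊢
  by_cases hx : x ∈ gtT k l m <;> by_cases hy : y ∈ gtT k l m <;> simp only [hx, hy, if_true, if_false] at h ⊢
  · rw [Sym2.eq_swap]; exact h
  · exact h
  · exact h
  · rw [Sym2.eq_swap]; exact h

open Classical in
/-- the graph of a table -/
noncomputable def gtG (k l m : V) (A0 : Finset (Sym2 V)) (X : V → Finset (Option V)) :
    Finset (Sym2 V) :=
  univ.filter (fun e => e ∈ Sym2.fromRel (gtRel_symm k l m A0 X))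

theorem gt_mem_G (A0 : Finset (Sym2 V)) (X : V → Finset (Option V)) (x y : V) :
    s(x, y) ∈ gtG k l m A0 X ↔ gtRel k l m A0 X x y := by
  unfold gtG
  simp

theorem gt_G_out (A0 : Finset (Sym2 V)) (X : V → Finset (Option V)) {x y : V}
    (hx : x ∉ gtT k l m) (hy : y ∉ gtT k l m) : s(x, y) ∈ gtG k l m A0 X ↔ s(x, y) ∈ A0 := by
  rw [gt_mem_G]; simp [gtRel, hx, hy]

theorem gt_G_mixed (A0 : Finset (Sym2 V)) (X : V → Finset (Option V)) {x y : V}
    (hx : x ∈ gtT k l m) (hy : y ∉ gtT k l m) : s(x, y) ∈ gtG k l m A0 X ↔ some y ∈ X x := by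
  rw [gt_mem_G]; simp [gtRel, hx, hy]

theorem gt_G_inner (hkl : k ≠ l) (hkm : k ≠ m) (hlm : l ≠ m) (A0 : Finset (Sym2 V))
    (X : V → Finset (Option V)) :
    (s(l, m) ∈ gtG k l m A0 X ↔ none ∉ X k) ∧ (s(k, m) ∈ gtG k l m A0 X ↔ none ∉ X l) ∧
    (s(k, l) ∈ gtG k l m A0 X ↔ none ∉ X m) ∧
    (∀ v, s(v, v) ∈ gtG k l m A0 X → s(v, v) ∈ A0) := by
  obtain ⟨h1, h2, h3⟩ := gt_memT (k := k) (l := l) (m := m)
  obtain ⟨o1, o2, o3⟩ := gt_opp hkl hkm hlm
  have ex : ∀ P : V → Prop, (∃ i ∈ gtT k l m, P i) ↔ (P k ∨ P l ∨ P m) := by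
    intro P; simp [gtT]
  refine ⟨?_, ?_, ?_, ?_⟩
  · rw [gt_mem_G]
    simp only [gtRel, h2, h3, if_true, ex, o1, o2, o3]
    simp [hkl, hkm, hlm, hlm.symm]
  · rw [gt_mem_G]
    simp only [gtRel, h1, h3, if_true, ex, o1, o2, o3]
    simp [hkm, hlm, hkl.symm, hkm.symm]
  · rw [gt_mem_G]
    simp only [gtRel, h1, h2, if_true, ex, o1, o2, o3]
    simp [hkl, hkl.symm, hkm.symm, hlm.symm]
  · intro v hv
    rw [gt_mem_G] at hv
    by_cases hvT : v ∈ gtT k l m
    · simp only [gtRel, hvT, if_true, ex, o1, o2, o3] at hv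
      exfalso
      rcases hv with ⟨h, -⟩ | ⟨h, -⟩ | ⟨h, -⟩
      · rw [Sym2.eq_iff] at h
        rcases h with ⟨rfl, h⟩ | ⟨rfl, h⟩ <;> exact hlm (by rw [h])
      · rw [Sym2.eq_iff] at h
        rcases h with ⟨rfl, h⟩ | ⟨rfl, h⟩ <;> exact hkm (by rw [h])
      · rw [Sym2.eq_iff] at h
        rcases h with ⟨rfl, h⟩ | ⟨rfl, h⟩ <;> exact hkl (by rw [h])
    · simpa [gtRel, hvT] using hv


theorem gt_tab_empty {A0 : Finset (Sym2 V)} {X : V → Finset (Option V)}
    (hX : IsTab (gtR k l m A0) (gtC k l m A0) X) {i : V} (hi : i ∉ gtT k l m) : X i = ∅ := by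
  have := hX.1 i
  unfold gtR at this
  rw [gt_row_empty _ hi] at this
  simpa using this

theorem gt_tab_some (hkl : k ≠ l) (hkm : k ≠ m) (hlm : l ≠ m) {A0 : Finset (Sym2 V)}
    {X : V → Finset (Option V)}
    (hX : IsTab (gtR k l m A0) (gtC k l m A0) X) {z : V} (hz : z ∈ gtT k l m) (i : V) :
    some z ∉ X i := by
  have := hX.2 (some z)
  unfold gtC at this
  rw [gt_col_some hkl hkm hlm] at this
  simp only [hz, if_true, Finset.card_eq_zero] at this
  intro h
  have : i ∈ univ.filter (fun i => some z ∈ X i) := by simp [h]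
  simp_all

theorem gt_isGr (hkl : k ≠ l) (hkm : k ≠ m) (hlm : l ≠ m) (A0 : Gr d)
    {X : V → Finset (Option V)} (hX : IsTab (gtR k l m A0.1) (gtC k l m A0.1) X) :
    IsGr d (gtG k l m A0.1 X) := by
  obtain ⟨g1, g2, g3, g4⟩ := gt_G_inner hkl hkm hlm A0.1 X
  obtain ⟨t1, t2, t3⟩ := gt_memT (k := k) (l := l) (m := m)
  obtain ⟨o1, o2, o3⟩ := gt_opp hkl hkm hlm
  have hdiag : ∀ e ∈ gtG k l m A0.1 X, ¬ e.IsDiag := by
    intro e
    induction e using Sym2.ind with
    | _ x y =>
      intro he hd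
      have : x = y := by simpa using hd
      subst this
      exact A0.2.1 _ (g4 x he) (by simp)
  refine ⟨hdiag, ?_⟩
  -- numerical data
  have bk := gt_deg hkl hkm hlm A0.2 k
  have bl := gt_deg hkl hkm hlm A0.2 l
  have bm := gt_deg hkl hkm hlm A0.2 m
  rw [gt_ind_diag A0.2] at bk bl bm
  rw [Sym2.eq_swap (a := l) (b := k)] at bl
  rw [Sym2.eq_swap (a := m) (b := k), Sym2.eq_swap (a := m) (b := l)] at bm
  have v1 := ind_le_one A0.1 s(l, m)
  have v2 := ind_le_one A0.1 s(k, m)
  have v3 := ind_le_one A0.1 s(k, l)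
  have cn := hX.2 none
  unfold gtC at cn
  rw [gt_col_none hkl hkm hlm, gt_col_card hkl hkm hlm X (fun i hi => gt_tab_empty hX hi)] at cn
  have hrow : ∀ i, i ∈ gtT k l m → (if none ∈ X i then 1 else 0) + gtO k l m (gtG k l m A0.1 X) i
      = (1 - ind A0.1 (gtOpp k l m i)) + gtO k l m A0.1 i := by
    intro i hi
    have := hX.1 i
    unfold gtR at this
    rw [gt_row_card _ hi, gt_card_option] at this
    rw [← this]
    congr 1
    unfold gtO
    refine Finset.sum_congr rfl (fun z _ => ?_)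
    by_cases hz : z ∈ gtT k l m
    · simp [hz, gt_tab_some hkl hkm hlm hX hz i]
    · simp only [hz, if_false]
      unfold ind
      simp only [gt_G_mixed A0.1 X hi hz]
  have hdg : ∀ v, ind (gtG k l m A0.1 X) s(v, v) = 0 := by
    intro v
    rw [ind_eq_zero]
    intro h
    exact hdiag _ h (by simp)
  have e1 : ind (gtG k l m A0.1 X) s(l, m) = 1 - (if none ∈ X k then 1 else 0) := by
    unfold ind; simp only [g1]; by_cases h : none ∈ X k <;> simp [h]
  have e2 : ind (gtG k l m A0.1 X) s(k, m) = 1 - (if none ∈ X l then 1 else 0) := by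
    unfold ind; simp only [g2]; by_cases h : none ∈ X l <;> simp [h]
  have e3 : ind (gtG k l m A0.1 X) s(k, l) = 1 - (if none ∈ X m then 1 else 0) := by
    unfold ind; simp only [g3]; by_cases h : none ∈ X m <;> simp [h]
  have n1 : (if none ∈ X k then 1 else 0) ≤ 1 := by split_ifs <;> omega
  have n2 : (if none ∈ X l then 1 else 0) ≤ 1 := by split_ifs <;> omega
  have n3 : (if none ∈ X m then 1 else 0) ≤ 1 := by split_ifs <;> omega
  intro v
  rw [gt_deg_sum, gt_split hkl hkm hlm]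
  change _ + gtO k l m (gtG k l m A0.1 X) v = d v
  by_cases hv : v ∈ gtT k l m
  · have : v = k ∨ v = l ∨ v = m := by simpa [gtT] using hv
    rcases this with rfl | rfl | rfl
    · have r := hrow v hv
      rw [o1] at r
      rw [hdg, e3, e2]
      omega
    · have r := hrow v hv
      rw [o2] at r
      rw [hdg, Sym2.eq_swap (a := v) (b := k), e3, e1]
      omega
    · have r := hrow v hv
      rw [o3] at r
      rw [hdg, Sym2.eq_swap (a := v) (b := k), Sym2.eq_swap (a := v) (b := l), e2, e1]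
      omega
  · have bv := gt_deg hkl hkm hlm A0.2 v
    have cs := hX.2 (some v)
    unfold gtC at cs
    rw [gt_col_some hkl hkm hlm, gt_col_card hkl hkm hlm X (fun i hi => gt_tab_empty hX hi)] at cs
    simp only [hv, if_false] at cs
    have f1 : gtO k l m (gtG k l m A0.1 X) v = gtO k l m A0.1 v := by
      unfold gtO
      refine Finset.sum_congr rfl (fun z _ => ?_)
      by_cases hz : z ∈ gtT k l m
      · simp [hz]
      · simp only [hz, if_false]
        exact ind_eq_iff.mpr (gt_G_out A0.1 X hv hz)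
    have f2 : ∀ i, i ∈ gtT k l m → ind (gtG k l m A0.1 X) s(v, i) = if some v ∈ X i then 1 else 0 := by
      intro i hi
      rw [Sym2.eq_swap]
      unfold ind
      simp only [gt_G_mixed A0.1 X hi hv]
    rw [f1, f2 k t1, f2 l t2, f2 m t3, cs, bv, Sym2.eq_swap (a := k), Sym2.eq_swap (a := l),
      Sym2.eq_swap (a := m)]


theorem gt_star_iff (I : Finset V) (x y : V) : s(x, y) ∈ star I ↔ x ∈ I ∨ y ∈ I := by
  unfold star
  simp only [mem_filter, mem_univ, true_and, Sym2.mem_iff]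
  constructor
  · rintro ⟨v, hv, rfl | rfl⟩
    · exact Or.inl hv
    · exact Or.inr hv
  · rintro (h | h)
    · exact ⟨x, h, Or.inl rfl⟩
    · exact ⟨y, h, Or.inr rfl⟩

/-- the table of the graph of a table -/
theorem gt_X_G (hkl : k ≠ l) (hkm : k ≠ m) (hlm : l ≠ m) (A0 : Finset (Sym2 V))
    {X : V → Finset (Option V)} (hX : IsTab (gtR k l m A0) (gtC k l m A0) X) :
    gtX k l m (gtG k l m A0 X) = X := by
  obtain ⟨g1, g2, g3, -⟩ := gt_G_inner hkl hkm hlm A0 X
  obtain ⟨o1, o2, o3⟩ := gt_opp hkl hkm hlm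
  funext i
  by_cases hi : i ∈ gtT k l m
  · ext o
    cases o with
    | none =>
      rw [gt_mem_none]
      have : i = k ∨ i = l ∨ i = m := by simpa [gtT] using hi
      rcases this with rfl | rfl | rfl
      · rw [o1, g1]; simp [hi]
      · rw [o2, g2]; simp [hi]
      · rw [o3, g3]; simp [hi]
    | some z =>
      rw [gt_mem_some]
      by_cases hz : z ∈ gtT k l m
      · simp [hz, gt_tab_some hkl hkm hlm hX hz i]
      · rw [gt_G_mixed A0 X hi hz]; simp [hi, hz]
  · rw [gt_row_empty _ hi, gt_tab_empty hX hi]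

/-- the graph of the table of a graph -/
theorem gt_G_X (hkl : k ≠ l) (hkm : k ≠ m) (hlm : l ≠ m) {A0 A : Gr d}
    (h : skey (star (gtT k l m)) A = skey (star (gtT k l m)) A0) :
    gtG k l m A0.1 (gtX k l m A.1) = A.1 := by
  obtain ⟨g1, g2, g3, g4⟩ := gt_G_inner hkl hkm hlm A0.1 (gtX k l m A.1)
  obtain ⟨o1, o2, o3⟩ := gt_opp hkl hkm hlm
  obtain ⟨t1, t2, t3⟩ := gt_memT (k := k) (l := l) (m := m)
  have h0 := skey_eq_iff.mp h
  have i1 : s(l, m) ∈ gtG k l m A0.1 (gtX k l m A.1) ↔ s(l, m) ∈ A.1 := by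
    rw [g1, gt_mem_none, o1]; simp [t1]
  have i2 : s(k, m) ∈ gtG k l m A0.1 (gtX k l m A.1) ↔ s(k, m) ∈ A.1 := by
    rw [g2, gt_mem_none, o2]; simp [t2]
  have i3 : s(k, l) ∈ gtG k l m A0.1 (gtX k l m A.1) ↔ s(k, l) ∈ A.1 := by
    rw [g3, gt_mem_none, o3]; simp [t3]
  have dg : ∀ v, (s(v, v) ∈ gtG k l m A0.1 (gtX k l m A.1) ↔ s(v, v) ∈ A.1) := by
    intro v
    constructor
    · intro hv; exact absurd (g4 v hv) (fun h' => A0.2.1 _ h' (by simp))
    · intro hv; exact absurd hv (fun h' => A.2.1 _ h' (by simp))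
  ext e
  induction e using Sym2.ind with
  | _ x y =>
    by_cases hx : x ∈ gtT k l m <;> by_cases hy : y ∈ gtT k l m
    · have hx' : x = k ∨ x = l ∨ x = m := by simpa [gtT] using hx
      have hy' : y = k ∨ y = l ∨ y = m := by simpa [gtT] using hy
      rcases hx' with rfl | rfl | rfl <;> rcases hy' with rfl | rfl | rfl
      · exact dg _
      · exact i3
      · exact i2
      · rw [Sym2.eq_swap]; exact i3
      · exact dg _
      · exact i1
      · rw [Sym2.eq_swap]; exact i2
      · rw [Sym2.eq_swap]; exact i1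
      · exact dg _
    · rw [gt_G_mixed _ _ hx hy, gt_mem_some]; simp [hx, hy]
    · rw [Sym2.eq_swap, gt_G_mixed _ _ hy hx, gt_mem_some]; simp [hx, hy]
    · rw [gt_G_out _ _ hx hy]
      exact (h0 _ (gt_not_star hx hy)).symm

theorem gt_G_class (A0 : Gr d) {X : V → Finset (Option V)} (hG : IsGr d (gtG k l m A0.1 X)) :
    skey (star (gtT k l m)) (⟨_, hG⟩ : Gr d) = skey (star (gtT k l m)) A0 := by
  rw [skey_eq_iff]
  intro e
  induction e using Sym2.ind with
  | _ x y =>
    intro he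
    rw [gt_star_iff] at he
    have hx : x ∉ gtT k l m := fun h => he (Or.inl h)
    have hy : y ∉ gtT k l m := fun h => he (Or.inr h)
    exact gt_G_out _ _ hx hy

/-- agreeing outside the star of a pair means having the same third row -/
theorem gt_key_iff (hkl : k ≠ l) (hkm : k ≠ m) (hlm : l ≠ m) {A B : Gr d}
    (h : skey (star (gtT k l m)) A = skey (star (gtT k l m)) B) {x y w : V}
    (hT : gtT k l m = {x, y, w}) (hxw : x ≠ w) (hyw : y ≠ w) :
    skey (star {x, y}) A = skey (star {x, y}) B ↔ gtX k l m A.1 w = gtX k l m B.1 w := by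
  have hw : w ∈ gtT k l m := by rw [hT]; simp
  have h0 := skey_eq_iff.mp h
  constructor
  · intro h1
    have h2 := skey_eq_iff.mp h1
    have h3 : ∀ z, z ∉ gtT k l m → (s(w, z) ∈ A.1 ↔ s(w, z) ∈ B.1) := by
      intro z hz
      apply h2
      rw [gt_star_iff]
      have hz' : z ≠ x ∧ z ≠ y := by
        rw [hT] at hz
        simp only [mem_insert, mem_singleton, not_or] at hz
        exact ⟨hz.1, hz.2.1⟩
      simp [hxw.symm, hyw.symm, hz'.1, hz'.2]
    have hO : gtO k l m A.1 w = gtO k l m B.1 w := by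
      unfold gtO
      refine Finset.sum_congr rfl (fun z _ => ?_)
      by_cases hz : z ∈ gtT k l m
      · simp [hz]
      · simp only [hz, if_false]; exact ind_eq_iff.mpr (h3 z hz)
    have hopp : ind A.1 (gtOpp k l m w) = ind B.1 (gtOpp k l m w) := by
      obtain ⟨-, i2⟩ := gt_invariants hkl hkm hlm h
      obtain ⟨o1, o2, o3⟩ := gt_opp hkl hkm hlm
      have aw := gt_deg hkl hkm hlm A.2 w
      have bw := gt_deg hkl hkm hlm B.2 w
      have : w = k ∨ w = l ∨ w = m := by simpa [gtT] using hw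
      rcases this with rfl | rfl | rfl
      · rw [gt_ind_diag A.2] at aw
        rw [gt_ind_diag B.2] at bw
        rw [o1]; omega
      · rw [gt_ind_diag A.2, Sym2.eq_swap (a := w) (b := k)] at aw
        rw [gt_ind_diag B.2, Sym2.eq_swap (a := w) (b := k)] at bw
        rw [o2]; omega
      · rw [gt_ind_diag A.2, Sym2.eq_swap (a := w) (b := k), Sym2.eq_swap (a := w) (b := l)] at aw
        rw [gt_ind_diag B.2, Sym2.eq_swap (a := w) (b := k), Sym2.eq_swap (a := w) (b := l)] at bw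
        rw [o3]; omega
    ext o
    cases o with
    | none =>
      rw [gt_mem_none, gt_mem_none, ind_eq_iff.mp hopp]
    | some z =>
      rw [gt_mem_some, gt_mem_some]
      by_cases hz : z ∈ gtT k l m
      · simp [hz]
      · rw [h3 z hz]
  · intro h1
    rw [skey_eq_iff]
    intro e
    induction e using Sym2.ind with
    | _ p q =>
      intro he
      rw [gt_star_iff] at he
      have hp : p ≠ x ∧ p ≠ y := by
        constructor <;> (intro h'; apply he; left; simp [h'])
      have hq : q ≠ x ∧ q ≠ y := by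
        constructor <;> (intro h'; apply he; right; simp [h'])
      have mem_iff : ∀ v, v ≠ x → v ≠ y → (v ∈ gtT k l m ↔ v = w) := by
        intro v h1 h2
        rw [hT]; simp [h1, h2]
      have hrow : ∀ z, z ∉ gtT k l m → (s(w, z) ∈ A.1 ↔ s(w, z) ∈ B.1) := by
        intro z hz
        have e1 := gt_mem_some k l m A.1 w z
        have e2 := gt_mem_some k l m B.1 w z
        rw [h1] at e1
        have := e1.symm.trans e2
        simpa [hw, hz] using this
      by_cases hpT : p ∈ gtT k l m <;> by_cases hqT : q ∈ gtT k l m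
      · have e1 := (mem_iff p hp.1 hp.2).mp hpT
        have e2 := (mem_iff q hq.1 hq.2).mp hqT
        subst e1; subst e2
        constructor
        · intro hv; exact absurd hv (fun h' => A.2.1 _ h' (by simp))
        · intro hv; exact absurd hv (fun h' => B.2.1 _ h' (by simp))
      · have e1 := (mem_iff p hp.1 hp.2).mp hpT
        subst e1
        exact hrow q hqT
      · have e2 := (mem_iff q hq.1 hq.2).mp hqT
        subst e2
        rw [Sym2.eq_swap]
        exact hrow p hpT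
      · exact h0 _ (gt_not_star hpT hqT)

/-- two tables of the class agree outside a pair of rows iff their third rows agree -/
theorem gt_tabkey_iff {A0 : Finset (Sym2 V)}
    (X Y : Tab (gtR k l m A0) (gtC k l m A0)) {x y w : V}
    (hT : gtT k l m = {x, y, w}) (hxw : x ≠ w) (hyw : y ≠ w) :
    key {x, y} X = key {x, y} Y ↔ X.1 w = Y.1 w := by
  constructor
  · intro h
    have := congrFun h w
    unfold key at this
    have hw : w ∉ ({x, y} : Finset V) := by
      simp only [mem_insert, mem_singleton, not_or]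
      exact ⟨fun h => hxw h.symm, fun h => hyw h.symm⟩
    simpa [hw] using this
  · intro h
    funext i
    unfold key
    by_cases hi : i ∈ ({x, y} : Finset V)
    · simp [hi]
    · simp only [hi, if_false]
      by_cases hiw : i = w
      · rw [hiw]; exact h
      · have hiT : i ∉ gtT k l m := by
          rw [hT]
          simp only [mem_insert, mem_singleton, not_or] at hi ⊢
          exact ⟨hi.1, hi.2, hiw⟩
        rw [gt_tab_empty X.2 hiT, gt_tab_empty Y.2 hiT]

/-- from graphs to tables -/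
def gtTh (k l m : V) (A0 : Gr d) (h0 : IsTab (gtR k l m A0.1) (gtC k l m A0.1) (gtX k l m A0.1))
    (A : Gr d) : Tab (gtR k l m A0.1) (gtC k l m A0.1) :=
  if h : IsTab (gtR k l m A0.1) (gtC k l m A0.1) (gtX k l m A.1) then ⟨_, h⟩ else ⟨_, h0⟩

theorem gtTh_val (A0 : Gr d) (h0 : IsTab (gtR k l m A0.1) (gtC k l m A0.1) (gtX k l m A0.1))
    {A : Gr d} (h : IsTab (gtR k l m A0.1) (gtC k l m A0.1) (gtX k l m A.1)) :
    (gtTh k l m A0 h0 A).1 = gtX k l m A.1 := by
  unfold gtTh
  rw [dif_pos h]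

theorem gt_star_mono {I J : Finset V} (h : I ⊆ J) : star I ⊆ star J := by
  intro e he
  simp only [star, mem_filter, mem_univ, true_and] at he ⊢
  obtain ⟨v, hv, hve⟩ := he
  exact ⟨v, h hv, hve⟩

/-- from tables to graphs -/
noncomputable def gtTh' (hkl : k ≠ l) (hkm : k ≠ m) (hlm : l ≠ m) (A0 : Gr d)
    (X : Tab (gtR k l m A0.1) (gtC k l m A0.1)) : Gr d :=
  ⟨gtG k l m A0.1 X.1, gt_isGr hkl hkm hlm A0 X.2⟩

theorem gtTh'_val (hkl : k ≠ l) (hkm : k ≠ m) (hlm : l ≠ m) (A0 : Gr d)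
    (X : Tab (gtR k l m A0.1) (gtC k l m A0.1)) :
    (gtTh' hkl hkm hlm A0 X).1 = gtG k l m A0.1 X.1 := rfl

theorem gt_class (hkl : k ≠ l) (hkm : k ≠ m) (hlm : l ≠ m) (A0 : Gr d)
    (X : Tab (gtR k l m A0.1) (gtC k l m A0.1)) :
    skey (star (gtT k l m)) (gtTh' hkl hkm hlm A0 X) = skey (star (gtT k l m)) A0 :=
  gt_G_class A0 _

theorem gt_round (hkl : k ≠ l) (hkm : k ≠ m) (hlm : l ≠ m) (A0 : Gr d)
    (h0 : IsTab (gtR k l m A0.1) (gtC k l m A0.1) (gtX k l m A0.1)) (B : Gr d)
    (hB : skey (star (gtT k l m)) B = skey (star (gtT k l m)) A0) :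
    gtTh' hkl hkm hlm A0 (gtTh k l m A0 h0 B) = B := by
  apply Subtype.ext
  rw [gtTh'_val, gtTh_val A0 h0 (gt_isTab hkl hkm hlm hB)]
  exact gt_G_X hkl hkm hlm hB

theorem gt_round' (hkl : k ≠ l) (hkm : k ≠ m) (hlm : l ≠ m) (A0 : Gr d)
    (h0 : IsTab (gtR k l m A0.1) (gtC k l m A0.1) (gtX k l m A0.1))
    (X : Tab (gtR k l m A0.1) (gtC k l m A0.1)) :
    gtTh k l m A0 h0 (gtTh' hkl hkm hlm A0 X) = X := by
  apply Subtype.ext
  have hX : IsTab (gtR k l m A0.1) (gtC k l m A0.1)
      (gtX k l m (gtTh' hkl hkm hlm A0 X).1) := by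
    rw [gtTh'_val, gt_X_G hkl hkm hlm A0.1 X.2]; exact X.2
  rw [gtTh_val A0 h0 hX, gtTh'_val]
  exact gt_X_G hkl hkm hlm A0.1 X.2

theorem gt_iff (hkl : k ≠ l) (hkm : k ≠ m) (hlm : l ≠ m) (A0 : Gr d)
    (h0 : IsTab (gtR k l m A0.1) (gtC k l m A0.1) (gtX k l m A0.1))
    {x y w : V} (hT : gtT k l m = {x, y, w}) (hxw : x ≠ w) (hyw : y ≠ w) (B C : Gr d)
    (hB : skey (star (gtT k l m)) B = skey (star (gtT k l m)) A0)
    (hC : skey (star (gtT k l m)) C = skey (star (gtT k l m)) A0) :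
    skey (star {x, y}) C = skey (star {x, y}) B ↔
      key {x, y} (gtTh k l m A0 h0 C) = key {x, y} (gtTh k l m A0 h0 B) := by
  rw [gt_key_iff hkl hkm hlm (hC.trans hB.symm) hT hxw hyw,
    gt_tabkey_iff _ _ hT hxw hyw,
    gtTh_val A0 h0 (gt_isTab hkl hkm hlm hB), gtTh_val A0 h0 (gt_isTab hkl hkm hlm hC)]

/-- transport of `GQ` -/
theorem gt_GQ (hkl : k ≠ l) (hkm : k ≠ m) (hlm : l ≠ m) (A0 : Gr d)
    (h0 : IsTab (gtR k l m A0.1) (gtC k l m A0.1) (gtX k l m A0.1)) (f : Gr d → ℝ)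
    {x y w : V} (hT : gtT k l m = {x, y, w}) (hxw : x ≠ w) (hyw : y ≠ w) (A : Gr d)
    (hA : skey (star (gtT k l m)) A = skey (star (gtT k l m)) A0) :
    GQ d x y f A = QQ (gtR k l m A0.1) (gtC k l m A0.1) x y
      (fun X => f (gtTh' hkl hkm hlm A0 X)) (gtTh k l m A0 h0 A) := by
  have hsub : star ({x, y} : Finset V) ⊆ star (gtT k l m) := by
    apply gt_star_mono
    rw [hT]
    intro i hi
    simp only [mem_insert, mem_singleton] at hi ⊢
    tauto
  have key1 := gt_avgK_transport (skey (d := d) (star {x, y}))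
    (key (r := gtR k l m A0.1) (c := gtC k l m A0.1) {x, y})
    (fun B => skey (star (gtT k l m)) B = skey (star (gtT k l m)) A0)
    (gtTh k l m A0 h0)
    (gtTh' hkl hkm hlm A0)
    (gt_class hkl hkm hlm A0)
    (gt_round hkl hkm hlm A0 h0)
    (gt_round' hkl hkm hlm A0 h0)
    (fun B C hB hC => (skey_mono hsub hC).trans hB)
    (gt_iff hkl hkm hlm A0 h0 hT hxw hyw)
    f A hA
  have e1 : GQ d x y f A = f A - avgK (skey (star {x, y})) f A := rfl
  rw [QQ_apply, ← key1, gt_round hkl hkm hlm A0 h0 A hA, e1]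

end triple

theorem gtriple (k l m : V) (hkl : k ≠ l) (hkm : k ≠ m) (hlm : l ≠ m) (f : Gr d → ℝ) :
    0 ≤ ∑ A, (GQ d k l f A * GQ d k m f A + GQ d k l f A * GQ d l m f A
      + GQ d k m f A * GQ d l m f A) := by
  have hz : (0 : ℝ) = ∑ _A : Gr d, (0 : ℝ) := by simp
  rw [hz]
  refine sum_le_sum_of_fibrewise (skey (star (gtT k l m))) _ _ (fun A0 => ?_)
  rw [Finset.sum_const_zero]
  have h0 : IsTab (gtR k l m A0.1) (gtC k l m A0.1) (gtX k l m A0.1) :=
    gt_isTab hkl hkm hlm rfl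
  have T1 : gtT k l m = {k, l, m} := rfl
  have T2 : gtT k l m = {k, m, l} := by
    unfold gtT; ext i; simp only [mem_insert, mem_singleton]; tauto
  have T3 : gtT k l m = {l, m, k} := by
    unfold gtT; ext i; simp only [mem_insert, mem_singleton]; tauto
  have main := threerow (r := gtR k l m A0.1) (c := gtC k l m A0.1) k l m hkl hkm hlm
    (fun X => f (gtTh' hkl hkm hlm A0 X))
  refine le_of_le_of_eq main ?_
  symm
  refine Finset.sum_nbij' (gtTh k l m A0 h0) (gtTh' hkl hkm hlm A0) ?_ ?_ ?_ ?_ ?_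
  · intro A _; exact Finset.mem_univ _
  · intro X _
    simp only [mem_filter, mem_univ, true_and]
    exact gt_class hkl hkm hlm A0 X
  · intro A hA
    simp only [mem_filter, mem_univ, true_and] at hA
    exact gt_round hkl hkm hlm A0 h0 A hA
  · intro X _
    exact gt_round' hkl hkm hlm A0 h0 X
  · intro A hA
    simp only [mem_filter, mem_univ, true_and] at hA
    rw [gt_GQ hkl hkm hlm A0 h0 f T1 hkm hlm A hA, gt_GQ hkl hkm hlm A0 h0 f T2 hkl hlm.symm A hA,
      gt_GQ hkl hkm hlm A0 h0 f T3 hkl.symm hkm.symm A hA]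

end Vale.Agent.Lib.P335
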