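import Vale.Agent.Lib.P335.G.Caputo2
import Vale.Agent.Lib.P335.G.GDP
import Vale.Agent.Lib.P335.G.GTR
import Vale.Agent.Lib.P335.G.GTriple
import Vale.Agent.Lib.P335.G.GConnect

/-! GCore: Poincare inequality for the switch dynamics on simple graphs with given degrees. -/

namespace Vale.Agent.Lib.P335

open Finset

variable {V : Type*} [Fintype V] [DecidableEq V] {d : V → ℕ}

theorem GQ_apply (u v : V) (f : Gr d → ℝ) (A : Gr d) :
    GQ d u v f A = f A - avgK (skey (star {u, v})) f A := rfl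

theorem GQ_swap (u v : V) : GQ d u v = GQ d v u := by
  unfold GQ; rw [Finset.pair_comm]

theorem GQ_diag (u : V) : GQ d u u = 0 := by
  apply LinearMap.ext
  intro f
  funext A
  rw [GQ_apply, Finset.pair_eq_singleton,
    avgK_of_inv (skey (star {u})) f (fun A B h => by rw [eq_of_skey_star_singleton h])]
  simp

theorem GQ_isSymm (u v : V) : IsSymm (GQ d u v) := by
  intro f g
  simp only [GQ_apply, mul_sub, sub_mul, Finset.sum_sub_distrib]
  rw [avgK_symm]

theorem GQ_idem (u v : V) (f : Gr d → ℝ) : GQ d u v (GQ d u v f) = GQ d u v f := by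
  unfold GQ
  simp only [LinearMap.sub_apply, LinearMap.id_apply, map_sub, avgL_apply, avgK_idem]
  simp

theorem SwSq_of_not_distinct {u v x y : V}
    (h : ¬ (u ≠ v ∧ x ≠ y ∧ u ≠ x ∧ u ≠ y ∧ v ≠ x ∧ v ≠ y)) (f : Gr d → ℝ) :
    SwSq u v x y f = 0 := by
  unfold SwSq
  simp [sw_cross_of_not_distinct h]

theorem PiSq_of_not_distinct {u v x y : V}
    (h : ¬ (u ≠ v ∧ x ≠ y ∧ u ≠ x ∧ u ≠ y ∧ v ≠ x ∧ v ≠ y)) (f : Gr d → ℝ) :
    PiSq u v x y f = 0 := by
  unfold PiSq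
  simp [sw_cross_of_not_distinct h]

/-- the sum over disjoint pairs is nonnegative -/
theorem gdis (f : Gr d → ℝ) :
    0 ≤ ∑ i, ∑ j, ∑ k, ∑ l,
      if i ≠ k ∧ i ≠ l ∧ j ≠ k ∧ j ≠ l then ∑ A, GQ d i j f A * GQ d k l f A else 0 := by
  -- termwise lower bound
  have hterm : ∀ i j k l : V,
      SwSq i j k l f - (PiSq i j k l f + PiSq k l i j f) / 2
        ≤ if i ≠ k ∧ i ≠ l ∧ j ≠ k ∧ j ≠ l then ∑ A, GQ d i j f A * GQ d k l f A else 0 := by
    intro i j k l
    by_cases hd : i ≠ j ∧ k ≠ l ∧ i ≠ k ∧ i ≠ l ∧ j ≠ k ∧ j ≠ l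
    · rw [if_pos ⟨hd.2.2.1, hd.2.2.2.1, hd.2.2.2.2.1, hd.2.2.2.2.2⟩]
      exact gdp i j k l hd.1 hd.2.1 hd.2.2.1 hd.2.2.2.1 hd.2.2.2.2.1 hd.2.2.2.2.2 f
    · have hd' : ¬ (k ≠ l ∧ i ≠ j ∧ k ≠ i ∧ k ≠ j ∧ l ≠ i ∧ l ≠ j) := by
        intro h
        exact hd ⟨h.2.1, h.1, h.2.2.1.symm, h.2.2.2.2.1.symm, h.2.2.2.1.symm, h.2.2.2.2.2.symm⟩
      rw [SwSq_of_not_distinct hd, PiSq_of_not_distinct hd, PiSq_of_not_distinct hd']
      split_ifs with h
      · -- then i = j or k = l, and the corresponding operator vanishes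
        have : i = j ∨ k = l := by
          by_contra hcon
          push Not at hcon
          exact hd ⟨hcon.1, hcon.2, h.1, h.2.1, h.2.2.1, h.2.2.2⟩
        rcases this with rfl | rfl
        · simp [GQ_diag]
        · simp [GQ_diag]
      · simp
  have hsum : ∑ i, ∑ j, ∑ k, ∑ l, (SwSq i j k l f - (PiSq i j k l f + PiSq k l i j f) / 2)
      ≤ ∑ i, ∑ j, ∑ k, ∑ l,
      if i ≠ k ∧ i ≠ l ∧ j ≠ k ∧ j ≠ l then ∑ A, GQ d i j f A * GQ d k l f A else 0 :=
    Finset.sum_le_sum fun i _ => Finset.sum_le_sum fun j _ => Finset.sum_le_sum fun k _ =>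
      Finset.sum_le_sum fun l _ => hterm i j k l
  refine le_trans ?_ hsum
  have hre : ∑ i, ∑ j, ∑ k, ∑ l, PiSq k l i j f = ∑ i, ∑ j, ∑ k, ∑ l, PiSq i j k l f := by
    calc ∑ i, ∑ j, ∑ k, ∑ l, PiSq k l i j f
        = ∑ i, ∑ k, ∑ j, ∑ l, PiSq k l i j f :=
          Finset.sum_congr rfl fun i _ => Finset.sum_comm
      _ = ∑ k, ∑ i, ∑ j, ∑ l, PiSq k l i j f := Finset.sum_comm
      _ = ∑ k, ∑ i, ∑ l, ∑ j, PiSq k l i j f :=
          Finset.sum_congr rfl fun k _ => Finset.sum_congr rfl fun i _ => Finset.sum_comm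
      _ = ∑ k, ∑ l, ∑ i, ∑ j, PiSq k l i j f :=
          Finset.sum_congr rfl fun k _ => Finset.sum_comm
  have hsplit : ∑ i, ∑ j, ∑ k, ∑ l, (SwSq i j k l f - (PiSq i j k l f + PiSq k l i j f) / 2)
      = ∑ i, ∑ j, ∑ k, ∑ l, SwSq i j k l f - ∑ i, ∑ j, ∑ k, ∑ l, PiSq i j k l f := by
    have : ∑ i, ∑ j, ∑ k, ∑ l, (SwSq i j k l f - (PiSq i j k l f + PiSq k l i j f) / 2)
        = ∑ i, ∑ j, ∑ k, ∑ l, SwSq i j k l f
          - (∑ i, ∑ j, ∑ k, ∑ l, PiSq i j k l f + ∑ i, ∑ j, ∑ k, ∑ l, PiSq k l i j f) / 2 := by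
      simp only [Finset.sum_sub_distrib, ← Finset.sum_div, Finset.sum_add_distrib]
    rw [this, hre]; ring
  rw [hsplit, sub_nonneg]
  refine Finset.sum_le_sum fun i _ => Finset.sum_le_sum fun j _ => ?_
  by_cases hij : i = j
  · subst hij
    have h1 : ∀ k l, PiSq i i k l f = 0 := fun k l => PiSq_of_not_distinct (by simp) f
    have h2 : ∀ k l, SwSq i i k l f = 0 := fun k l => SwSq_of_not_distinct (by simp) f
    simp [h1, h2]
  · exact gtr i j hij f

theorem gr_poincare (d : V → ℕ) (f : Gr d → ℝ) (hf : ∑ A, f A = 0) :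
    16 * ∑ A, f A ^ 2 ≤ ∑ A, ∑ u, ∑ v, ∑ x, ∑ y, (f A - f (sw (cross u v x y) A)) ^ 2 := by
  set L : (Gr d → ℝ) →ₗ[ℝ] (Gr d → ℝ) := ∑ i, ∑ j, GQ d i j with hL
  have hLapp : ∀ g : Gr d → ℝ, L g = ∑ i, ∑ j, GQ d i j g := by
    intro g; simp [hL, LinearMap.sum_apply]
  have hLsymm : IsSymm L := by
    intro g h
    simp only [hLapp, Finset.sum_apply, Finset.mul_sum, Finset.sum_mul]
    rw [Finset.sum_comm]
    conv_rhs => rw [Finset.sum_comm]
    refine Finset.sum_congr rfl (fun i _ => ?_)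
    rw [Finset.sum_comm]
    conv_rhs => rw [Finset.sum_comm]
    exact Finset.sum_congr rfl (fun j _ => GQ_isSymm i j g h)
  have hform : ∀ g : Gr d → ℝ, ∑ A, g A * L g A
      = ∑ i, ∑ j, ∑ A, GQ d i j g A * GQ d i j g A := by
    intro g
    simp only [hLapp, Finset.sum_apply, Finset.mul_sum]
    rw [Finset.sum_comm]
    refine Finset.sum_congr rfl (fun i _ => ?_)
    rw [Finset.sum_comm]
    refine Finset.sum_congr rfl (fun j _ => ?_)
    exact sum_mul_sub_avgK (skey (star {i, j})) g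
  have hpos : ∀ g : Gr d → ℝ, 0 ≤ ∑ A, g A * L g A := by
    intro g; rw [hform]
    exact Finset.sum_nonneg (fun i _ => Finset.sum_nonneg (fun j _ =>
      Finset.sum_nonneg (fun A _ => mul_self_nonneg _)))
  have hcap : ∀ g : Gr d → ℝ, 2 * ∑ A, g A * L g A ≤ ∑ A, L g A * L g A := by
    intro g
    have := caputo2 (GQ d) GQ_swap GQ_diag GQ_isSymm GQ_idem gtriple g (gdis g)
    rw [← hLapp] at this
    simpa [sq] using this
  have hker : ∀ h : Gr d → ℝ, L h = 0 → ∑ A, f A * h A = 0 := by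
    intro h hh
    have h0 : ∑ i, ∑ j, ∑ A, GQ d i j h A * GQ d i j h A = 0 := by
      rw [← hform, hh]; simp
    have hQ : ∀ i j A, GQ d i j h A = 0 := by
      intro i j A
      have h1 := (Finset.sum_eq_zero_iff_of_nonneg (fun i _ => Finset.sum_nonneg (fun j _ =>
        Finset.sum_nonneg (fun A _ => mul_self_nonneg (GQ d i j h A))))).mp h0 i (mem_univ _)
      have h2 := (Finset.sum_eq_zero_iff_of_nonneg (fun j _ =>
        Finset.sum_nonneg (fun A _ => mul_self_nonneg (GQ d i j h A)))).mp h1 j (mem_univ _)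
      have h3 := (Finset.sum_eq_zero_iff_of_nonneg
        (fun A _ => mul_self_nonneg (GQ d i j h A))).mp h2 A (mem_univ _)
      exact mul_self_eq_zero.mp h3
    have hinv : ∀ (u v x y : V) (A : Gr d), h (sw (cross u v x y) A) = h A := by
      intro u v x y A
      have e1 := hQ u v A
      have e2 := hQ u v (sw (cross u v x y) A)
      rw [GQ_apply] at e1 e2
      have e3 : avgK (skey (star {u, v})) h (sw (cross u v x y) A)
          = avgK (skey (star {u, v})) h A :=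
        avgK_congr _ _ (skey_sw (cross_subset_star u v x y) A)
      linarith
    have hconst := gconnected h hinv
    by_cases hne : Nonempty (Gr d)
    · obtain ⟨A0⟩ := hne
      have : ∑ A, f A * h A = (∑ A, f A) * h A0 := by
        rw [Finset.sum_mul]
        exact Finset.sum_congr rfl (fun A _ => by rw [hconst A A0])
      rw [this, hf]; simp
    · have : IsEmpty (Gr d) := not_nonempty_iff.mp hne
      simp
  have hgap : 2 * ∑ A, f A * f A ≤ ∑ A, f A * L f A :=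
    form_ge_of_sq L hLsymm 2 (by norm_num) hpos hcap f hker
  calc 16 * ∑ A, f A ^ 2 = 8 * (2 * ∑ A, f A * f A) := by
        simp only [sq]; ring
    _ ≤ 8 * ∑ A, f A * L f A := by linarith
    _ = ∑ u, ∑ v, 8 * ∑ A, GQ d u v f A * GQ d u v f A := by
        rw [hform]; simp only [Finset.mul_sum]
    _ ≤ ∑ u, ∑ v, ∑ A, ∑ x, ∑ y, (f A - f (sw (cross u v x y) A)) ^ 2 :=
        Finset.sum_le_sum (fun u _ => Finset.sum_le_sum (fun v _ => gtwo u v f))
    _ = ∑ A, ∑ u, ∑ v, ∑ x, ∑ y, (f A - f (sw (cross u v x y) A)) ^ 2 := by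
        symm
        rw [Finset.sum_comm]
        refine Finset.sum_congr rfl (fun u _ => ?_)
        exact Finset.sum_comm

end Vale.Agent.Lib.P335
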