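import Vale.Agent.Lib.P335.Avg

/-!
General simple graphs as finite sets of sites (unordered pairs), block averages.  DEFINITIONS ONLY
(plus the linear maps).
-/

namespace Vale.Agent.Lib.P335

open Finset

variable {V : Type*} [Fintype V] [DecidableEq V]

/-- `A` is the edge set of a simple graph with degree `d v` at every `v` -/
def IsGr (d : V → ℕ) (A : Finset (Sym2 V)) : Prop :=
  (∀ e ∈ A, ¬ e.IsDiag) ∧ ∀ v, (A.filter (fun e => v ∈ e)).card = d v

instance (d : V → ℕ) : DecidablePred (IsGr d) := fun A => by
  unfold IsGr; infer_instance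

/-- simple graphs with degree vector `d` -/
abbrev Gr (d : V → ℕ) := {A : Finset (Sym2 V) // IsGr d A}

/-- the graph with the sites of the block `S` erased: `skey S A = skey S B` iff `A`, `B` agree
outside `S` -/
def skey {d : V → ℕ} (S : Finset (Sym2 V)) (A : Gr d) : Finset (Sym2 V) := A.1 \ S

/-- all sites incident to a vertex of `I` -/
def star (I : Finset V) : Finset (Sym2 V) := univ.filter (fun e => ∃ v ∈ I, v ∈ e)

/-- the four sites between `{u, v}` and `{x, y}` -/
def cross (u v x y : V) : Finset (Sym2 V) := {s(u, x), s(u, y), s(v, x), s(v, y)}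

/-- flip all sites of `C`, if this gives a graph with the same degrees (for `C = cross u v x y`
this is the switch on the alternating 4-cycle, when there is one) -/
def sw {d : V → ℕ} (C : Finset (Sym2 V)) (A : Gr d) : Gr d :=
  if h : IsGr d (symmDiff A.1 C) then ⟨_, h⟩ else A

/-- `1 - E_{u,v}`, where `E_{u,v}` averages over the graphs agreeing on all sites not incident to
`u` or `v` -/
noncomputable def GQ (d : V → ℕ) (u v : V) : (Gr d → ℝ) →ₗ[ℝ] (Gr d → ℝ) :=
  LinearMap.id - avgL (skey (star {u, v}))

/-- squared norm of `1_D (E_{star \ C} E_C f - E_{star} f)`, `C = cross u v x y`,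
`D = {A | the switch on C moves A}` -/
noncomputable def PiSq {d : V → ℕ} (u v x y : V) (f : Gr d → ℝ) : ℝ :=
  ∑ A, (if sw (cross u v x y) A ≠ A then
      avgK (skey (star {u, v} \ cross u v x y)) (avgK (skey (cross u v x y)) f) A
        - avgK (skey (star {u, v})) f A
    else 0) ^ 2

/-- squared norm of `(1 - E_C) f = (f - f ∘ sw C) / 2` -/
noncomputable def SwSq {d : V → ℕ} (u v x y : V) (f : Gr d → ℝ) : ℝ :=
  ∑ A, ((f A - f (sw (cross u v x y) A)) / 2) ^ 2

end Vale.Agent.Lib.P335
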