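import Vale.Agent.Lib.P335.G.GBasic
import Vale.Agent.Lib.P335.Switch

/-! Module GEquiv: `Realiz n d` versus `Gr d`, comparison of the Dirichlet forms. -/

namespace Vale.Agent.Lib.P335

open Finset Classical

/-- the edge set of a realization -/
noncomputable def geSet {n : ℕ} (G : SimpleGraph (Fin n)) : Finset (Sym2 (Fin n)) :=
  univ.filter (fun e => e ∈ G.edgeSet)

theorem ge_mem {n : ℕ} (G : SimpleGraph (Fin n)) (a b : Fin n) : s(a, b) ∈ geSet G ↔ G.Adj a b := by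
  simp [geSet]

theorem ge_card {n : ℕ} (A : Finset (Sym2 (Fin n))) (z : Fin n) :
    (univ.filter (fun y => s(z, y) ∈ A)).card = (A.filter (fun e => z ∈ e)).card := by
  apply Finset.card_bij (fun y _ => s(z, y))
  · intro y hy
    rw [mem_filter] at hy
    simp [hy.2]
  · intro y _ y' _ h
    exact Sym2.congr_right.1 h
  · intro e he
    rw [mem_filter] at he
    obtain ⟨heA, hz⟩ := he
    obtain ⟨y, rfl⟩ := Sym2.mem_iff_exists.1 hz
    exact ⟨y, by simp [heA], rfl⟩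

theorem ge_isGr {n : ℕ} {d : Fin n → ℕ} (G : Realiz n d) : IsGr d (geSet G.1) := by
  refine ⟨fun e he => ?_, fun v => ?_⟩
  · simp only [geSet, mem_filter, mem_univ, true_and] at he
    exact G.1.not_isDiag_of_mem_edgeSet he
  · rw [← ge_card, ← G.2 v]
    congr 1
    ext w
    simp [ge_mem]

theorem ge_of_adj {n : ℕ} {d : Fin n → ℕ} (A : Gr d) (a b : Fin n) :
    (SimpleGraph.fromEdgeSet (A.1 : Set (Sym2 (Fin n)))).Adj a b ↔ s(a, b) ∈ A.1 := by
  rw [SimpleGraph.fromEdgeSet_adj]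
  constructor
  · intro h; exact h.1
  · intro h
    refine ⟨h, fun hab => A.2.1 _ h (by simp [hab])⟩

noncomputable def geEquiv {n : ℕ} (d : Fin n → ℕ) : Realiz n d ≃ Gr d where
  toFun G := ⟨geSet G.1, ge_isGr G⟩
  invFun A := ⟨SimpleGraph.fromEdgeSet (A.1 : Set (Sym2 (Fin n))), fun v => by
    rw [← A.2.2 v, ← ge_card]
    congr 1
    ext w
    simp only [mem_filter, mem_univ, true_and]
    exact ge_of_adj A v w⟩
  left_inv G := by
    apply Subtype.ext
    ext a b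
    rw [ge_of_adj ⟨geSet G.1, ge_isGr G⟩ a b]
    exact ge_mem G.1 a b
  right_inv A := by
    apply Subtype.ext
    ext e
    induction e using Sym2.ind with
    | _ a b =>
      show s(a, b) ∈ geSet _ ↔ _
      rw [ge_mem]
      exact ge_of_adj A a b

/-- the embedding with values `a, b, c, e` -/
def geQ {n : ℕ} (a b c e : Fin n) (hab : a ≠ b) (hac : a ≠ c) (hae : a ≠ e) (hbc : b ≠ c)
    (hbe : b ≠ e) (hce : c ≠ e) : Fin 4 ↪ Fin n :=
  ⟨![a, b, c, e], by
    intro i j hij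
    fin_cases i <;> fin_cases j <;> simp_all [eq_comm]⟩

theorem ge_cross_swap {n : ℕ} (u v x y : Fin n) : cross u v y x = cross u v x y := by
  ext e
  simp only [cross, mem_insert, mem_singleton]
  tauto

theorem ge_switch {n : ℕ} {d : Fin n → ℕ} (G : Realiz n d) {u v x y : Fin n}
    (huv : u ≠ v) (hxy : x ≠ y) (hux : u ≠ x) (huy : u ≠ y) (hvx : v ≠ x) (hvy : v ≠ y)
    (h1 : G.1.Adj u x) (h2 : G.1.Adj v y) (h3 : ¬ G.1.Adj u y) (h4 : ¬ G.1.Adj v x)
    (q : Fin 4 ↪ Fin n) (q0 : q 0 = u) (q1 : q 1 = x) (q2 : q 2 = y) (q3 : q 3 = v) :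
    sw (cross u v x y) (geEquiv d G) = geEquiv d (stepR q G) := by
  have hne : sw (cross u v x y) (geEquiv d G) ≠ geEquiv d G := by
    rw [sw_cross_ne_iff huv hxy hux huy hvx hvy]
    left
    exact ⟨ind_eq_one.2 ((ge_mem G.1 u x).2 h1), ind_eq_one.2 ((ge_mem G.1 v y).2 h2),
      ind_eq_zero.2 (fun h => h3 ((ge_mem G.1 u y).1 h)),
      ind_eq_zero.2 (fun h => h4 ((ge_mem G.1 v x).1 h))⟩
  have hgr := (sw_ne_iff_isGr (cross_nonempty u v x y) _).1 hne
  rw [sw_of_isGr hgr]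
  apply Subtype.ext
  ext e
  induction e using Sym2.ind with
  | _ a b =>
    show s(a, b) ∈ symmDiff (geSet G.1) (cross u v x y) ↔ s(a, b) ∈ geSet (switchG G.1 q)
    rw [ge_mem, Finset.mem_symmDiff, ge_mem]
    unfold switchG
    rw [q0, q1, q2, q3, if_pos ⟨h1, h2.symm, h3, fun h => h4 h.symm⟩]
    simp only [SimpleGraph.sup_adj, SimpleGraph.sdiff_adj, SimpleGraph.fromEdgeSet_adj,
      Set.mem_insert_iff, Set.mem_singleton_iff, cross, mem_insert, mem_singleton]
    rw [Sym2.eq_swap (a := y) (b := v), Sym2.eq_swap (a := x) (b := v)]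
    have hd : a ≠ b ↔ ¬ s(a, b).IsDiag := by simp
    rw [hd, ← SimpleGraph.mem_edgeSet]
    have k1 : s(u, x) ∈ G.1.edgeSet := h1
    have k2 : s(v, y) ∈ G.1.edgeSet := h2
    have k3 : s(u, y) ∉ G.1.edgeSet := h3
    have k4 : s(v, x) ∉ G.1.edgeSet := h4
    have k5 : ¬ s(u, y).IsDiag := by simpa using huy
    have k6 : ¬ s(v, x).IsDiag := by simpa using hvx
    generalize s(a, b) = e
    have hdiag : e ∈ G.1.edgeSet → ¬ e.IsDiag := G.1.not_isDiag_of_mem_edgeSet
    have m1 : e = s(u, x) → e ∈ G.1.edgeSet := fun h => h ▸ k1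
    have m2 : e = s(v, y) → e ∈ G.1.edgeSet := fun h => h ▸ k2
    have m3 : e = s(u, y) → e ∉ G.1.edgeSet := fun h => h ▸ k3
    have m4 : e = s(v, x) → e ∉ G.1.edgeSet := fun h => h ▸ k4
    have m5 : e = s(u, y) → ¬ e.IsDiag := fun h => h ▸ k5
    have m6 : e = s(v, x) → ¬ e.IsDiag := fun h => h ▸ k6
    constructor
    · rintro (⟨hE, hn⟩ | ⟨hp, hE⟩)
      · left
        exact ⟨hE, fun h => hn (h.1.elim Or.inl (fun h => Or.inr (Or.inr (Or.inr h))))⟩
      · right
        rcases hp with p | p | p | p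
        · exact absurd (m1 p) hE
        · exact ⟨Or.inl p, m5 p⟩
        · exact ⟨Or.inr p, m6 p⟩
        · exact absurd (m2 p) hE
    · rintro (⟨hE, hn⟩ | ⟨hp, hD⟩)
      · left
        refine ⟨hE, ?_⟩
        rintro (p | p | p | p)
        · exact hn ⟨Or.inl p, hdiag hE⟩
        · exact m3 p hE
        · exact m4 p hE
        · exact hn ⟨Or.inr p, hdiag hE⟩
      · right
        rcases hp with p | p
        · exact ⟨Or.inr (Or.inl p), m3 p⟩
        · exact ⟨Or.inr (Or.inr (Or.inl p)), m4 p⟩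

theorem ge_term {n : ℕ} {d : Fin n → ℕ} (f : Realiz n d → ℝ) (G : Realiz n d)
    (u v x y : Fin n) :
    (f G - f ((geEquiv d).symm (sw (cross u v x y) (geEquiv d G)))) ^ 2
      ≤ (∑ q : Fin 4 ↪ Fin n, if (q 0, q 3, q 1, q 2) = (u, v, x, y)
            then (f G - f (stepR q G)) ^ 2 else 0)
        + ∑ q : Fin 4 ↪ Fin n, if (q 0, q 3, q 2, q 1) = (u, v, x, y)
            then (f G - f (stepR q G)) ^ 2 else 0 := by
  have hn1 : 0 ≤ ∑ q : Fin 4 ↪ Fin n, (if (q 0, q 3, q 1, q 2) = (u, v, x, y)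
      then (f G - f (stepR q G)) ^ 2 else 0) :=
    Finset.sum_nonneg fun q _ => by split_ifs <;> positivity
  have hn2 : 0 ≤ ∑ q : Fin 4 ↪ Fin n, (if (q 0, q 3, q 2, q 1) = (u, v, x, y)
      then (f G - f (stepR q G)) ^ 2 else 0) :=
    Finset.sum_nonneg fun q _ => by split_ifs <;> positivity
  by_cases hne : sw (cross u v x y) (geEquiv d G) = geEquiv d G
  · rw [hne, Equiv.symm_apply_apply]
    simp only [sub_self, ne_eq, OfNat.ofNat_ne_zero, not_false_eq_true, zero_pow]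
    linarith
  · have hdist : u ≠ v ∧ x ≠ y ∧ u ≠ x ∧ u ≠ y ∧ v ≠ x ∧ v ≠ y := by
      by_contra h
      exact hne (sw_cross_of_not_distinct h _)
    obtain ⟨huv, hxy, hux, huy, hvx, hvy⟩ := hdist
    have hc := (sw_cross_ne_iff huv hxy hux huy hvx hvy _).1 hne
    rcases hc with ⟨c1, c2, c3, c4⟩ | ⟨c1, c2, c3, c4⟩
    · have a1 : G.1.Adj u x := (ge_mem G.1 u x).1 (ind_eq_one.1 c1)
      have a2 : G.1.Adj v y := (ge_mem G.1 v y).1 (ind_eq_one.1 c2)
      have a3 : ¬ G.1.Adj u y := fun h => ind_eq_zero.1 c3 ((ge_mem G.1 u y).2 h)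
      have a4 : ¬ G.1.Adj v x := fun h => ind_eq_zero.1 c4 ((ge_mem G.1 v x).2 h)
      have hq := ge_switch G huv hxy hux huy hvx hvy a1 a2 a3 a4
        (geQ u x y v hux huy huv hxy hvx.symm hvy.symm) rfl rfl rfl rfl
      rw [hq, Equiv.symm_apply_apply]
      have := Finset.single_le_sum (f := fun q : Fin 4 ↪ Fin n =>
        if (q 0, q 3, q 1, q 2) = (u, v, x, y) then (f G - f (stepR q G)) ^ 2 else 0)
        (fun q _ => by split_ifs <;> positivity)
        (mem_univ (geQ u x y v hux huy huv hxy hvx.symm hvy.symm))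
      have e : ((geQ u x y v hux huy huv hxy hvx.symm hvy.symm) 0,
          (geQ u x y v hux huy huv hxy hvx.symm hvy.symm) 3,
          (geQ u x y v hux huy huv hxy hvx.symm hvy.symm) 1,
          (geQ u x y v hux huy huv hxy hvx.symm hvy.symm) 2) = (u, v, x, y) := rfl
      simp only [if_pos e] at this
      linarith
    · have a1 : ¬ G.1.Adj u x := fun h => ind_eq_zero.1 c1 ((ge_mem G.1 u x).2 h)
      have a2 : ¬ G.1.Adj v y := fun h => ind_eq_zero.1 c2 ((ge_mem G.1 v y).2 h)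
      have a3 : G.1.Adj u y := (ge_mem G.1 u y).1 (ind_eq_one.1 c3)
      have a4 : G.1.Adj v x := (ge_mem G.1 v x).1 (ind_eq_one.1 c4)
      have hq := ge_switch G huv hxy.symm huy hux hvy hvx a3 a4 a1 a2
        (geQ u y x v huy hux huv hxy.symm hvy.symm hvx.symm) rfl rfl rfl rfl
      rw [ge_cross_swap] at hq
      rw [hq, Equiv.symm_apply_apply]
      have := Finset.single_le_sum (f := fun q : Fin 4 ↪ Fin n =>
        if (q 0, q 3, q 2, q 1) = (u, v, x, y) then (f G - f (stepR q G)) ^ 2 else 0)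
        (fun q _ => by split_ifs <;> positivity)
        (mem_univ (geQ u y x v huy hux huv hxy.symm hvy.symm hvx.symm))
      have e : ((geQ u y x v huy hux huv hxy.symm hvy.symm hvx.symm) 0,
          (geQ u y x v huy hux huv hxy.symm hvy.symm hvx.symm) 3,
          (geQ u y x v huy hux huv hxy.symm hvy.symm hvx.symm) 2,
          (geQ u y x v huy hux huv hxy.symm hvy.symm hvx.symm) 1) = (u, v, x, y) := rfl
      simp only [if_pos e] at this
      linarith

theorem ge_sum_ite {n : ℕ} (ψ : (Fin 4 ↪ Fin n) → Fin n × Fin n × Fin n × Fin n)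
    (g : (Fin 4 ↪ Fin n) → ℝ) :
    ∑ u, ∑ v, ∑ x, ∑ y, ∑ q : Fin 4 ↪ Fin n, (if ψ q = (u, v, x, y) then g q else 0)
      = ∑ q, g q := by
  have h : ∑ u, ∑ v, ∑ x, ∑ y, ∑ q : Fin 4 ↪ Fin n, (if ψ q = (u, v, x, y) then g q else 0)
      = ∑ t : Fin n × Fin n × Fin n × Fin n, ∑ q : Fin 4 ↪ Fin n,
          (if ψ q = t then g q else 0) := by
    simp only [Fintype.sum_prod_type]
  rw [h, Finset.sum_comm]
  apply Finset.sum_congr rfl
  intro q _
  simp

theorem realiz_equiv_exists {n : ℕ} (d : Fin n → ℕ) :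
    ∃ e : Realiz n d ≃ Gr d,
      ∀ f : Realiz n d → ℝ,
        ∑ G, ∑ u, ∑ v, ∑ x, ∑ y, (f G - f (e.symm (sw (cross u v x y) (e G)))) ^ 2
          ≤ 2 * ∑ G, ∑ q : Fin 4 ↪ Fin n, (f G - f (stepR q G)) ^ 2 := by
  refine ⟨geEquiv d, fun f => ?_⟩
  rw [Finset.mul_sum]
  apply Finset.sum_le_sum
  intro G _
  calc ∑ u, ∑ v, ∑ x, ∑ y, (f G - f ((geEquiv d).symm (sw (cross u v x y) (geEquiv d G)))) ^ 2
      ≤ ∑ u, ∑ v, ∑ x, ∑ y, ((∑ q : Fin 4 ↪ Fin n, if (q 0, q 3, q 1, q 2) = (u, v, x, y)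
            then (f G - f (stepR q G)) ^ 2 else 0)
        + ∑ q : Fin 4 ↪ Fin n, if (q 0, q 3, q 2, q 1) = (u, v, x, y)
            then (f G - f (stepR q G)) ^ 2 else 0) :=
        Finset.sum_le_sum fun u _ => Finset.sum_le_sum fun v _ => Finset.sum_le_sum fun x _ =>
          Finset.sum_le_sum fun y _ => ge_term f G u v x y
    _ = 2 * ∑ q : Fin 4 ↪ Fin n, (f G - f (stepR q G)) ^ 2 := by
        simp only [Finset.sum_add_distrib]
        rw [ge_sum_ite (fun q => (q 0, q 3, q 1, q 2)) (fun q => (f G - f (stepR q G)) ^ 2),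
          ge_sum_ite (fun q => (q 0, q 3, q 2, q 1)) (fun q => (f G - f (stepR q G)) ^ 2)]
        ring

end Vale.Agent.Lib.P335
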