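import Vale.Agent.Lib.P335.G.GBasic

/-! Module GOdd: for two disjoint vertex pairs the two block averages commute on the graphs with an
odd number of edges between the pairs. -/

namespace Vale.Agent.Lib.P335

open Finset

section abstract_part

variable {Ω K : Type*} [Fintype Ω] [DecidableEq K]

/-- step 1: transfer of averages along a completed square -/
theorem sq_transfer (p p' : Ω → K) (O : Ω → Prop)
    (hOp : ∀ x y, p x = p y → (O x ↔ O y)) (hOp' : ∀ x y, p' x = p' y → (O x ↔ O y))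
    (sq : ∀ x1 x2 y, O x1 → p x1 = p x2 → p' y = p' x1 → ∃ z, p z = p y ∧ p' z = p' x2)
    (uniq : ∀ z z', O z → p z = p z' → p' z = p' z' → z = z')
    (w : Ω → ℝ) (hw : ∀ x y, p x = p y → w x = w y) (x1 x2 : Ω) (hO : O x1) (h12 : p x1 = p x2) :
    avgK p' w x1 = avgK p' w x2 := by
  classical
  have hO2 : O x2 := (hOp x1 x2 h12).mp hO
  let θ : Ω → Ω := fun y => if h : p' y = p' x1 then (sq x1 x2 y hO h12 h).choose else y
  let θ' : Ω → Ω := fun y => if h : p' y = p' x2 then (sq x2 x1 y hO2 h12.symm h).choose else y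
  have hθ : ∀ y, p' y = p' x1 → p (θ y) = p y ∧ p' (θ y) = p' x2 := by
    intro y h
    simp only [θ, dif_pos h]
    exact (sq x1 x2 y hO h12 h).choose_spec
  have hθ' : ∀ y, p' y = p' x2 → p (θ' y) = p y ∧ p' (θ' y) = p' x1 := by
    intro y h
    simp only [θ', dif_pos h]
    exact (sq x2 x1 y hO2 h12.symm h).choose_spec
  refine avgK_eq_of_bij p' w x1 x2 θ θ' ?_ ?_ ?_ ?_ ?_
  · intro y h; exact (hθ y h).2
  · intro y h; exact (hθ' y h).2
  · intro y h
    have h1 := hθ y h
    have h2 := hθ' (θ y) h1.2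
    have hOy : O y := (hOp' y x1 h).mpr hO
    exact (uniq y _ hOy (h1.1.symm.trans h2.1.symm) (h.trans h2.2.symm)).symm
  · intro y h
    have h1 := hθ' y h
    have h2 := hθ (θ' y) h1.2
    have hOy : O y := (hOp' y x2 h).mpr hO2
    exact (uniq y _ hOy (h1.1.symm.trans h2.1.symm) (h.trans h2.2.symm)).symm
  · intro y h; exact hw _ _ (hθ y h).1

theorem avgK_eq_zero_of_class (p : Ω → K) (w : Ω → ℝ) (x : Ω) (h : ∀ y, p y = p x → w y = 0) :
    avgK p w x = 0 := by
  unfold avgK
  rw [Finset.sum_eq_zero (fun y hy => h y (by simpa using hy))]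
  simp

/-- commutation on a saturated set with unique square completion -/
theorem comm_of_squares (p p' : Ω → K) (O : Ω → Prop)
    (hOp : ∀ x y, p x = p y → (O x ↔ O y)) (hOp' : ∀ x y, p' x = p' y → (O x ↔ O y))
    (sq : ∀ x1 x2 y, O x1 → p x1 = p x2 → p' y = p' x1 → ∃ z, p z = p y ∧ p' z = p' x2)
    (uniq : ∀ z z', O z → p z = p z' → p' z = p' z' → z = z')
    (g : Ω → ℝ) (hg : ∀ x, ¬ O x → g x = 0) :
    avgK p (avgK p' g) = avgK p' (avgK p g) := by
  classical
  let iO : Ω → ℝ := fun x => if O x then 1 else 0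
  have hiO : ∀ x y, p x = p y → iO x = iO y := by
    intro x y h; simp only [iO, hOp x y h]
  have hiO' : ∀ x y, p' x = p' y → iO x = iO y := by
    intro x y h; simp only [iO, hOp' x y h]
  let P : (Ω → ℝ) →ₗ[ℝ] (Ω → ℝ) := (avgL p) ∘ₗ (LinearMap.mulLeft ℝ iO)
  let P' : (Ω → ℝ) →ₗ[ℝ] (Ω → ℝ) := (avgL p') ∘ₗ (LinearMap.mulLeft ℝ iO)
  have hP : ∀ f, P f = fun x => iO x * avgK p f x := fun f => avgK_mul_of_inv p iO f hiO
  have hP' : ∀ f, P' f = fun x => iO x * avgK p' f x := fun f => avgK_mul_of_inv p' iO f hiO'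
  have hPdef : ∀ f, P f = avgK p (fun x => iO x * f x) := fun f => rfl
  have hPdef' : ∀ f, P' f = avgK p' (fun x => iO x * f x) := fun f => rfl
  have hfix : ∀ f : Ω → ℝ, (∀ x, ¬ O x → f x = 0) → (fun x => iO x * f x) = f := by
    intro f hf
    funext x
    by_cases hx : O x
    · simp [iO, hx]
    · simp [iO, hx, hf x hx]
  have sP : IsSymm P := by
    intro f g
    rw [hPdef g, avgK_symm p f, hP f]
    exact Finset.sum_congr rfl (fun x _ => by ring)
  have sP' : IsSymm P' := by
    intro f g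
    rw [hPdef' g, avgK_symm p' f, hP' f]
    exact Finset.sum_congr rfl (fun x _ => by ring)
  have hrange : ∀ f, P (P' (P f)) = P' (P f) := by
    intro f
    have hw1 : ∀ x y, p x = p y → P f x = P f y := by
      intro x y h
      rw [hP f]
      show iO x * avgK p f x = iO y * avgK p f y
      rw [hiO x y h, avgK_congr p f h]
    have hw0 : ∀ x, ¬ O x → P f x = 0 := by
      intro x hx
      rw [hP f]
      simp [iO, hx]
    have e1 : P' (P f) = avgK p' (P f) := by rw [hPdef', hfix _ hw0]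
    have hz0 : ∀ x, ¬ O x → avgK p' (P f) x = 0 := by
      intro x hx
      exact avgK_eq_zero_of_class p' _ x (fun y hy => hw0 y (fun h => hx ((hOp' y x hy).mp h)))
    rw [e1, hPdef, hfix _ hz0]
    apply avgK_of_inv
    intro x1 x2 h12
    by_cases hx : O x1
    · exact sq_transfer p p' O hOp hOp' sq uniq _ hw1 x1 x2 hx h12
    · rw [hz0 x1 hx, hz0 x2 (fun h => hx ((hOp x1 x2 h12).mpr h))]
  have main := comm_of_range_invariant P P' sP sP' hrange g
  have z1 : ∀ x, ¬ O x → avgK p g x = 0 := fun x hx =>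
    avgK_eq_zero_of_class p _ x (fun y hy => hg y (fun h => hx ((hOp y x hy).mp h)))
  have z2 : ∀ x, ¬ O x → avgK p' g x = 0 := fun x hx =>
    avgK_eq_zero_of_class p' _ x (fun y hy => hg y (fun h => hx ((hOp' y x hy).mp h)))
  have a1 : P g = avgK p g := by rw [hPdef, hfix _ hg]
  have a2 : P' g = avgK p' g := by rw [hPdef', hfix _ hg]
  rw [a1, a2, hPdef, hPdef', hfix _ z1, hfix _ z2] at main
  exact main

end abstract_part

section graph_part

variable {V : Type*} [Fintype V] [DecidableEq V] {d : V → ℕ}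

theorem star_deg (A : Finset (Sym2 V)) {u x y : V} (hxy : x ≠ y) (hux : u ≠ x) (huy : u ≠ y) :
    ((A ∩ star {x, y}).filter (fun e => u ∈ e)).card = ind A s(u, x) + ind A s(u, y) := by
  rw [← Finset.inter_filter, star_filter_pair hux huy, card_inter_pair]
  simp [hxy, huy]

theorem card_inter_cross (A : Finset (Sym2 V)) {u v x y : V} (huv : u ≠ v) (hxy : x ≠ y)
    (hux : u ≠ x) (huy : u ≠ y) (hvy : v ≠ y) :
    (A ∩ cross u v x y).card
      = ind A s(u, x) + ind A s(u, y) + ind A s(v, x) + ind A s(v, y) := by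
  have h1 : A ∩ cross u v x y = (A ∩ {s(u, x), s(u, y)}) ∪ (A ∩ {s(v, x), s(v, y)}) := by
    rw [← Finset.inter_union_distrib_left]
    congr 1
    ext e
    simp only [cross, mem_insert, mem_singleton, mem_union]
    tauto
  rw [h1, Finset.card_union_of_disjoint, card_inter_pair, card_inter_pair]
  · ring
  · simp [hxy, hvy]
  · simp [hxy, huy]
  · rw [Finset.disjoint_left]
    intro e he he'
    simp only [mem_inter, mem_insert, mem_singleton] at he he'
    rcases he.2 with rfl | rfl <;> rcases he'.2 with h | h <;>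
      simp only [Sym2.eq_iff] at h <;> tauto

theorem star_inter_star {u v x y : V} (hux : u ≠ x) (huy : u ≠ y) (hvx : v ≠ x) (hvy : v ≠ y)
    {e : Sym2 V} (h1 : e ∈ star {u, v}) (h2 : e ∈ star {x, y}) : e ∈ cross u v x y := by
  induction e with | _ a b => ?_
  simp only [star, mem_filter, mem_univ, true_and, mem_insert, mem_singleton, Sym2.mem_iff] at h1 h2
  simp only [cross, mem_insert, mem_singleton, Sym2.eq_iff]
  obtain ⟨w, hw, hw'⟩ := h1
  obtain ⟨z, hz, hz'⟩ := h2
  rcases hw with rfl | rfl <;> rcases hz with rfl | rfl <;> rcases hw' with rfl | rfl <;>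
    rcases hz' with rfl | rfl <;> simp_all

theorem card_cross_eq_of_skey {u v x y : V} (huv : u ≠ v) (hxy : x ≠ y) (hux : u ≠ x) (huy : u ≠ y)
    (hvx : v ≠ x) (hvy : v ≠ y) {A B : Gr d} (hAB : skey (star {x, y}) A = skey (star {x, y}) B) :
    (A.1 ∩ cross u v x y).card = (B.1 ∩ cross u v x y).card := by
  have e1 := deg_inter_eq hAB u
  have e2 := deg_inter_eq hAB v
  rw [star_deg _ hxy hux huy, star_deg _ hxy hux huy] at e1
  rw [star_deg _ hxy hvx hvy, star_deg _ hxy hvx hvy] at e2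
  rw [card_inter_cross _ huv hxy hux huy hvy, card_inter_cross _ huv hxy hux huy hvy]
  omega

/-- the alternating sign pattern on the 4-cycle -/
def chi (u v x y : V) (e : Sym2 V) : ℤ :=
  (if e = s(u, x) then 1 else 0) - (if e = s(u, y) then 1 else 0) - (if e = s(v, x) then 1 else 0)
    + (if e = s(v, y) then 1 else 0)

theorem chi_of_notMem {u v x y : V} {e : Sym2 V} (he : e ∉ cross u v x y) : chi u v x y e = 0 := by
  simp only [cross, mem_insert, mem_singleton, not_or] at he
  simp [chi, he.1, he.2.1, he.2.2.1, he.2.2.2]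

theorem chi_vals {u v x y : V} (huv : u ≠ v) (hxy : x ≠ y) (hux : u ≠ x) (huy : u ≠ y)
    (hvx : v ≠ x) (hvy : v ≠ y) :
    chi u v x y s(u, x) = 1 ∧ chi u v x y s(u, y) = -1 ∧ chi u v x y s(v, x) = -1 ∧
      chi u v x y s(v, y) = 1 := by
  refine ⟨?_, ?_, ?_, ?_⟩ <;>
    simp [chi, huv, hxy, hux, huy, hvx, hvy, huv.symm, hxy.symm, hux.symm, huy.symm,
      hvx.symm, hvy.symm]

theorem sum_chi {u v x y : V} (huv : u ≠ v) (hxy : x ≠ y) (hux : u ≠ x) (huy : u ≠ y)
    (hvx : v ≠ x) (hvy : v ≠ y) (w : V) :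
    ∑ e ∈ univ.filter (fun e : Sym2 V => w ∈ e), chi u v x y e = 0 := by
  unfold chi
  rw [Finset.sum_add_distrib, Finset.sum_sub_distrib, Finset.sum_sub_distrib,
    Finset.sum_ite_eq', Finset.sum_ite_eq', Finset.sum_ite_eq', Finset.sum_ite_eq']
  simp only [mem_filter, mem_univ, true_and, Sym2.mem_iff]
  by_cases h1 : w = u
  · subst h1; simp [huv, hux, huy]
  by_cases h2 : w = v
  · subst h2; simp [h1, hvx, hvy]
  by_cases h3 : w = x
  · subst h3; simp [h1, h2, hxy]
  by_cases h4 : w = y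
  · subst h4; simp [h1, h2, h3]
  simp [h1, h2, h3, h4]

theorem card_filter_eq_sum_ind (X : Finset (Sym2 V)) (w : V) :
    ((X.filter (fun e => w ∈ e)).card : ℤ)
      = ∑ e ∈ univ.filter (fun e : Sym2 V => w ∈ e), (ind X e : ℤ) := by
  have : X.filter (fun e => w ∈ e) = (univ.filter (fun e : Sym2 V => w ∈ e)).filter (· ∈ X) := by
    ext e; simp [and_comm]
  rw [this, Finset.card_filter]
  push_cast
  refine Finset.sum_congr rfl (fun e _ => ?_)
  unfold ind
  split_ifs <;> simp

/-- completion of a square on the odd graphs -/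
theorem odd_square {u v x y : V} (huv : u ≠ v) (hxy : x ≠ y) (hux : u ≠ x) (huy : u ≠ y)
    (hvx : v ≠ x) (hvy : v ≠ y) {A1 A2 B : Gr d} (hO : Odd ((A1.1 ∩ cross u v x y).card))
    (h12 : skey (star {u, v}) A1 = skey (star {u, v}) A2)
    (hB : skey (star {x, y}) B = skey (star {x, y}) A1) :
    ∃ Z : Gr d, skey (star {u, v}) Z = skey (star {u, v}) B ∧
      skey (star {x, y}) Z = skey (star {x, y}) A2 := by
  have hCS : cross u v x y ⊆ star {u, v} := cross_subset_star u v x y
  have hCS' : cross u v x y ⊆ star {x, y} := by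
    rw [← cross_swap_pairs]; exact cross_subset_star x y u v
  -- numerical relations
  have k1 := deg_inter_eq h12 x
  have k2 := deg_inter_eq h12 y
  rw [star_deg _ huv hux.symm hvx.symm, star_deg _ huv hux.symm hvx.symm,
    Sym2.eq_swap (a := x) (b := u), Sym2.eq_swap (a := x) (b := v)] at k1
  rw [star_deg _ huv huy.symm hvy.symm, star_deg _ huv huy.symm hvy.symm,
    Sym2.eq_swap (a := y) (b := u), Sym2.eq_swap (a := y) (b := v)] at k2
  have r1 := deg_inter_eq hB u
  have r2 := deg_inter_eq hB v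
  rw [star_deg _ hxy hux huy, star_deg _ hxy hux huy] at r1
  rw [star_deg _ hxy hvx hvy, star_deg _ hxy hvx hvy] at r2
  rw [card_inter_cross _ huv hxy hux huy hvy, Nat.odd_iff] at hO
  have la1 := ind_le_one A1.1 s(u, x)
  have la2 := ind_le_one A1.1 s(u, y)
  have la3 := ind_le_one A1.1 s(v, x)
  have la4 := ind_le_one A1.1 s(v, y)
  have lb1 := ind_le_one A2.1 s(u, x)
  have lb2 := ind_le_one A2.1 s(u, y)
  have lb3 := ind_le_one A2.1 s(v, x)
  have lb4 := ind_le_one A2.1 s(v, y)
  have lc1 := ind_le_one B.1 s(u, x)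
  have lc2 := ind_le_one B.1 s(u, y)
  have lc3 := ind_le_one B.1 s(v, x)
  have lc4 := ind_le_one B.1 s(v, y)
  obtain ⟨ε, p1, p2, p3, p4⟩ : ∃ ε : ℤ,
      (((ind A2.1 s(u, x) : ℤ) + ind B.1 s(u, x) - ind A1.1 s(u, x) + ε * 1 = 0 ∨
        (ind A2.1 s(u, x) : ℤ) + ind B.1 s(u, x) - ind A1.1 s(u, x) + ε * 1 = 1)) ∧
      (((ind A2.1 s(u, y) : ℤ) + ind B.1 s(u, y) - ind A1.1 s(u, y) + ε * (-1) = 0 ∨
        (ind A2.1 s(u, y) : ℤ) + ind B.1 s(u, y) - ind A1.1 s(u, y) + ε * (-1) = 1)) ∧
      (((ind A2.1 s(v, x) : ℤ) + ind B.1 s(v, x) - ind A1.1 s(v, x) + ε * (-1) = 0 ∨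
        (ind A2.1 s(v, x) : ℤ) + ind B.1 s(v, x) - ind A1.1 s(v, x) + ε * (-1) = 1)) ∧
      (((ind A2.1 s(v, y) : ℤ) + ind B.1 s(v, y) - ind A1.1 s(v, y) + ε * 1 = 0 ∨
        (ind A2.1 s(v, y) : ℤ) + ind B.1 s(v, y) - ind A1.1 s(v, y) + ε * 1 = 1)) := by
    generalize ind A1.1 s(u, x) = a1 at *
    generalize ind A1.1 s(u, y) = a2 at *
    generalize ind A1.1 s(v, x) = a3 at *
    generalize ind A1.1 s(v, y) = a4 at *
    generalize ind A2.1 s(u, x) = b1 at *
    generalize ind A2.1 s(u, y) = b2 at *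
    generalize ind A2.1 s(v, x) = b3 at *
    generalize ind A2.1 s(v, y) = b4 at *
    generalize ind B.1 s(u, x) = c1 at *
    generalize ind B.1 s(u, y) = c2 at *
    generalize ind B.1 s(v, x) = c3 at *
    generalize ind B.1 s(v, y) = c4 at *
    by_cases q0 : b1 + c1 < a1 ∨ b4 + c4 < a4 ∨ b2 + c2 > a2 + 1 ∨ b3 + c3 > a3 + 1
    · exact ⟨1, by omega, by omega, by omega, by omega⟩
    · by_cases q1 : b2 + c2 < a2 ∨ b3 + c3 < a3 ∨ b1 + c1 > a1 + 1 ∨ b4 + c4 > a4 + 1
      · exact ⟨-1, by omega, by omega, by omega, by omega⟩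
      · exact ⟨0, by omega, by omega, by omega, by omega⟩
  obtain ⟨x1, x2, x3, x4⟩ := chi_vals huv hxy hux huy hvx hvy
  let ψ : Sym2 V → ℤ := fun e =>
    (ind A2.1 e : ℤ) + ind B.1 e - ind A1.1 e + ε * chi u v x y e
  have hψS : ∀ e, e ∉ star {u, v} → ψ e = ind B.1 e := by
    intro e he
    have h1 : ind A1.1 e = ind A2.1 e := ind_eq_iff.mpr ((skey_eq_iff.mp h12) e he)
    simp only [ψ, h1, chi_of_notMem (fun h => he (hCS h))]
    ring
  have hψS' : ∀ e, e ∉ star {x, y} → ψ e = ind A2.1 e := by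
    intro e he
    have h1 : ind B.1 e = ind A1.1 e := ind_eq_iff.mpr ((skey_eq_iff.mp hB) e he)
    simp only [ψ, h1, chi_of_notMem (fun h => he (hCS' h))]
    ring
  have hψC : ∀ e, e ∈ cross u v x y → ψ e = 0 ∨ ψ e = 1 := by
    intro e he
    simp only [cross, mem_insert, mem_singleton] at he
    rcases he with rfl | rfl | rfl | rfl
    · simp only [ψ, x1]; exact p1
    · simp only [ψ, x2]; exact p2
    · simp only [ψ, x3]; exact p3
    · simp only [ψ, x4]; exact p4
  have hind01 : ∀ (X : Finset (Sym2 V)) e, (ind X e : ℤ) = 0 ∨ (ind X e : ℤ) = 1 := by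
    intro X e
    unfold ind
    split_ifs <;> simp
  have hψ01 : ∀ e, ψ e = 0 ∨ ψ e = 1 := by
    intro e
    by_cases h1 : e ∈ star {u, v}
    · by_cases h2 : e ∈ star {x, y}
      · exact hψC e (star_inter_star hux huy hvx hvy h1 h2)
      · rw [hψS' e h2]; exact hind01 _ _
    · rw [hψS e h1]; exact hind01 _ _
  have hindZ : ∀ e, (ind (univ.filter (fun e => ψ e = 1)) e : ℤ) = ψ e := by
    intro e
    unfold ind
    rcases hψ01 e with h | h <;> simp [h]
  have hZ : IsGr d (univ.filter (fun e => ψ e = 1)) := by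
    refine ⟨fun e he hd => ?_, fun w => ?_⟩
    · simp only [mem_filter, mem_univ, true_and] at he
      by_cases h1 : e ∈ star {u, v}
      · by_cases h2 : e ∈ star {x, y}
        · have h3 := star_inter_star hux huy hvx hvy h1 h2
          simp only [cross, mem_insert, mem_singleton] at h3
          rcases h3 with rfl | rfl | rfl | rfl <;> simp at hd <;> tauto
        · rw [hψS' e h2] at he
          exact A2.2.1 e (ind_eq_one.mp (by exact_mod_cast he)) hd
      · rw [hψS e h1] at he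
        exact B.2.1 e (ind_eq_one.mp (by exact_mod_cast he)) hd
    · have h1 := card_filter_eq_sum_ind (univ.filter (fun e => ψ e = 1)) w
      rw [Finset.sum_congr rfl (fun e _ => hindZ e)] at h1
      simp only [ψ] at h1
      rw [Finset.sum_add_distrib, Finset.sum_sub_distrib, Finset.sum_add_distrib,
        ← Finset.mul_sum, sum_chi huv hxy hux huy hvx hvy w, ← card_filter_eq_sum_ind,
        ← card_filter_eq_sum_ind, ← card_filter_eq_sum_ind, A1.2.2 w, A2.2.2 w, B.2.2 w] at h1
      have : ((univ.filter (fun e => ψ e = 1)).filter (fun e => w ∈ e)).card = (d w : ℤ) := by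
        rw [h1]; ring
      exact_mod_cast this
  refine ⟨⟨_, hZ⟩, ?_, ?_⟩
  · rw [skey_eq_iff]
    intro e he
    rw [← ind_eq_iff]
    have := hindZ e
    rw [hψS e he] at this
    exact_mod_cast this
  · rw [skey_eq_iff]
    intro e he
    rw [← ind_eq_iff]
    have := hindZ e
    rw [hψS' e he] at this
    exact_mod_cast this

theorem godd_comm (u v x y : V) (huv : u ≠ v) (hxy : x ≠ y) (hux : u ≠ x) (huy : u ≠ y)
    (hvx : v ≠ x) (hvy : v ≠ y) (g : Gr d → ℝ)
    (hg : ∀ A : Gr d, ¬ Odd ((A.1 ∩ cross u v x y).card) → g A = 0) :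
    avgK (skey (star {u, v})) (avgK (skey (star {x, y})) g)
      = avgK (skey (star {x, y})) (avgK (skey (star {u, v})) g) := by
  refine comm_of_squares (skey (star {u, v})) (skey (star {x, y}))
    (fun A => Odd ((A.1 ∩ cross u v x y).card)) ?_ ?_ ?_ ?_ g hg
  · intro A B hAB
    have := card_cross_eq_of_skey hxy huv hux.symm hvx.symm huy.symm hvy.symm hAB
    rw [cross_swap_pairs] at this
    rw [this]
  · intro A B hAB
    rw [card_cross_eq_of_skey huv hxy hux huy hvx hvy hAB]
  · intro A1 A2 B hO h12 hB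
    exact odd_square huv hxy hux huy hvx hvy hO h12 hB
  · intro A A' hO h1 h2
    have h3 : skey (cross u v x y) A' = skey (cross u v x y) A := by
      rw [skey_eq_iff]
      intro e he
      by_cases hS : e ∈ star {u, v}
      · have hS' : e ∉ star {x, y} := fun h => he (star_inter_star hux huy hvx hvy hS h)
        exact ((skey_eq_iff.mp h2) e hS').symm
      · exact ((skey_eq_iff.mp h1) e hS).symm
    rcases cross_class huv hxy hux huy hvx hvy h3 with h | h
    · exact h.symm
    · by_cases hsw : sw (cross u v x y) A = A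
      · rw [h, hsw]
      · exfalso
        rw [← ne_eq, sw_cross_ne_iff huv hxy hux huy hvx hvy] at hsw
        rw [card_inter_cross _ huv hxy hux huy hvy] at hO
        rcases hsw with ⟨h1, h2, h3, h4⟩ | ⟨h1, h2, h3, h4⟩ <;> rw [h1, h2, h3, h4] at hO <;>
          exact absurd hO (by decide)

end graph_part

end Vale.Agent.Lib.P335
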