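import Vale.Agent.Lib.P335.G.GBasic
import Vale.Agent.Lib.P335.G.Johnson

namespace Vale.Agent.Lib.P335

open Finset

variable {V : Type*} [Fintype V] [DecidableEq V] {d : V → ℕ}

theorem gtr_not_diag (A : Gr d) (w : V) : s(w, w) ∉ A.1 := by
  intro h
  exact A.2.1 _ h (by simp)

theorem gtr_mem_star {u v a b : V} :
    s(a, b) ∈ star ({u, v} : Finset V) ↔ (a = u ∨ a = v ∨ b = u ∨ b = v) := by
  simp only [star, mem_filter, mem_univ, true_and, mem_insert, mem_singleton, Sym2.mem_iff]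
  constructor
  · rintro ⟨w, rfl | rfl, h | h⟩ <;> simp [h]
  · rintro (h | h | h | h)
    · exact ⟨u, Or.inl rfl, Or.inl h.symm⟩
    · exact ⟨v, Or.inr rfl, Or.inl h.symm⟩
    · exact ⟨u, Or.inl rfl, Or.inr h.symm⟩
    · exact ⟨v, Or.inr rfl, Or.inr h.symm⟩

theorem gtr_deg (A : Gr d) (a : V) : ∑ w, (if s(a, w) ∈ A.1 then 1 else 0 : ℕ) = d a := by
  rw [← A.2.2 a, ← Finset.card_filter]
  apply Finset.card_nbij (fun w => s(a, w))
  · intro w hw
    simp only [coe_filter, mem_univ, true_and, Set.mem_ofPred_eq] at hw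
    simp [hw]
  · intro w _ w' _ h
    exact Sym2.congr_right.mp h
  · intro e he
    simp only [coe_filter, Set.mem_ofPred_eq] at he
    obtain ⟨he1, w, rfl⟩ := he
    exact ⟨w, by simpa using he1, rfl⟩

theorem gtr_sum_split {u v : V} (huv : u ≠ v) (F : V → ℕ) :
    ∑ w, F w = F u + F v + ∑ w ∈ univ \ {u, v}, F w := by
  rw [← Finset.sum_sdiff (Finset.subset_univ ({u, v} : Finset V)), Finset.sum_pair huv]
  ring

/-- (i) -/
theorem gtr_pair_sum {u v : V} (huv : u ≠ v) {A B : Gr d}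
    (h : skey (star {u, v}) A = skey (star {u, v}) B) {w : V} (hwu : w ≠ u) (hwv : w ≠ v) :
    (if s(u, w) ∈ A.1 then 1 else 0 : ℕ) + (if s(v, w) ∈ A.1 then 1 else 0)
      = (if s(u, w) ∈ B.1 then 1 else 0) + (if s(v, w) ∈ B.1 then 1 else 0) := by
  have hA := gtr_deg A w
  have hB := gtr_deg B w
  rw [gtr_sum_split huv] at hA hB
  have hrest : ∑ z ∈ univ \ {u, v}, (if s(w, z) ∈ A.1 then 1 else 0 : ℕ)
      = ∑ z ∈ univ \ {u, v}, (if s(w, z) ∈ B.1 then 1 else 0 : ℕ) := by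
    refine Finset.sum_congr rfl (fun z hz => ?_)
    simp only [mem_sdiff, mem_univ, true_and, mem_insert, mem_singleton, not_or] at hz
    have hn : s(w, z) ∉ star ({u, v} : Finset V) := by
      rw [gtr_mem_star]; tauto
    have := (skey_eq_iff.mp h) _ hn
    simp only [this]
  rw [Sym2.eq_swap (a := w) (b := u), Sym2.eq_swap (a := w) (b := v)] at hA hB
  omega

/-- (ii) -/
theorem gtr_uv {u v : V} (huv : u ≠ v) {A B : Gr d}
    (h : skey (star {u, v}) A = skey (star {u, v}) B) : s(u, v) ∈ A.1 ↔ s(u, v) ∈ B.1 := by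
  have hAu := gtr_deg A u
  have hBu := gtr_deg B u
  have hAv := gtr_deg A v
  have hBv := gtr_deg B v
  rw [gtr_sum_split huv] at hAu hBu hAv hBv
  have hrest : ∑ w ∈ univ \ {u, v}, (if s(u, w) ∈ A.1 then 1 else 0 : ℕ)
      + ∑ w ∈ univ \ {u, v}, (if s(v, w) ∈ A.1 then 1 else 0 : ℕ)
      = ∑ w ∈ univ \ {u, v}, (if s(u, w) ∈ B.1 then 1 else 0 : ℕ)
      + ∑ w ∈ univ \ {u, v}, (if s(v, w) ∈ B.1 then 1 else 0 : ℕ) := by
    rw [← Finset.sum_add_distrib, ← Finset.sum_add_distrib]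
    refine Finset.sum_congr rfl (fun z hz => ?_)
    simp only [mem_sdiff, mem_univ, true_and, mem_insert, mem_singleton, not_or] at hz
    exact gtr_pair_sum huv h hz.1 hz.2
  rw [Sym2.eq_swap (a := v) (b := u)] at hAv hBv
  simp only [gtr_not_diag, if_false] at hAu hBu hAv hBv
  by_cases h1 : s(u, v) ∈ A.1 <;> by_cases h2 : s(u, v) ∈ B.1 <;> simp only [h1, h2, if_true, if_false] at * <;> omega


/-- the vertices joined to exactly one of `u`, `v` -/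
def gtrPhi (u v : V) (A0 : Gr d) : Finset V :=
  univ.filter (fun w => w ≠ u ∧ w ≠ v ∧ (s(u, w) ∈ A0.1 ↔ s(v, w) ∉ A0.1))

theorem gtr_mem_phi {u v : V} {A0 : Gr d} {w : V} :
    w ∈ gtrPhi u v A0 ↔ w ≠ u ∧ w ≠ v ∧ (s(u, w) ∈ A0.1 ↔ s(v, w) ∉ A0.1) := by
  simp [gtrPhi]

/-- P1 -/
theorem gtr_P1 {u v : V} (huv : u ≠ v) {A0 A : Gr d}
    (h : skey (star {u, v}) A = skey (star {u, v}) A0) {w : V} (hw : w ∈ gtrPhi u v A0) :
    s(u, w) ∈ A.1 ↔ s(v, w) ∉ A.1 := by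
  obtain ⟨h1, h2, h3⟩ := gtr_mem_phi.mp hw
  have := gtr_pair_sum huv h h1 h2
  by_cases a1 : s(u, w) ∈ A.1 <;> by_cases a2 : s(v, w) ∈ A.1 <;>
    by_cases a3 : s(u, w) ∈ A0.1 <;> by_cases a4 : s(v, w) ∈ A0.1 <;>
    simp only [a1, a2, a3, a4, if_true, if_false] at * <;> first | omega | tauto

/-- the class does not change the set -/
theorem gtr_phi_congr {u v : V} (huv : u ≠ v) {A0 A : Gr d}
    (h : skey (star {u, v}) A = skey (star {u, v}) A0) : gtrPhi u v A = gtrPhi u v A0 := by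
  ext w
  rw [gtr_mem_phi, gtr_mem_phi]
  constructor
  · rintro ⟨h1, h2, h3⟩
    exact ⟨h1, h2, gtr_P1 huv h.symm (gtr_mem_phi.mpr ⟨h1, h2, h3⟩)⟩
  · rintro ⟨h1, h2, h3⟩
    exact ⟨h1, h2, gtr_P1 huv h (gtr_mem_phi.mpr ⟨h1, h2, h3⟩)⟩

/-- P2 -/
theorem gtr_P2 {u v : V} (huv : u ≠ v) {A0 A : Gr d}
    (h : skey (star {u, v}) A = skey (star {u, v}) A0) {w : V} (hw : w ∉ gtrPhi u v A0) :
    (s(u, w) ∈ A.1 ↔ s(u, w) ∈ A0.1) ∧ (s(v, w) ∈ A.1 ↔ s(v, w) ∈ A0.1) := by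
  by_cases h1 : w = u
  · subst h1
    refine ⟨by simp [gtr_not_diag], ?_⟩
    rw [Sym2.eq_swap]
    exact gtr_uv huv h
  by_cases h2 : w = v
  · subst h2
    exact ⟨gtr_uv huv h, by simp [gtr_not_diag]⟩
  have h3 : ¬ (s(u, w) ∈ A0.1 ↔ s(v, w) ∉ A0.1) := fun h3 => hw (gtr_mem_phi.mpr ⟨h1, h2, h3⟩)
  have := gtr_pair_sum huv h h1 h2
  by_cases a1 : s(u, w) ∈ A.1 <;> by_cases a2 : s(v, w) ∈ A.1 <;>
    by_cases a3 : s(u, w) ∈ A0.1 <;> by_cases a4 : s(v, w) ∈ A0.1 <;>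
    simp only [a1, a2, a3, a4, if_true, if_false] at * <;> first | omega | tauto

/-- P3 on the level of `V` -/
theorem gtr_P3 {u v : V} (huv : u ≠ v) {A0 A : Gr d}
    (h : skey (star {u, v}) A = skey (star {u, v}) A0) :
    ((gtrPhi u v A0).filter (fun w => s(u, w) ∈ A.1)).card
      = ((gtrPhi u v A0).filter (fun w => s(u, w) ∈ A0.1)).card := by
  have hA := gtr_deg A u
  have hB := gtr_deg A0 u
  rw [← Finset.sum_sdiff (Finset.subset_univ (gtrPhi u v A0))] at hA hB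
  have hrest : ∑ w ∈ univ \ gtrPhi u v A0, (if s(u, w) ∈ A.1 then 1 else 0 : ℕ)
      = ∑ w ∈ univ \ gtrPhi u v A0, (if s(u, w) ∈ A0.1 then 1 else 0 : ℕ) := by
    refine Finset.sum_congr rfl (fun z hz => ?_)
    simp only [mem_sdiff, mem_univ, true_and] at hz
    simp only [(gtr_P2 huv h hz).1]
  rw [Finset.card_filter, Finset.card_filter]
  omega

end Vale.Agent.Lib.P335
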