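import Vale.Agent.Lib.P335.G.GTRa

namespace Vale.Agent.Lib.P335

open Finset

variable {V : Type*} [Fintype V] [DecidableEq V] {d : V → ℕ}

theorem gtr_mem_cross {u v x y : V} {e : Sym2 V} :
    e ∈ cross u v x y ↔ e = s(u, x) ∨ e = s(u, y) ∨ e = s(v, x) ∨ e = s(v, y) := by
  simp [cross]

theorem gtr_switch_isGr {u v x y : V} (huv : u ≠ v) (hxy : x ≠ y) (hux : u ≠ x) (huy : u ≠ y)
    (hvx : v ≠ x) (hvy : v ≠ y) (A : Gr d) (h1 : s(u, x) ∈ A.1) (h2 : s(v, y) ∈ A.1)
    (h3 : s(u, y) ∉ A.1) (h4 : s(v, x) ∉ A.1) : IsGr d (symmDiff A.1 (cross u v x y)) := by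
  have hset : symmDiff A.1 (cross u v x y)
      = (A.1 \ {s(u, x), s(v, y)}) ∪ {s(u, y), s(v, x)} := by
    ext e
    simp only [mem_symmDiff, gtr_mem_cross, mem_union, mem_sdiff, mem_insert, mem_singleton]
    constructor
    · rintro (⟨ha, hn⟩ | ⟨(rfl | rfl | rfl | rfl), hn⟩)
      · left; exact ⟨ha, by tauto⟩
      · exact absurd h1 hn
      · right; left; rfl
      · right; right; rfl
      · exact absurd h2 hn
    · rintro (⟨ha, hn⟩ | rfl | rfl)
      · left
        refine ⟨ha, ?_⟩
        rintro (rfl | rfl | rfl | rfl)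
        · exact hn (Or.inl rfl)
        · exact h3 ha
        · exact h4 ha
        · exact hn (Or.inr rfl)
      · right; exact ⟨by tauto, h3⟩
      · right; exact ⟨by tauto, h4⟩
  have hP : ({s(u, x), s(v, y)} : Finset (Sym2 V)) ⊆ A.1 := by
    intro e he
    simp only [mem_insert, mem_singleton] at he
    rcases he with rfl | rfl <;> assumption
  have hdisj : Disjoint (A.1 \ {s(u, x), s(v, y)}) ({s(u, y), s(v, x)} : Finset (Sym2 V)) := by
    rw [Finset.disjoint_right]
    intro e he
    simp only [mem_insert, mem_singleton] at he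
    rcases he with rfl | rfl
    · simp [h3]
    · simp [h4]
  have hne1 : s(u, x) ≠ s(v, y) := by
    intro h; rw [Sym2.eq_iff] at h; tauto
  have hne2 : s(u, y) ≠ s(v, x) := by
    intro h; rw [Sym2.eq_iff] at h; tauto
  constructor
  · intro e he
    rw [hset] at he
    simp only [mem_union, mem_sdiff, mem_insert, mem_singleton] at he
    rcases he with ⟨ha, _⟩ | rfl | rfl
    · exact A.2.1 e ha
    · simpa using huy
    · simpa using hvx
  · intro w
    have hA := A.2.2 w
    rw [Finset.card_filter] at hA ⊢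
    rw [hset, Finset.sum_union hdisj, Finset.sum_pair hne2]
    rw [← Finset.sum_sdiff hP, Finset.sum_pair hne1] at hA
    simp only [Sym2.mem_iff] at hA ⊢
    have : (if w = u ∨ w = x then 1 else 0 : ℕ) + (if w = v ∨ w = y then 1 else 0)
        = (if w = u ∨ w = y then 1 else 0) + (if w = v ∨ w = x then 1 else 0) := by
      by_cases a1 : w = u
      · subst a1; simp [huv, hux, huy]
      by_cases a2 : w = v
      · subst a2; simp [hvx, hvy, a1]
      by_cases a3 : w = x
      · subst a3; simp [a1, a2, hxy]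
      by_cases a4 : w = y
      · subst a4; simp [a1, a2, a3]
      simp [a1, a2, a3, a4]
    omega

end Vale.Agent.Lib.P335
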