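import Vale.Agent.Lib.P335.G.Johnson

namespace Vale.Agent.Lib.P335

open Finset

variable {Φ : Type*} [Fintype Φ] [DecidableEq Φ]

theorem gtr_mem_jsw {k : ℕ} (x y w : Φ) (s : Joh Φ k) :
    w ∈ (jsw x y s).1 ↔ Equiv.swap x y w ∈ s.1 := by
  simp [jsw, Finset.mem_map_equiv]

theorem gtr_jsw_invol {k : ℕ} (x y : Φ) (s : Joh Φ k) : jsw x y (jsw x y s) = s := by
  apply Subtype.ext
  ext w
  rw [gtr_mem_jsw, gtr_mem_jsw, Equiv.swap_apply_self]

theorem gtr_jsw_eq_iff {k : ℕ} (x y : Φ) (s : Joh Φ k) :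
    jsw x y s = s ↔ (x ∈ s.1 ↔ y ∈ s.1) := by
  constructor
  · intro h
    have := gtr_mem_jsw x y x s
    rw [h, Equiv.swap_apply_left] at this
    exact this
  · intro h
    apply Subtype.ext
    ext w
    rw [gtr_mem_jsw]
    by_cases h1 : w = x
    · subst h1; rw [Equiv.swap_apply_left]; exact h.symm
    by_cases h2 : w = y
    · subst h2; rw [Equiv.swap_apply_right]; exact h
    rw [Equiv.swap_apply_of_ne_of_ne h1 h2]

theorem gtr_joh_conn {k : ℕ} (P : Joh Φ k → Prop) (hP : ∀ x y s, P s → P (jsw x y s))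
    (s0 : Joh Φ k) (h0 : P s0) (t : Joh Φ k) : P t := by
  have key : ∀ n : ℕ, ∀ s : Joh Φ k, P s → (s.1 \ t.1).card = n → P t := by
    intro n
    induction n with
    | zero =>
      intro s hs hc
      have hsub : s.1 ⊆ t.1 := by
        rw [Finset.card_eq_zero, Finset.sdiff_eq_empty_iff_subset] at hc
        exact hc
      have : s.1 = t.1 := Finset.eq_of_subset_of_card_le hsub (by rw [s.2, t.2])
      have : s = t := Subtype.ext this
      rw [← this]; exact hs
    | succ n ih =>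
      intro s hs hc
      have hc' : (t.1 \ s.1).card = n + 1 := by
        rw [← hc]
        exact Finset.card_sdiff_comm (by rw [s.2, t.2])
      obtain ⟨x, hx⟩ : (s.1 \ t.1).Nonempty := by
        rw [← Finset.card_pos]; omega
      obtain ⟨y, hy⟩ : (t.1 \ s.1).Nonempty := by
        rw [← Finset.card_pos]; omega
      rw [mem_sdiff] at hx hy
      apply ih (jsw x y s) (hP x y s hs)
      have : (jsw x y s).1 \ t.1 = (s.1 \ t.1).erase x := by
        ext w
        rw [mem_sdiff, gtr_mem_jsw, mem_erase, mem_sdiff]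
        by_cases h1 : w = x
        · subst h1; rw [Equiv.swap_apply_left]; tauto
        by_cases h2 : w = y
        · subst h2; rw [Equiv.swap_apply_right]; tauto
        rw [Equiv.swap_apply_of_ne_of_ne h1 h2]; tauto
      rw [this, Finset.card_erase_of_mem (by rw [mem_sdiff]; exact hx), hc]
      rfl
  exact key _ s0 h0 rfl

/-- the set where the exchange acts splits into two halves exchanged by it -/
theorem gtr_joh_split {k : ℕ} (x y : Φ) (s0 : Joh Φ k) (h0 : jsw x y s0 ≠ s0)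
    (g : Joh Φ k → ℝ) :
    ∑ s ∈ univ.filter (fun s : Joh Φ k => jsw x y s ≠ s), g s
      = ∑ s ∈ univ.filter (fun s : Joh Φ k => (x ∈ s.1 ↔ x ∈ s0.1) ∧ (y ∈ s.1 ↔ y ∈ s0.1)),
          (g s + g (jsw x y s)) := by
  rw [Ne, gtr_jsw_eq_iff] at h0
  have hD : univ.filter (fun s : Joh Φ k => jsw x y s ≠ s)
      = univ.filter (fun s : Joh Φ k => (x ∈ s.1 ↔ x ∈ s0.1) ∧ (y ∈ s.1 ↔ y ∈ s0.1))
        ∪ univ.filter (fun s : Joh Φ k => (x ∈ s.1 ↔ ¬ x ∈ s0.1) ∧ (y ∈ s.1 ↔ ¬ y ∈ s0.1)) := by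
    ext s
    simp only [mem_filter, mem_univ, true_and, mem_union, Ne, gtr_jsw_eq_iff]
    tauto
  have hdisj : Disjoint
      (univ.filter (fun s : Joh Φ k => (x ∈ s.1 ↔ x ∈ s0.1) ∧ (y ∈ s.1 ↔ y ∈ s0.1)))
      (univ.filter (fun s : Joh Φ k => (x ∈ s.1 ↔ ¬ x ∈ s0.1) ∧ (y ∈ s.1 ↔ ¬ y ∈ s0.1))) := by
    rw [Finset.disjoint_left]
    intro s hs hs'
    simp only [mem_filter, mem_univ, true_and] at hs hs'
    tauto
  rw [hD, Finset.sum_union hdisj, Finset.sum_add_distrib]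
  congr 1
  symm
  apply Finset.sum_nbij' (fun s => jsw x y s) (fun s => jsw x y s)
  · intro s hs
    simp only [mem_filter, mem_univ, true_and] at hs ⊢
    rw [gtr_mem_jsw, gtr_mem_jsw, Equiv.swap_apply_left, Equiv.swap_apply_right]
    tauto
  · intro s hs
    simp only [mem_filter, mem_univ, true_and] at hs ⊢
    rw [gtr_mem_jsw, gtr_mem_jsw, Equiv.swap_apply_left, Equiv.swap_apply_right]
    tauto
  · intro s _; exact gtr_jsw_invol x y s
  · intro s _; exact gtr_jsw_invol x y s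
  · intro s _; rfl

theorem gtr_joh_split_card {k : ℕ} (x y : Φ) (s0 : Joh Φ k) (h0 : jsw x y s0 ≠ s0) :
    ((univ.filter (fun s : Joh Φ k => jsw x y s ≠ s)).card : ℝ)
      = 2 * ((univ.filter
          (fun s : Joh Φ k => (x ∈ s.1 ↔ x ∈ s0.1) ∧ (y ∈ s.1 ↔ y ∈ s0.1))).card : ℝ) := by
  have := gtr_joh_split x y s0 h0 (fun _ => 1)
  simp only [Finset.sum_const, nsmul_eq_mul, mul_one] at this
  rw [this]
  ring

end Vale.Agent.Lib.P335
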