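import Vale.Agent.Lib.P335.G.GTRb
import Vale.Agent.Lib.P335.G.GTRc

namespace Vale.Agent.Lib.P335

open Finset

variable {V : Type*} [Fintype V] [DecidableEq V] {d : V → ℕ}

theorem gtr_cross_swap_xy (u v x y : V) : cross u v y x = cross u v x y := by
  ext e
  simp only [gtr_mem_cross]
  tauto

/-- membership of `s(u, w)` in the cross -/
theorem gtr_uw_mem_cross {u v x y w : V} (huv : u ≠ v) (hux : u ≠ x) (huy : u ≠ y) :
    s(u, w) ∈ cross u v x y ↔ w = x ∨ w = y := by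
  simp only [gtr_mem_cross, Sym2.eq_iff]
  constructor
  · rintro (h | h | h | h) <;> tauto
  · rintro (h | h) <;> tauto

/-- if the flipped set is a graph then exactly one of `ux`, `uy` is an edge -/
theorem gtr_isGr_imp {u v x y : V} (huv : u ≠ v) (hxy : x ≠ y) (hux : u ≠ x) (huy : u ≠ y)
    (A : Gr d) (h : IsGr d (symmDiff A.1 (cross u v x y))) :
    s(u, x) ∈ A.1 ↔ s(u, y) ∉ A.1 := by
  have hA := gtr_deg A u
  have hB := gtr_deg (⟨_, h⟩ : Gr d) u
  rw [gtr_sum_split hxy] at hA hB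
  have hrest : ∑ w ∈ univ \ {x, y}, (if s(u, w) ∈ symmDiff A.1 (cross u v x y) then 1 else 0 : ℕ)
      = ∑ w ∈ univ \ {x, y}, (if s(u, w) ∈ A.1 then 1 else 0 : ℕ) := by
    refine Finset.sum_congr rfl (fun z hz => ?_)
    simp only [mem_sdiff, mem_univ, true_and, mem_insert, mem_singleton, not_or] at hz
    have hn : s(u, z) ∉ cross u v x y := by
      rw [gtr_uw_mem_cross huv hux huy]; tauto
    have : s(u, z) ∈ symmDiff A.1 (cross u v x y) ↔ s(u, z) ∈ A.1 := by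
      rw [mem_symmDiff]; tauto
    simp only [this]
  have hx : s(u, x) ∈ symmDiff A.1 (cross u v x y) ↔ s(u, x) ∉ A.1 := by
    have : s(u, x) ∈ cross u v x y := by rw [gtr_uw_mem_cross huv hux huy]; tauto
    rw [mem_symmDiff]; tauto
  have hy : s(u, y) ∈ symmDiff A.1 (cross u v x y) ↔ s(u, y) ∉ A.1 := by
    have : s(u, y) ∈ cross u v x y := by rw [gtr_uw_mem_cross huv hux huy]; tauto
    rw [mem_symmDiff]; tauto
  simp only [hx, hy, hrest] at hB
  by_cases a1 : s(u, x) ∈ A.1 <;> by_cases a2 : s(u, y) ∈ A.1 <;>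
    simp only [a1, a2, if_true, if_false, not_true, not_false_iff] at * <;> omega

/-- the class of `A0` -/
abbrev gtrCls (u v : V) (A0 : Gr d) :=
  {A : Gr d // skey (star {u, v}) A = skey (star {u, v}) A0}

/-- the neighbours of `u` among the free vertices -/
def gtrSet (u v : V) (A0 A : Gr d) : Finset (gtrPhi u v A0) :=
  univ.filter (fun w => s(u, w.1) ∈ A.1)

theorem gtr_mem_set {u v : V} {A0 A : Gr d} {w : gtrPhi u v A0} :
    w ∈ gtrSet u v A0 A ↔ s(u, w.1) ∈ A.1 := by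
  simp [gtrSet]

theorem gtr_card_subtype (T : Finset V) (p : V → Prop) [DecidablePred p] :
    (univ.filter (fun w : T => p w.1)).card = (T.filter p).card := by
  apply Finset.card_nbij (fun w => w.1)
  · intro w hw
    simp only [coe_filter, mem_univ, true_and, Set.mem_ofPred_eq] at hw
    simp [hw]
  · intro w _ w' _ h
    exact Subtype.ext h
  · intro z hz
    simp only [coe_filter, Set.mem_ofPred_eq] at hz
    exact ⟨⟨z, hz.1⟩, by simpa using hz.2, rfl⟩

theorem gtr_card_set {u v : V} (huv : u ≠ v) {A0 A : Gr d}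
    (h : skey (star {u, v}) A = skey (star {u, v}) A0) :
    (gtrSet u v A0 A).card = (gtrSet u v A0 A0).card := by
  unfold gtrSet
  rw [gtr_card_subtype (gtrPhi u v A0) (fun w => s(u, w) ∈ A.1),
    gtr_card_subtype (gtrPhi u v A0) (fun w => s(u, w) ∈ A0.1)]
  exact gtr_P3 huv h

/-- the map to the Johnson scheme -/
def gtrE {u v : V} (huv : u ≠ v) (A0 : Gr d) (A : gtrCls u v A0) :
    Joh (gtrPhi u v A0) (gtrSet u v A0 A0).card :=
  ⟨gtrSet u v A0 A.1, gtr_card_set huv A.2⟩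

theorem gtr_mem_E {u v : V} (huv : u ≠ v) (A0 : Gr d) (A : gtrCls u v A0) (w : gtrPhi u v A0) :
    w ∈ (gtrE huv A0 A).1 ↔ s(u, w.1) ∈ A.1.1 := gtr_mem_set

theorem gtr_E_inj {u v : V} (huv : u ≠ v) (A0 : Gr d) : Function.Injective (gtrE huv A0) := by
  intro A B h
  have key : ∀ w, (s(u, w) ∈ A.1.1 ↔ s(u, w) ∈ B.1.1) ∧ (s(v, w) ∈ A.1.1 ↔ s(v, w) ∈ B.1.1) := by
    intro w
    by_cases hw : w ∈ gtrPhi u v A0
    · have h1 : s(u, w) ∈ A.1.1 ↔ s(u, w) ∈ B.1.1 := by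
        have e1 := gtr_mem_E huv A0 A ⟨w, hw⟩
        have e2 := gtr_mem_E huv A0 B ⟨w, hw⟩
        rw [h] at e1
        exact e1.symm.trans e2
      have a1 := gtr_P1 huv A.2 hw
      have a2 := gtr_P1 huv B.2 hw
      exact ⟨h1, by tauto⟩
    · have a1 := gtr_P2 huv A.2 hw
      have a2 := gtr_P2 huv B.2 hw
      exact ⟨a1.1.trans a2.1.symm, a1.2.trans a2.2.symm⟩
  apply Subtype.ext
  apply Subtype.ext
  ext e
  induction e with
  | _ a b =>
    by_cases hS : s(a, b) ∈ star ({u, v} : Finset V)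
    · rw [gtr_mem_star] at hS
      rcases hS with rfl | rfl | rfl | rfl
      · exact (key b).1
      · exact (key b).2
      · rw [Sym2.eq_swap]; exact (key a).1
      · rw [Sym2.eq_swap]; exact (key a).2
    · exact (skey_eq_iff.mp (A.2.trans B.2.symm)) _ hS

/-- the switch inside the class -/
def gtrSw {u v : V} (A0 : Gr d) (x y : V) (A : gtrCls u v A0) : gtrCls u v A0 :=
  ⟨sw (cross u v x y) A.1, (skey_sw (cross_subset_star u v x y) A.1).trans A.2⟩

/-- T2 -/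
theorem gtr_E_sw {u v : V} (huv : u ≠ v) (A0 : Gr d) (x y : gtrPhi u v A0) (A : gtrCls u v A0) :
    gtrE huv A0 (gtrSw A0 x.1 y.1 A) = jsw x y (gtrE huv A0 A) := by
  obtain ⟨hxu, hxv, -⟩ := gtr_mem_phi.mp x.2
  obtain ⟨hyu, hyv, -⟩ := gtr_mem_phi.mp y.2
  by_cases hxy : x = y
  · subst hxy
    have h1 : sw (cross u v x.1 x.1) A.1 = A.1 :=
      sw_cross_of_not_distinct (by tauto) A.1
    have h2 : gtrSw A0 x.1 x.1 A = A := Subtype.ext h1
    rw [h2, (gtr_jsw_eq_iff x x _).mpr Iff.rfl]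
  have hxy' : x.1 ≠ y.1 := fun h => hxy (Subtype.ext h)
  by_cases hG : IsGr d (symmDiff A.1.1 (cross u v x.1 y.1))
  · have hone := gtr_isGr_imp huv hxy' hxu.symm hyu.symm A.1 hG
    apply Subtype.ext
    ext w
    rw [gtr_mem_jsw, gtr_mem_E, gtr_mem_E]
    have hsw : (gtrSw A0 x.1 y.1 A).1.1 = symmDiff A.1.1 (cross u v x.1 y.1) := by
      simp only [gtrSw, sw, dif_pos hG]
    rw [hsw, mem_symmDiff, gtr_uw_mem_cross huv hxu.symm hyu.symm]
    by_cases h1 : w = x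
    · subst h1; rw [Equiv.swap_apply_left]; tauto
    by_cases h2 : w = y
    · subst h2; rw [Equiv.swap_apply_right]; tauto
    rw [Equiv.swap_apply_of_ne_of_ne h1 h2]
    have h1' : w.1 ≠ x.1 := fun h => h1 (Subtype.ext h)
    have h2' : w.1 ≠ y.1 := fun h => h2 (Subtype.ext h)
    tauto
  · have h1 : sw (cross u v x.1 y.1) A.1 = A.1 := by
      simp only [sw, dif_neg hG]
    have h2 : gtrSw A0 x.1 y.1 A = A := Subtype.ext h1
    rw [h2]
    symm
    rw [gtr_jsw_eq_iff, gtr_mem_E, gtr_mem_E]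
    by_contra hcon
    apply hG
    have px := gtr_P1 huv A.2 x.2
    have py := gtr_P1 huv A.2 y.2
    by_cases a1 : s(u, x.1) ∈ A.1.1
    · have b2 : s(u, y.1) ∉ A.1.1 := fun hb => hcon ⟨fun _ => hb, fun _ => a1⟩
      have b3 : s(v, y.1) ∈ A.1.1 := by
        by_contra hb; exact b2 (py.mpr hb)
      have b4 : s(v, x.1) ∉ A.1.1 := px.mp a1
      exact gtr_switch_isGr huv hxy' hxu.symm hyu.symm hxv.symm hyv.symm A.1 a1 b3 b2 b4
    · have b2 : s(u, y.1) ∈ A.1.1 := by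
        by_contra hb; exact hcon ⟨fun h => absurd h a1, fun h => absurd h hb⟩
      have b3 : s(v, x.1) ∈ A.1.1 := by
        by_contra hb; exact a1 (px.mpr hb)
      have b4 : s(v, y.1) ∉ A.1.1 := py.mp b2
      rw [← gtr_cross_swap_xy]
      exact gtr_switch_isGr huv hxy'.symm hyu.symm hxu.symm hyv.symm hxv.symm A.1 b2 b3 a1 b4

theorem gtr_E_surj {u v : V} (huv : u ≠ v) (A0 : Gr d) : Function.Surjective (gtrE huv A0) := by
  intro t
  refine gtr_joh_conn (fun t => ∃ A, gtrE huv A0 A = t) ?_ (gtrE huv A0 ⟨A0, rfl⟩) ⟨_, rfl⟩ t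
  rintro x y s ⟨A, rfl⟩
  exact ⟨gtrSw A0 x.1 y.1 A, gtr_E_sw huv A0 x y A⟩

/-- the class is a Johnson scheme -/
noncomputable def gtrEq {u v : V} (huv : u ≠ v) (A0 : Gr d) :
    gtrCls u v A0 ≃ Joh (gtrPhi u v A0) (gtrSet u v A0 A0).card :=
  Equiv.ofBijective (gtrE huv A0) ⟨gtr_E_inj huv A0, gtr_E_surj huv A0⟩

/-- T3 -/
theorem gtr_sw_ne_imp {u v : V} (huv : u ≠ v) (A0 : Gr d) (A : gtrCls u v A0) (x y : V)
    (h : sw (cross u v x y) A.1 ≠ A.1) : x ∈ gtrPhi u v A0 ∧ y ∈ gtrPhi u v A0 := by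
  have hd : u ≠ v ∧ x ≠ y ∧ u ≠ x ∧ u ≠ y ∧ v ≠ x ∧ v ≠ y := by
    by_contra hcon
    exact h (sw_cross_of_not_distinct hcon A.1)
  obtain ⟨-, hxy, hux, huy, hvx, hvy⟩ := hd
  have hG : IsGr d (symmDiff A.1.1 (cross u v x y)) := by
    by_contra hcon
    apply h
    simp only [sw, dif_neg hcon]
  rw [← gtr_phi_congr huv A.2]
  constructor
  · have hG' : IsGr d (symmDiff A.1.1 (cross x y u v)) := by
      rw [cross_swap_pairs]; exact hG
    have := gtr_isGr_imp hxy huv hux.symm hvx.symm A.1 hG'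
    rw [Sym2.eq_swap (a := x) (b := u), Sym2.eq_swap (a := x) (b := v)] at this
    exact gtr_mem_phi.mpr ⟨hux.symm, hvx.symm, this⟩
  · have hG' : IsGr d (symmDiff A.1.1 (cross y x u v)) := by
      rw [cross_swap_pairs, gtr_cross_swap_xy]; exact hG
    have := gtr_isGr_imp hxy.symm huv huy.symm hvy.symm A.1 hG'
    rw [Sym2.eq_swap (a := y) (b := u), Sym2.eq_swap (a := y) (b := v)] at this
    exact gtr_mem_phi.mpr ⟨huy.symm, hvy.symm, this⟩

end Vale.Agent.Lib.P335
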